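import Mathlib

/-! [F] definitions used by the final statement -/

open MeasureTheory Filter Topology

namespace Vale.Agent.P143

variable {V : Type*}

/-- `T` is the edge set of a spanning tree of the subgraph `H` -/
def IsSpanningTree {G : SimpleGraph V} (H : G.Subgraph) (T : Finset (Sym2 V)) : Prop :=
  (T : Set (Sym2 V)) ⊆ H.edgeSet ∧
    ((SimpleGraph.fromEdgeSet (T : Set (Sym2 V))).induce H.verts).IsTree

/-- probability, under the uniform spanning tree `T` of `H`, of the cylinder event that
for every `e ∈ F`: `e ∈ T` if and only if `η e` -/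
noncomputable def ustProb {G : SimpleGraph V} (H : G.Subgraph) (F : Finset (Sym2 V))
    (η : Sym2 V → Bool) : ℝ :=
  (Nat.card {T : Finset (Sym2 V) // IsSpanningTree H T ∧ ∀ e ∈ F, (e ∈ T ↔ η e = true)} : ℝ) /
    (Nat.card {T : Finset (Sym2 V) // IsSpanningTree H T} : ℝ)

/-- `H` is an exhaustion of `G` by finite connected subgraphs -/
structure IsExhaustion (G : SimpleGraph V) (H : ℕ → G.Subgraph) : Prop where
  finite : ∀ n, (H n).verts.Finite
  connected : ∀ n, (H n).Connected
  mono : Monotone H
  union : ⨆ n, H n = ⊤

/-- `ν` is the free uniform spanning forest of `G`: `G` has an exhaustion by finite connected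
subgraphs and along every such exhaustion the uniform spanning trees converge weakly to `ν`
(an edge set is coded by its indicator `Sym2 V → Bool`; weak convergence means convergence of
all cylinder probabilities) -/
def IsFUSF (G : SimpleGraph V) (ν : Measure (Sym2 V → Bool)) : Prop :=
  IsProbabilityMeasure ν ∧ (∃ H : ℕ → G.Subgraph, IsExhaustion G H) ∧
    ∀ H : ℕ → G.Subgraph, IsExhaustion G H →
      ∀ (F : Finset (Sym2 V)) (η : Sym2 V → Bool),
        Tendsto (fun n => ustProb (H n) F η) atTop
          (𝓝 (ν {x | ∀ e ∈ F, x e = η e}).toReal)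

/-- i.i.d. labels, uniform on `[0,1]`, indexed by `ι` -/
noncomputable abbrev iid (ι : Type*) : Measure (ι → unitInterval) :=
  Measure.infinitePi fun _ : ι => (volume : Measure unitInterval)

/-- the graph on `V` whose edges are the non-diagonal pairs `e` with `g e = true` -/
def codeGraph (g : Sym2 V → Bool) : SimpleGraph V :=
  SimpleGraph.fromEdgeSet {e | g e = true}

end Vale.Agent.P143
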