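import Vale.Agent.P143.Defs
import Vale.Agent.P143.FDefs

/-! [F1]-[F3]: spanning trees of finite connected subgraphs are bases; equivariance of the set of
bases; exhaustions. -/

open MeasureTheory Filter Topology

namespace Vale.Agent.P143

variable {V : Type*}

theorem gr_adj {A : Finset (Sym2 V)} {x y : V} : (gr A).Adj x y ↔ s(x, y) ∈ A ∧ x ≠ y := by
  simp [gr]

/-! ### (1) spanning trees of a finite connected subgraph -/

theorem walk_support {G : SimpleGraph V} (H : G.Subgraph) {T : Finset (Sym2 V)}
    (hT : (T : Set (Sym2 V)) ⊆ H.edgeSet) {u v : V} (w : (gr T).Walk u v) (hu : u ∈ H.verts) :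
    ∀ x ∈ w.support, x ∈ H.verts := by
  induction w with
  | nil =>
    intro x hx
    simp only [SimpleGraph.Walk.support_nil, List.mem_singleton] at hx
    rw [hx]
    exact hu
  | cons h p ih =>
    intro x hx
    rw [SimpleGraph.Walk.support_cons, List.mem_cons] at hx
    rcases hx with rfl | hx
    · exact hu
    · refine ih ?_ x hx
      have h1 : s(_, _) ∈ H.edgeSet := hT (gr_adj.1 h).1
      exact H.edge_vert (SimpleGraph.Subgraph.mem_edgeSet.1 h1).symm

theorem verts_of_adj {G : SimpleGraph V} (H : G.Subgraph) {T : Finset (Sym2 V)}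
    (hT : (T : Set (Sym2 V)) ⊆ H.edgeSet) {u v : V} (h : (gr T).Adj u v) : u ∈ H.verts := by
  have h1 : s(u, v) ∈ H.edgeSet := hT (gr_adj.1 h).1
  exact H.edge_vert (SimpleGraph.Subgraph.mem_edgeSet.1 h1)

theorem isSpanningTree_iff {G : SimpleGraph V} {H : G.Subgraph} (hH : H.Connected)
    {A : Finset (Sym2 V)} (hA : (A : Set (Sym2 V)) = H.edgeSet) (T : Finset (Sym2 V)) :
    IsSpanningTree H T ↔ IsBase A T := by
  have hAG : ∀ e ∈ A, ¬ e.IsDiag := fun e he => by
    have h1 : e ∈ H.edgeSet := hA ▸ (Finset.mem_coe.2 he)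
    exact G.not_isDiag_of_mem_edgeSet (H.edgeSet_subset h1)
  constructor
  · rintro ⟨hT, htree⟩
    have hTA : T ⊆ A := by
      intro e he
      have : e ∈ (A : Set (Sym2 V)) := hA ▸ hT (Finset.mem_coe.2 he)
      exact Finset.mem_coe.1 this
    refine ⟨hTA, fun e he => hAG e (hTA he), ?_, ?_⟩
    · intro u c hc
      have hu : u ∈ H.verts := by
        cases c with
        | nil => exact absurd hc SimpleGraph.Walk.not_isCycle_nil
        | cons h p => exact verts_of_adj H hT h
      have hs : ∀ x ∈ c.support, x ∈ H.verts := walk_support H hT c hu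
      have hc' : (c.induce H.verts hs).IsCycle := by
        have h1 : ((c.induce H.verts hs).map
            (SimpleGraph.Embedding.induce (G := gr T) H.verts).toHom).IsCycle := by
          rw [SimpleGraph.Walk.map_induce]
          exact hc
        exact (SimpleGraph.Walk.isCycle_map_iff_of_injective
          (SimpleGraph.Embedding.induce (G := gr T) H.verts).injective).1 h1
      exact htree.isAcyclic _ hc'
    · intro x y hxy
      by_cases hne : x = y
      · rw [hne]
      · obtain ⟨w⟩ := hxy
        have hAs : (A : Set (Sym2 V)) ⊆ H.edgeSet := hA.le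
        have hx : x ∈ H.verts := by
          cases w with
          | nil => exact absurd rfl hne
          | cons h p => exact verts_of_adj H hAs h
        have hy : y ∈ H.verts := walk_support H hAs w hx _ w.end_mem_support
        have h1 := htree.connected.preconnected ⟨x, hx⟩ ⟨y, hy⟩
        exact h1.map (SimpleGraph.Embedding.induce (G := gr T) H.verts).toHom
  · rintro ⟨hTA, hd, hac, hre⟩
    have hT : (T : Set (Sym2 V)) ⊆ H.edgeSet := fun e he => hA ▸ (Finset.mem_coe.2
      (hTA (Finset.mem_coe.1 he)))
    refine ⟨hT, ?_⟩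
    have : Nonempty H.verts := hH.coe.nonempty
    refine ⟨⟨?_⟩, hac.induce H.verts⟩
    · rintro ⟨x, hx⟩ ⟨y, hy⟩
      have h1 : H.coe.Reachable ⟨x, hx⟩ ⟨y, hy⟩ := hH.preconnected.coe ⟨x, hx⟩ ⟨y, hy⟩
      have h2 : (gr A).Reachable x y := by
        let f : H.coe →g gr A :=
          { toFun := fun v => v.1
            map_rel' := by
              intro a b hab
              have h3 : H.Adj a.1 b.1 := hab
              refine gr_adj.2 ⟨?_, h3.ne⟩
              have : s(a.1, b.1) ∈ (A : Set (Sym2 V)) := by
                rw [hA]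
                exact SimpleGraph.Subgraph.mem_edgeSet.2 h3
              exact Finset.mem_coe.1 this }
        exact h1.map f
      obtain ⟨w⟩ := hre x y h2
      exact ⟨w.induce H.verts (walk_support H hT w hx)⟩

theorem ustProb_eq {G : SimpleGraph V} {H : G.Subgraph} (hH : H.Connected)
    {A : Finset (Sym2 V)} (hA : (A : Set (Sym2 V)) = H.edgeSet) (F : Finset (Sym2 V))
    (η : Sym2 V → Bool) [DecidablePred fun B : Finset (Sym2 V) => ∀ e ∈ F, (e ∈ B ↔ η e = true)] :
    ustProb H F η = ∑ B ∈ (bases A).filter (fun B => ∀ e ∈ F, (e ∈ B ↔ η e = true)),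
      prb (bases A) (fun _ => 0) B := by
  classical
  have hw : ∀ B : Finset (Sym2 V), wt (fun _ : Sym2 V => (0 : ℝ)) B = 1 := by
    intro B
    simp [wt]
  have hmem : ∀ T : Finset (Sym2 V), T ∈ bases A ↔ IsSpanningTree H T := by
    intro T
    rw [isSpanningTree_iff hH hA]
    unfold bases
    rw [Finset.mem_filter, Finset.mem_powerset]
    exact ⟨fun h => h.2, fun h => ⟨h.1, h⟩⟩
  have hc : ∀ p : Finset (Sym2 V) → Prop, ∀ s : Finset (Finset (Sym2 V)),
      (∀ T, T ∈ s ↔ p T) → (Nat.card {T : Finset (Sym2 V) // p T} : ℝ) = s.card := by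
    intro p s hs
    rw [Nat.subtype_card s hs]
  have h1 : (Nat.card {T : Finset (Sym2 V) // IsSpanningTree H T ∧
      ∀ e ∈ F, (e ∈ T ↔ η e = true)} : ℝ) =
      ((bases A).filter (fun B => ∀ e ∈ F, (e ∈ B ↔ η e = true))).card :=
    hc _ _ fun T => by rw [Finset.mem_filter, hmem]
  have h2 : (Nat.card {T : Finset (Sym2 V) // IsSpanningTree H T} : ℝ) = (bases A).card :=
    hc _ _ fun T => hmem T
  unfold ustProb
  rw [h1, h2]
  unfold prb Zf
  simp only [hw]
  rw [Finset.sum_const, Finset.sum_const]
  simp only [nsmul_eq_mul, mul_one]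
  rw [mul_one_div]

/-! ### (2) equivariance of the set of bases -/

theorem sym2_map_symm_map (π : Equiv.Perm V) (e : Sym2 V) :
    Sym2.map π.symm (Sym2.map π e) = e := by
  induction e using Sym2.ind with
  | _ x y => simp

theorem sym2_map_map_symm (π : Equiv.Perm V) (e : Sym2 V) :
    Sym2.map π (Sym2.map π.symm e) = e := by
  induction e using Sym2.ind with
  | _ x y => simp

/-- the permutation of the unordered pairs induced by a permutation of the vertices -/
def symPerm (π : Equiv.Perm V) : Equiv.Perm (Sym2 V) where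
  toFun := Sym2.map π
  invFun := Sym2.map π.symm
  left_inv := sym2_map_symm_map π
  right_inv := sym2_map_map_symm π

theorem symPerm_apply (π : Equiv.Perm V) (e : Sym2 V) : symPerm π e = Sym2.map π e := rfl

theorem symPerm_symm_apply (π : Equiv.Perm V) (e : Sym2 V) :
    (symPerm π).symm e = Sym2.map π.symm e := rfl

/-- the isomorphism of graphs induced by a permutation of the vertices -/
def grIso [DecidableEq (Sym2 V)] (π : Equiv.Perm V) (A : Finset (Sym2 V)) :
    gr A ≃g gr (A.image (symPerm π)) where
  toEquiv := π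
  map_rel_iff' := by
    intro x y
    rw [gr_adj, gr_adj]
    have h1 : s(π x, π y) ∈ A.image (symPerm π) ↔ s(x, y) ∈ A := by
      have h2 : s(π x, π y) = symPerm π s(x, y) := rfl
      rw [h2]
      exact (symPerm π).injective.mem_finset_image
    change s(π x, π y) ∈ A.image (symPerm π) ∧ π x ≠ π y ↔ _
    rw [h1, π.injective.ne_iff]

theorem isDiag_symPerm (π : Equiv.Perm V) (e : Sym2 V) : (symPerm π e).IsDiag ↔ e.IsDiag := by
  induction e using Sym2.ind with
  | _ x y => simp [symPerm_apply]

theorem isBase_image [DecidableEq (Sym2 V)] (π : Equiv.Perm V) {A B : Finset (Sym2 V)} :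
    IsBase (A.image (symPerm π)) (B.image (symPerm π)) ↔ IsBase A B := by
  unfold IsBase
  refine and_congr (Finset.image_subset_image_iff (symPerm π).injective) (and_congr ?_
    (and_congr (grIso π B).isAcyclic_iff.symm ?_))
  · constructor
    · intro h e he hd
      exact h _ (Finset.mem_image_of_mem _ he) ((isDiag_symPerm π e).2 hd)
    · intro h e he hd
      obtain ⟨f, hf, rfl⟩ := Finset.mem_image.1 he
      exact h f hf ((isDiag_symPerm π f).1 hd)
  · constructor
    · intro h x y hxy
      have h1 : (gr (A.image (symPerm π))).Reachable (grIso π A x) (grIso π A y) :=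
        (grIso π A).reachable_iff.2 hxy
      exact (grIso π B).reachable_iff.1 (h _ _ h1)
    · intro h x y hxy
      have h1 : (gr A).Reachable (π.symm x) (π.symm y) := by
        refine (grIso π A).reachable_iff.1 ?_
        have hx : grIso π A (π.symm x) = x := π.apply_symm_apply x
        have hy : grIso π A (π.symm y) = y := π.apply_symm_apply y
        rw [hx, hy]
        exact hxy
      have h2 := (grIso π B).reachable_iff.2 (h _ _ h1)
      have hx : grIso π B (π.symm x) = x := π.apply_symm_apply x
      have hy : grIso π B (π.symm y) = y := π.apply_symm_apply y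
      rwa [hx, hy] at h2

theorem mem_bases {A B : Finset (Sym2 V)} : B ∈ bases A ↔ IsBase A B := by
  classical
  unfold bases
  rw [Finset.mem_filter, Finset.mem_powerset]
  exact ⟨fun h => h.2, fun h => ⟨h.1, h⟩⟩

theorem bases_image [DecidableEq (Sym2 V)] [DecidableEq (Finset (Sym2 V))] (π : Equiv.Perm V)
    (A : Finset (Sym2 V)) :
    bases (A.image (symPerm π)) = (bases A).image (fun B => B.image (symPerm π)) := by
  ext C
  rw [mem_bases, Finset.mem_image]
  constructor
  · intro h
    obtain ⟨B, hB, rfl⟩ := Finset.subset_image_iff.1 h.1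
    exact ⟨B, mem_bases.2 ((isBase_image π).1 h), rfl⟩
  · rintro ⟨B, hB, rfl⟩
    exact (isBase_image π).2 (mem_bases.1 hB)

/-! ### (3) exhaustions -/

theorem exhaustion_edges {G : SimpleGraph V} {H : ℕ → G.Subgraph} (hH : IsExhaustion G H) :
    ∃ A : ℕ → Finset (Sym2 V), (∀ n, (A n : Set (Sym2 V)) = (H n).edgeSet) ∧ Monotone A ∧
      (∀ n, (A n : Set (Sym2 V)) ⊆ G.edgeSet) ∧ ∀ e ∈ G.edgeSet, ∃ n, e ∈ A n := by
  classical
  have hfin : ∀ n, ((H n).edgeSet).Finite := by
    intro n
    have h1 : (H n).edgeSet ⊆ (fun p : V × V => s(p.1, p.2)) '' ((H n).verts ×ˢ (H n).verts) := by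
      intro e he
      induction e using Sym2.ind with
      | _ x y =>
        have h2 : (H n).Adj x y := SimpleGraph.Subgraph.mem_edgeSet.1 he
        exact ⟨(x, y), ⟨(H n).edge_vert h2, (H n).edge_vert h2.symm⟩, rfl⟩
    exact (((hH.finite n).prod (hH.finite n)).image _).subset h1
  refine ⟨fun n => (hfin n).toFinset, fun n => by simp, ?_, ?_, ?_⟩
  · intro m n hmn
    rw [← Finset.coe_subset]
    simpa using SimpleGraph.Subgraph.edgeSet_mono (hH.mono hmn)
  · intro n
    simpa using (H n).edgeSet_subset
  · intro e he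
    have h1 : e ∈ (⊤ : G.Subgraph).edgeSet := by simpa using he
    rw [← hH.union, SimpleGraph.Subgraph.edgeSet_iSup] at h1
    obtain ⟨n, hn⟩ := Set.mem_iUnion.1 h1
    exact ⟨n, by simpa using hn⟩

end Vale.Agent.P143
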