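import Mathlib

/-!
# P143: definitions (finite-volume sequential sampler, uniform spanning forests)
-/

open MeasureTheory

namespace Vale.Agent.P143

noncomputable section

/-! ## Generic finite Gibbs families on subsets of a type `E` -/

section generic

variable {E : Type*}

/-- weight of a configuration `B` in the field `h` (log-weights) -/
def wt (h : E → ℝ) (B : Finset E) : ℝ := Real.exp (∑ e ∈ B, h e)

/-- partition function -/
def Zf (Tr : Finset (Finset E)) (h : E → ℝ) : ℝ := ∑ B ∈ Tr, wt h B

/-- probability of the configuration `B` -/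
def prb (Tr : Finset (Finset E)) (h : E → ℝ) (B : Finset E) : ℝ := wt h B / Zf Tr h

open Classical in
/-- marginal probability of `e` -/
def mg (Tr : Finset (Finset E)) (h : E → ℝ) (e : E) : ℝ :=
  ∑ B ∈ Tr.filter (fun B => e ∈ B), prb Tr h B

/-- quasi-locality of the family of marginals along the finite subsets of `G`:
boundary effects are uniformly small on bounded fields -/
def QL (Tr : Finset E → Finset (Finset E)) (G : Set E) : Prop :=
  ∀ e ∈ G, ∀ a : ℝ, ∀ δ > 0, ∃ A₀ : Finset E, (A₀ : Set E) ⊆ G ∧
    ∀ A B : Finset E, A₀ ⊆ A → A₀ ⊆ B → (A : Set E) ⊆ G → (B : Set E) ⊆ G →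
      ∀ h h' : E → ℝ, (∀ f, |h f| ≤ a) → (∀ f, |h' f| ≤ a) → ∀ D : ℝ,
        (∀ f ∈ A₀, |h f - h' f| ≤ D) → |mg (Tr A) h e - mg (Tr B) h' e| ≤ 2 * D + δ

end generic

/-! ## Uniform spanning forests of finite edge sets -/

section forests

variable {V : Type*}

/-- the graph with edge set `A` (diagonal elements are ignored) -/
abbrev gr (A : Finset (Sym2 V)) : SimpleGraph V := SimpleGraph.fromEdgeSet (A : Set (Sym2 V))

/-- `B` is a spanning forest of the edge set `A`: acyclic, with the same connected components -/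
def IsBase (A B : Finset (Sym2 V)) : Prop :=
  B ⊆ A ∧ (∀ e ∈ B, ¬ e.IsDiag) ∧ (gr B).IsAcyclic ∧
    ∀ x y, (gr A).Reachable x y → (gr B).Reachable x y

open Classical in
/-- the set of spanning forests of `A` -/
def bases (A : Finset (Sym2 V)) : Finset (Finset (Sym2 V)) :=
  A.powerset.filter (IsBase A)

/-- discrete gradient along the edge `e` (for an arbitrary fixed orientation) -/
def dif (φ : V → ℝ) (e : Sym2 V) : ℝ := φ (Quot.out e).1 - φ (Quot.out e).2

/-- `θ` is a unit flow from `a` to `b` supported by `A` (duality form) -/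
def IsFlow (A : Finset (Sym2 V)) (a b : V) (θ : Sym2 V → ℝ) : Prop :=
  ∀ φ : V → ℝ, ∑ f ∈ A, θ f * dif φ f = φ a - φ b

/-- energy of a flow, resistances `exp (-h f)` -/
def energy (A : Finset (Sym2 V)) (h θ : Sym2 V → ℝ) : ℝ := ∑ f ∈ A, Real.exp (-h f) * θ f ^ 2

end forests

end

end Vale.Agent.P143
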