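import Vale.Agent.P143.Kirch

/-! [D] Thomson's principle and uniform quasi-locality (uses only the statement of `kirchhoff`) -/

open Topology

namespace Vale.Agent.P143

variable {V : Type*}

/-- `dif` is symmetric in absolute value: `(dif φ s(x,y))^2 = (φ x - φ y)^2` -/
theorem dif_sq (φ : V → ℝ) (x y : V) : (dif φ s(x, y)) ^ 2 = (φ x - φ y) ^ 2 := by
  have h : s((Quot.out s(x, y)).1, (Quot.out s(x, y)).2) = s(x, y) := Quot.out_eq _
  rw [Sym2.eq_iff] at h
  unfold dif
  rcases h with ⟨h1, h2⟩ | ⟨h1, h2⟩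
  · rw [h1, h2]
  · rw [h1, h2]; ring

/-- gap identity: energy of `θ` minus the effective resistance -/
theorem energy_gap (A : Finset (Sym2 V)) (h : Sym2 V → ℝ) {a b : V} {φ : V → ℝ}
    (hb : φ b = 0) (hφ : IsFlow A a b (fun f => Real.exp (h f) * dif φ f))
    {θ : Sym2 V → ℝ} (hθ : IsFlow A a b θ) :
    ∑ f ∈ A, Real.exp (-h f) * (θ f - Real.exp (h f) * dif φ f) ^ 2 = energy A h θ - φ a := by
  have h1 := hφ φ
  have h2 := hθ φ
  rw [hb, sub_zero] at h1 h2
  have h3 : ∀ f ∈ A, Real.exp (-h f) * (θ f - Real.exp (h f) * dif φ f) ^ 2 =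
      Real.exp (-h f) * θ f ^ 2 - 2 * (θ f * dif φ f) + Real.exp (h f) * dif φ f * dif φ f := by
    intro f _
    have h4 : Real.exp (-h f) * Real.exp (h f) = 1 := by
      rw [← Real.exp_add]; simp
    calc Real.exp (-h f) * (θ f - Real.exp (h f) * dif φ f) ^ 2
        = Real.exp (-h f) * θ f ^ 2 - 2 * (Real.exp (-h f) * Real.exp (h f)) * (θ f * dif φ f)
          + (Real.exp (-h f) * Real.exp (h f)) * (Real.exp (h f) * dif φ f * dif φ f) := by ring
      _ = _ := by rw [h4]; ring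
  rw [Finset.sum_congr rfl h3, Finset.sum_add_distrib, Finset.sum_sub_distrib, ← Finset.mul_sum,
    h1, h2]
  unfold energy
  ring

theorem energy_pot (A : Finset (Sym2 V)) (h : Sym2 V → ℝ) {a b : V} {φ : V → ℝ}
    (hb : φ b = 0) (hφ : IsFlow A a b (fun f => Real.exp (h f) * dif φ f)) :
    energy A h (fun f => Real.exp (h f) * dif φ f) = φ a := by
  have h1 := energy_gap A h hb hφ hφ
  simp only [sub_self] at h1
  have h2 : ∑ f ∈ A, Real.exp (-h f) * (0 : ℝ) ^ 2 = 0 := by simp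
  rw [h2] at h1
  linarith

theorem dirichlet_pot (A : Finset (Sym2 V)) (h : Sym2 V → ℝ) {a b : V} {φ : V → ℝ}
    (hb : φ b = 0) (hφ : IsFlow A a b (fun f => Real.exp (h f) * dif φ f)) :
    ∑ f ∈ A, Real.exp (h f) * dif φ f ^ 2 = φ a := by
  have h1 := hφ φ
  rw [hb, sub_zero] at h1
  rw [← h1]
  refine Finset.sum_congr rfl fun f _ => ?_
  ring

/-- Thomson: energy of any unit flow is at least the effective resistance -/
theorem thomson (A : Finset (Sym2 V)) (h : Sym2 V → ℝ) {a b : V} (hab : a ≠ b)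
    (he : s(a, b) ∈ A) {θ : Sym2 V → ℝ} (hθ : IsFlow A a b θ) :
    mg (bases A) h s(a, b) ≤ Real.exp (h s(a, b)) * energy A h θ := by
  obtain ⟨φ, _, hb, hφ, hmg⟩ := kirchhoff A h hab he
  rw [hmg]
  refine mul_le_mul_of_nonneg_left ?_ (Real.exp_pos _).le
  have h1 := energy_gap A h hb hφ hθ
  have h2 : 0 ≤ ∑ f ∈ A, Real.exp (-h f) * (θ f - Real.exp (h f) * dif φ f) ^ 2 :=
    Finset.sum_nonneg fun f _ => mul_nonneg (Real.exp_pos _).le (sq_nonneg _)
  linarith

/-- some flow attains it -/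
theorem thomson_attained (A : Finset (Sym2 V)) (h : Sym2 V → ℝ) {a b : V} (hab : a ≠ b)
    (he : s(a, b) ∈ A) : ∃ θ, IsFlow A a b θ ∧
    mg (bases A) h s(a, b) = Real.exp (h s(a, b)) * energy A h θ := by
  obtain ⟨φ, _, hb, hφ, hmg⟩ := kirchhoff A h hab he
  exact ⟨_, hφ, by rw [hmg, energy_pot A h hb hφ]⟩

theorem Zf_posD {E : Type*} {Tr : Finset (Finset E)} (hne : Tr.Nonempty) (h : E → ℝ) :
    0 < Zf Tr h :=
  Finset.sum_pos (fun _ _ => Real.exp_pos _) hne

open Classical in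
theorem mgD_eq_zero' {E : Type*} {Tr : Finset (Finset E)} (h : E → ℝ) {e : E}
    (h0 : ∀ B ∈ Tr, e ∉ B) : mg Tr h e = 0 := by
  unfold mg
  refine Finset.sum_eq_zero fun B hB => ?_
  have hB' := Finset.mem_filter.1 hB
  exact absurd hB'.2 (h0 B hB'.1)

open Classical in
theorem mgD_nonneg' {E : Type*} (Tr : Finset (Finset E)) (h : E → ℝ) (e : E) : 0 ≤ mg Tr h e := by
  unfold mg
  refine Finset.sum_nonneg fun B _ => div_nonneg (Real.exp_pos _).le ?_
  exact Finset.sum_nonneg fun _ _ => (Real.exp_pos _).le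

open Classical in
theorem mgD_le_one' {E : Type*} {Tr : Finset (Finset E)} (hne : Tr.Nonempty) (h : E → ℝ) (e : E) :
    mg Tr h e ≤ 1 := by
  have hZ := Zf_posD hne h
  have h1 : mg Tr h e ≤ ∑ B ∈ Tr, prb Tr h B := by
    unfold mg
    refine Finset.sum_le_sum_of_subset_of_nonneg (Finset.filter_subset _ _) fun B _ _ => ?_
    exact div_nonneg (Real.exp_pos _).le hZ.le
  have h2 : ∑ B ∈ Tr, prb Tr h B = 1 := by
    unfold prb
    rw [← Finset.sum_div]
    exact div_self hZ.ne'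
  linarith

open Classical in
theorem isBase_of_mem {A B : Finset (Sym2 V)} (hB : B ∈ bases A) : IsBase A B :=
  (Finset.mem_filter.1 hB).2

theorem mg_diag (A : Finset (Sym2 V)) (h : Sym2 V → ℝ) {e : Sym2 V} (hd : e.IsDiag) :
    mg (bases A) h e = 0 :=
  mgD_eq_zero' h fun _ hB he => (isBase_of_mem hB).2.1 e he hd

theorem mgD_nonneg (A : Finset (Sym2 V)) (h : Sym2 V → ℝ) (e : Sym2 V) :
    0 ≤ mg (bases A) h e := mgD_nonneg' _ _ _

theorem mgD_le_one (A : Finset (Sym2 V)) (h : Sym2 V → ℝ) (e : Sym2 V) :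
    mg (bases A) h e ≤ 1 := mgD_le_one' (bases_nonempty A) _ _

/-- extension of a flow by zero -/
theorem flow_extend {A A' : Finset (Sym2 V)} (hAA : A ⊆ A') {a b : V} {θ : Sym2 V → ℝ}
    (hθ : IsFlow A a b θ) : ∃ θ' : Sym2 V → ℝ, IsFlow A' a b θ' ∧
      (∀ h : Sym2 V → ℝ, energy A' h θ' = energy A h θ) ∧ (∀ f ∉ A, θ' f = 0) := by
  classical
  refine ⟨fun f => if f ∈ A then θ f else 0, ?_, ?_, ?_⟩
  · intro φ
    rw [← hθ φ, ← Finset.sum_subset hAA]
    · exact Finset.sum_congr rfl fun f hf => by simp [hf]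
    · intro f _ hf; simp [hf]
  · intro h
    unfold energy
    rw [← Finset.sum_subset hAA]
    · exact Finset.sum_congr rfl fun f hf => by simp [hf]
    · intro f _ hf; simp [hf]
  · intro f hf; simp [hf]

theorem mg_mono {A A' : Finset (Sym2 V)} (hAA : A ⊆ A') (h : Sym2 V → ℝ) {e : Sym2 V}
    (he : e ∈ A) : mg (bases A') h e ≤ mg (bases A) h e := by
  induction e using Sym2.ind with
  | _ a b =>
    by_cases hab : a = b
    · rw [mg_diag A' h (by simpa using hab), mg_diag A h (by simpa using hab)]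
    · obtain ⟨θ, hθ, hmg⟩ := thomson_attained A h hab he
      obtain ⟨θ', hθ', hE, _⟩ := flow_extend hAA hθ
      rw [hmg, ← hE h]
      exact thomson A' h hab (hAA he) hθ'

theorem mg_ratio (A : Finset (Sym2 V)) (h h' : Sym2 V → ℝ) {e : Sym2 V} (he : e ∈ A) {D : ℝ}
    (hD : ∀ f ∈ A, |h f - h' f| ≤ D) :
    mg (bases A) h' e ≤ Real.exp (2 * D) * mg (bases A) h e := by
  induction e using Sym2.ind with
  | _ a b =>
    by_cases hab : a = b
    · rw [mg_diag A h' (by simpa using hab), mg_diag A h (by simpa using hab)]; simp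
    · obtain ⟨θ, hθ, hmg⟩ := thomson_attained A h hab he
      have h1 := thomson A h' hab he hθ
      have h2 : energy A h' θ ≤ Real.exp D * energy A h θ := by
        unfold energy
        rw [Finset.mul_sum]
        refine Finset.sum_le_sum fun f hf => ?_
        rw [← mul_assoc, ← Real.exp_add]
        refine mul_le_mul_of_nonneg_right (Real.exp_le_exp.2 ?_) (sq_nonneg _)
        have := abs_le.1 (hD f hf)
        linarith
      have h3 : Real.exp (h' s(a, b)) ≤ Real.exp D * Real.exp (h s(a, b)) := by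
        rw [← Real.exp_add]
        refine Real.exp_le_exp.2 ?_
        have := abs_le.1 (hD _ he)
        linarith
      have h4 : 0 ≤ energy A h θ :=
        Finset.sum_nonneg fun f _ => mul_nonneg (Real.exp_pos _).le (sq_nonneg _)
      calc mg (bases A) h' s(a, b) ≤ Real.exp (h' s(a, b)) * energy A h' θ := h1
        _ ≤ (Real.exp D * Real.exp (h s(a, b))) * (Real.exp D * energy A h θ) := by
            refine mul_le_mul h3 h2 ?_ (by positivity)
            exact Finset.sum_nonneg fun f _ => mul_nonneg (Real.exp_pos _).le (sq_nonneg _)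
        _ = (Real.exp D * Real.exp D) * (Real.exp (h s(a, b)) * energy A h θ) := by ring
        _ = Real.exp (2 * D) * mg (bases A) h s(a, b) := by
            rw [hmg, ← Real.exp_add, two_mul]

theorem mg_loglip (A : Finset (Sym2 V)) (h h' : Sym2 V → ℝ) {e : Sym2 V} (he : e ∈ A) {D : ℝ}
    (hD : ∀ f ∈ A, |h f - h' f| ≤ D) :
    |mg (bases A) h e - mg (bases A) h' e| ≤ 2 * D := by
  have hD0 : 0 ≤ D := (abs_nonneg _).trans (hD e he)
  have key : ∀ g g' : Sym2 V → ℝ, (∀ f ∈ A, |g f - g' f| ≤ D) →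
      mg (bases A) g' e - mg (bases A) g e ≤ 2 * D := by
    intro g g' hg
    have h1 := mg_ratio A g g' he hg
    have h2 := mgD_le_one A g' e
    have h3 := mgD_nonneg A g' e
    have h4 : 1 - 2 * D ≤ Real.exp (-(2 * D)) := by
      have := Real.add_one_le_exp (-(2 * D)); linarith
    have h5 : Real.exp (-(2 * D)) * mg (bases A) g' e ≤ mg (bases A) g e := by
      calc Real.exp (-(2 * D)) * mg (bases A) g' e
          ≤ Real.exp (-(2 * D)) * (Real.exp (2 * D) * mg (bases A) g e) :=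
            mul_le_mul_of_nonneg_left h1 (Real.exp_pos _).le
        _ = mg (bases A) g e := by
            rw [← mul_assoc, ← Real.exp_add]; simp
    nlinarith
  rw [abs_le]
  constructor
  · have := key h h' hD
    linarith
  · have := key h' h (fun f hf => by rw [abs_sub_comm]; exact hD f hf)
    linarith

/-- Cauchy-Schwarz bound: `R_A(k)² ≤ R_A(h) (e^ε R_A(k) + e^{2a} (R_{A₁}(k) - R_A(k)))` -/
theorem local_cs {A₁ A : Finset (Sym2 V)} (hA : A₁ ⊆ A) {x y : V}
    (k h : Sym2 V → ℝ) {a ε : ℝ} (hk : ∀ f, |k f| ≤ a)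
    (hh : ∀ f, |h f| ≤ a) (hε : ∀ f ∈ A₁, |h f - k f| ≤ ε)
    {φ ψ : V → ℝ} (hφy : φ y = 0) (hψy : ψ y = 0)
    (hφ : IsFlow A x y (fun f => Real.exp (k f) * dif φ f))
    (hψ : IsFlow A x y (fun f => Real.exp (h f) * dif ψ f))
    {θ₁ : Sym2 V → ℝ} (hθ₁ : IsFlow A₁ x y θ₁) :
    φ x ^ 2 ≤ ψ x * (Real.exp ε * φ x + Real.exp (2 * a) * (energy A₁ k θ₁ - φ x)) := by
  obtain ⟨θ', hθ', hE, h0⟩ := flow_extend hA hθ₁
  have hgap := energy_gap A k hφy hφ hθ'
  rw [hE k] at hgap
  have hdec : ∑ f ∈ A, Real.exp (h f) * dif φ f ^ 2 ≤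
      Real.exp ε * φ x + Real.exp (2 * a) * (energy A₁ k θ₁ - φ x) := by
    rw [← hgap, ← dirichlet_pot A k hφy hφ, Finset.mul_sum, Finset.mul_sum,
      ← Finset.sum_add_distrib]
    refine Finset.sum_le_sum fun f hf => ?_
    by_cases hf1 : f ∈ A₁
    · have h1 : Real.exp (h f) ≤ Real.exp ε * Real.exp (k f) := by
        rw [← Real.exp_add]
        refine Real.exp_le_exp.2 ?_
        have := abs_le.1 (hε f hf1)
        linarith
      have h2 : 0 ≤ Real.exp (2 * a) *
          (Real.exp (-k f) * (θ' f - Real.exp (k f) * dif φ f) ^ 2) := by positivity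
      have h3 := mul_le_mul_of_nonneg_right h1 (sq_nonneg (dif φ f))
      nlinarith
    · have h1 : Real.exp (h f) ≤ Real.exp (2 * a) * Real.exp (k f) := by
        rw [← Real.exp_add]
        refine Real.exp_le_exp.2 ?_
        have := abs_le.1 (hh f)
        have := abs_le.1 (hk f)
        linarith
      have h2 : 0 ≤ Real.exp ε * (Real.exp (k f) * dif φ f ^ 2) := by positivity
      have h3 := mul_le_mul_of_nonneg_right h1 (sq_nonneg (dif φ f))
      have h4 : Real.exp (-k f) * (θ' f - Real.exp (k f) * dif φ f) ^ 2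
          = Real.exp (k f) * dif φ f ^ 2 := by
        rw [h0 f hf1]
        have h5 : Real.exp (-k f) * Real.exp (k f) = 1 := by rw [← Real.exp_add]; simp
        calc Real.exp (-k f) * (0 - Real.exp (k f) * dif φ f) ^ 2
            = (Real.exp (-k f) * Real.exp (k f)) * (Real.exp (k f) * dif φ f ^ 2) := by ring
          _ = _ := by rw [h5, one_mul]
      rw [h4]
      nlinarith
  have hcs : φ x ^ 2 ≤ ψ x * ∑ f ∈ A, Real.exp (h f) * dif φ f ^ 2 := by
    have h1 := hψ φ
    rw [hφy, sub_zero] at h1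
    have h2 := dirichlet_pot A h hψy hψ
    have h3 := Finset.sum_mul_sq_le_sq_mul_sq A (fun f => Real.sqrt (Real.exp (h f)) * dif ψ f)
      (fun f => Real.sqrt (Real.exp (h f)) * dif φ f)
    have h4 : ∀ f, Real.sqrt (Real.exp (h f)) * Real.sqrt (Real.exp (h f)) = Real.exp (h f) :=
      fun f => Real.mul_self_sqrt (Real.exp_pos _).le
    have h5 : ∑ f ∈ A, (Real.sqrt (Real.exp (h f)) * dif ψ f) *
        (Real.sqrt (Real.exp (h f)) * dif φ f) = φ x := by
      rw [← h1]
      refine Finset.sum_congr rfl fun f _ => ?_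
      rw [mul_mul_mul_comm, h4 f, mul_assoc]
    have h6 : ∑ f ∈ A, (Real.sqrt (Real.exp (h f)) * dif ψ f) ^ 2 = ψ x := by
      rw [← h2]
      refine Finset.sum_congr rfl fun f _ => ?_
      rw [mul_pow, sq (Real.sqrt _), h4 f]
    have h7 : ∑ f ∈ A, (Real.sqrt (Real.exp (h f)) * dif φ f) ^ 2 =
        ∑ f ∈ A, Real.exp (h f) * dif φ f ^ 2 := by
      refine Finset.sum_congr rfl fun f _ => ?_
      rw [mul_pow, sq (Real.sqrt _), h4 f]
    rw [h5, h6, h7] at h3
    exact h3
  have hψ0 : 0 ≤ ψ x := by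
    rw [← dirichlet_pot A h hψy hψ]
    exact Finset.sum_nonneg fun f _ => by positivity
  exact hcs.trans (mul_le_mul_of_nonneg_left hdec hψ0)

theorem lower_aux {x y c η : ℝ} (hη : 0 ≤ η)
    (h : x ^ 2 ≤ y * (c * x + η)) (hy : 0 ≤ y) (hxM : x ≤ 1) (hc1 : 1 ≤ c) :
    x - (c - 1 + η) ≤ y := by
  by_contra hcon
  push Not at hcon
  have h1 : c * x + η ≤ x + (c - 1 + η) := by nlinarith
  have h2 : y * (c * x + η) ≤ y * (x + (c - 1 + η)) := mul_le_mul_of_nonneg_left h1 hy
  nlinarith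

/-- local uniformity: near a field `k`, the convergence in the volume is controlled by the gap
at `k` -/
theorem mg_local {A₁ A : Finset (Sym2 V)} (hA : A₁ ⊆ A) {e : Sym2 V}
    (he : e ∈ A₁) (k h : Sym2 V → ℝ) {a η ε : ℝ} (hk : ∀ f, |k f| ≤ a)
    (hh : ∀ f, |h f| ≤ a) (hε : ∀ f ∈ A₁, |h f - k f| ≤ ε)
    (hη : mg (bases A₁) k e - mg (bases A) k e ≤ η) (hη0 : 0 ≤ η) :
    mg (bases A₁) h e - mg (bases A) h e ≤
      2 * ε + η + (Real.exp (2 * ε) - 1 + Real.exp (ε + 2 * a) * η) := by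
  have hε0 : 0 ≤ ε := (abs_nonneg _).trans (hε _ he)
  have hexp : 1 ≤ Real.exp (2 * ε) := Real.one_le_exp (by linarith)
  have hpos : 0 < Real.exp (ε + 2 * a) := Real.exp_pos _
  have hlip := (abs_le.1 (mg_loglip A₁ h k he hε)).2
  suffices hmain : mg (bases A) k e - (Real.exp (2 * ε) - 1 + Real.exp (ε + 2 * a) * η) ≤
      mg (bases A) h e by linarith
  induction e using Sym2.ind with
  | _ x y =>
    by_cases hxy : x = y
    · rw [mg_diag A h (by simpa using hxy), mg_diag A k (by simpa using hxy)]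
      have := mul_nonneg hpos.le hη0
      linarith
    · have heA := hA he
      obtain ⟨φ, hφ0, hφy, hφ, hφm⟩ := kirchhoff A k hxy heA
      obtain ⟨ψ, hψ0, hψy, hψ, hψm⟩ := kirchhoff A h hxy heA
      obtain ⟨θ₁, hθ₁, hθm⟩ := thomson_attained A₁ k hxy he
      have hcs := local_cs hA k h hk hh hε hφy hψy hφ hψ hθ₁
      refine lower_aux (mul_nonneg hpos.le hη0) ?_ (mgD_nonneg _ _ _) (mgD_le_one _ _ _) hexp
      set K := Real.exp (k s(x, y)) with hK
      set H := Real.exp (h s(x, y)) with hH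
      have hKpos : 0 < K := Real.exp_pos _
      have hHpos : 0 < H := Real.exp_pos _
      have hKH : K ≤ Real.exp ε * H := by
        rw [hK, hH, ← Real.exp_add]
        refine Real.exp_le_exp.2 ?_
        have := abs_le.1 (hε _ he)
        linarith
      have h1 : (mg (bases A) k s(x, y)) ^ 2 ≤ (K * ψ x) *
          (Real.exp ε * mg (bases A) k s(x, y) + Real.exp (2 * a) * η) := by
        have h2 : K * energy A₁ k θ₁ - K * φ x ≤ η := by rw [← hθm, ← hφm]; exact hη
        have h3 : (mg (bases A) k s(x, y)) ^ 2 = K ^ 2 * φ x ^ 2 := by rw [hφm]; ring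
        rw [h3]
        calc K ^ 2 * φ x ^ 2 ≤ K ^ 2 * (ψ x * (Real.exp ε * φ x + Real.exp (2 * a) *
              (energy A₁ k θ₁ - φ x))) := mul_le_mul_of_nonneg_left hcs (sq_nonneg _)
          _ = (K * ψ x) * (Real.exp ε * (K * φ x) + Real.exp (2 * a) *
              (K * energy A₁ k θ₁ - K * φ x)) := by ring
          _ ≤ (K * ψ x) * (Real.exp ε * (K * φ x) + Real.exp (2 * a) * η) := by
              refine mul_le_mul_of_nonneg_left ?_ (mul_nonneg hKpos.le (hψ0 x).1)
              have := mul_le_mul_of_nonneg_left h2 (Real.exp_pos (2 * a)).le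
              linarith
          _ = _ := by rw [hφm]
      refine h1.trans ?_
      have h4 : K * ψ x ≤ Real.exp ε * mg (bases A) h s(x, y) := by
        rw [hψm, ← mul_assoc]
        exact mul_le_mul_of_nonneg_right hKH (hψ0 x).1
      have h5 : 0 ≤ Real.exp ε * mg (bases A) k s(x, y) + Real.exp (2 * a) * η :=
        add_nonneg (mul_nonneg (Real.exp_pos _).le (mgD_nonneg _ _ _))
          (mul_nonneg (Real.exp_pos _).le hη0)
      refine (mul_le_mul_of_nonneg_right h4 h5).trans (le_of_eq ?_)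
      rw [Real.exp_add ε, two_mul ε, Real.exp_add ε]
      ring

/-- uniform convergence in the volume on bounded fields -/
theorem mg_uniform (G : Set (Sym2 V)) {e : Sym2 V} (he : e ∈ G) (a : ℝ) {δ : ℝ}
    (hδ : 0 < δ) : ∃ A₀ : Finset (Sym2 V), (A₀ : Set (Sym2 V)) ⊆ G ∧ e ∈ A₀ ∧
      ∀ A : Finset (Sym2 V), A₀ ⊆ A → (A : Set (Sym2 V)) ⊆ G →
        ∀ h : Sym2 V → ℝ, (∀ f, |h f| ≤ a) →
          mg (bases A₀) h e - mg (bases A) h e ≤ δ := by
  classical
  set K : Set (Sym2 V → ℝ) := Set.pi Set.univ (fun _ => Set.Icc (-a) a) with hKdef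
  have hK : IsCompact K := isCompact_univ_pi fun _ => isCompact_Icc
  have hmemK : ∀ h : Sym2 V → ℝ, h ∈ K ↔ ∀ f, |h f| ≤ a := by
    intro h
    simp only [hKdef, Set.mem_pi, Set.mem_univ, true_implies, Set.mem_Icc, abs_le]
  have main : ∃ A₀ : Finset (Sym2 V), (A₀ : Set (Sym2 V)) ⊆ G ∧ e ∈ A₀ ∧
      ∀ A : Finset (Sym2 V), A₀ ⊆ A → (A : Set (Sym2 V)) ⊆ G →
        ∀ h ∈ K, (∀ f, |h f| ≤ a) → mg (bases A₀) h e - mg (bases A) h e ≤ δ := by
    refine hK.induction_on (p := fun S => ∃ A₀ : Finset (Sym2 V), (A₀ : Set (Sym2 V)) ⊆ G ∧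
      e ∈ A₀ ∧ ∀ A : Finset (Sym2 V), A₀ ⊆ A → (A : Set (Sym2 V)) ⊆ G →
        ∀ h ∈ S, (∀ f, |h f| ≤ a) → mg (bases A₀) h e - mg (bases A) h e ≤ δ) ?_ ?_ ?_ ?_
    · exact ⟨{e}, by simpa using he, by simp, fun A _ _ h hh => absurd hh (by simp)⟩
    · rintro S T hST ⟨A₀, h1, h2, h3⟩
      exact ⟨A₀, h1, h2, fun A hA hAG h hh => h3 A hA hAG h (hST hh)⟩
    · rintro S T ⟨A₀, h1, h2, h3⟩ ⟨A₁, g1, g2, g3⟩
      refine ⟨A₀ ∪ A₁, by simpa using And.intro h1 g1, Finset.mem_union_left _ h2, ?_⟩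
      rintro A hA hAG h (hh | hh) hb
      · have := h3 A (Finset.subset_union_left.trans hA) hAG h hh hb
        have := mg_mono (Finset.subset_union_left : A₀ ⊆ A₀ ∪ A₁) h h2
        linarith
      · have := g3 A (Finset.subset_union_right.trans hA) hAG h hh hb
        have := mg_mono (Finset.subset_union_right : A₁ ⊆ A₀ ∪ A₁) h g2
        linarith
    · intro k hk
      have hka := (hmemK k).1 hk
      -- choice of the constants
      set ε : ℝ := Real.log (1 + δ / 4) / 2 with hεdef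
      have hεpos : 0 < ε := by
        have := Real.log_pos (show (1 : ℝ) < 1 + δ / 4 by linarith)
        positivity
      have hε2 : Real.exp (2 * ε) = 1 + δ / 4 := by
        rw [hεdef, mul_div_cancel₀ _ (two_ne_zero), Real.exp_log (by linarith)]
      have hε3 : 2 * ε ≤ δ / 4 := by
        have := Real.add_one_le_exp (2 * ε)
        linarith
      set η : ℝ := δ / 2 / (1 + Real.exp (ε + 2 * a)) with hηdef
      have hposE : 0 < 1 + Real.exp (ε + 2 * a) := by positivity
      have hηpos : 0 < η := by positivity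
      have hη1 : η + Real.exp (ε + 2 * a) * η = δ / 2 := by
        rw [hηdef]; field_simp
      -- near-minimal volume at `k`
      obtain ⟨A₁, hA₁G, heA₁, hA₁⟩ : ∃ A₁ : Finset (Sym2 V), (A₁ : Set (Sym2 V)) ⊆ G ∧
          e ∈ A₁ ∧ ∀ A : Finset (Sym2 V), A₁ ⊆ A → (A : Set (Sym2 V)) ⊆ G →
            mg (bases A₁) k e - mg (bases A) k e ≤ η := by
        set Sv : Set ℝ := (fun A : Finset (Sym2 V) => mg (bases A) k e) ''
          {A | (A : Set (Sym2 V)) ⊆ G ∧ e ∈ A} with hSv
        have hne : Sv.Nonempty := ⟨_, {e}, ⟨by simpa using he, by simp⟩, rfl⟩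
        have hbdd : BddBelow Sv := by
          refine ⟨0, ?_⟩
          rintro _ ⟨A, _, rfl⟩
          exact mgD_nonneg A k e
        obtain ⟨_, ⟨A₁, ⟨hA₁G, heA₁⟩, rfl⟩, hlt⟩ := exists_lt_of_csInf_lt hne
          (show sInf Sv < sInf Sv + η by linarith)
        refine ⟨A₁, hA₁G, heA₁, fun A hA hAG => ?_⟩
        have hle : sInf Sv ≤ mg (bases A) k e := csInf_le hbdd ⟨A, ⟨hAG, hA heA₁⟩, rfl⟩
        simp only at hlt
        linarith
      refine ⟨{h | ∀ f ∈ A₁, |h f - k f| < ε}, mem_nhdsWithin_of_mem_nhds ?_, A₁, hA₁G, heA₁, ?_⟩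
      · have hset : {h : Sym2 V → ℝ | ∀ f ∈ A₁, |h f - k f| < ε} =
            Set.pi (A₁ : Set (Sym2 V)) (fun f => Metric.ball (k f) ε) := by
          ext h
          simp [Set.mem_pi, Metric.mem_ball, Real.dist_eq]
        rw [hset]
        exact set_pi_mem_nhds A₁.finite_toSet fun f _ => Metric.ball_mem_nhds _ hεpos
      · intro A hA hAG h hh hha
        have := mg_local hA heA₁ k h hka hha (fun f hf => (hh f hf).le) (hA₁ A hA hAG) hηpos.le
        linarith
  obtain ⟨A₀, h1, h2, h3⟩ := main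
  exact ⟨A₀, h1, h2, fun A hA hAG h hh => h3 A hA hAG h ((hmemK h).2 hh) hh⟩

/-- quasi-locality of uniform spanning forests, for every graph -/
theorem ql_bases (G : Set (Sym2 V)) : QL (bases (V := V)) G := by
  intro e he a δ hδ
  obtain ⟨A₀, h1, h2, h3⟩ := mg_uniform G he a hδ
  refine ⟨A₀, h1, fun A B hA hB hAG hBG h h' hh hh' D hD => ?_⟩
  have a1 := h3 A hA hAG h hh
  have a2 := h3 B hB hBG h' hh'
  have b1 := mg_mono hA h h2
  have b2 := mg_mono hB h' h2
  have c := abs_le.1 (mg_loglip A₀ h h' h2 hD)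
  rw [abs_le]
  constructor <;> linarith [c.1, c.2]

end Vale.Agent.P143
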