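import Vale.Agent.P143.FDefs

/-! Existence of exhaustions of connected locally finite graphs, uniqueness of the free uniform
spanning forest. -/

open MeasureTheory Filter Topology

namespace Vale.Agent.P143

variable {V : Type*}

theorem ball_finite {G : SimpleGraph V} (hG : G.Connected)
    (hfin : ∀ x, {y | G.Adj x y}.Finite) (o : V) (n : ℕ) : {v | G.dist o v ≤ n}.Finite := by
  induction n with
  | zero =>
    refine (Set.finite_singleton o).subset ?_
    intro v hv
    have h1 : G.dist o v = 0 := Nat.le_zero.1 hv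
    rw [SimpleGraph.Connected.dist_eq_zero_iff hG] at h1
    exact h1.symm
  | succ n ih =>
    refine (ih.union (ih.biUnion fun u _ => hfin u)).subset ?_
    intro v hv
    obtain ⟨w, hw⟩ := hG.exists_walk_length_eq_dist v o
    have hv' : G.dist v o ≤ n + 1 := by
      rw [SimpleGraph.dist_comm]
      exact hv
    cases w with
    | nil => exact Or.inl (by simp)
    | @cons _ u _ h p =>
      rw [SimpleGraph.Walk.length_cons] at hw
      have h2 : G.dist o u ≤ n := by
        rw [SimpleGraph.dist_comm]
        exact (SimpleGraph.dist_le p).trans (by omega)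
      exact Or.inr (Set.mem_biUnion (show u ∈ {v | G.dist o v ≤ n} from h2) h.symm)

theorem ball_connected {G : SimpleGraph V} (hG : G.Connected) (o : V) (n : ℕ) :
    (G.induce {v | G.dist o v ≤ n}).Connected := by
  have ho : o ∈ {v | G.dist o v ≤ n} := by simp
  have key : ∀ v : {v | G.dist o v ≤ n},
      (G.induce {v | G.dist o v ≤ n}).Reachable ⟨o, ho⟩ v := by
    rintro ⟨v, hv⟩
    obtain ⟨w, hw⟩ := hG.exists_walk_length_eq_dist o v
    have hs : ∀ x ∈ w.support, x ∈ {v | G.dist o v ≤ n} := by
      classical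
      intro x hx
      have h1 := SimpleGraph.dist_le (w.takeUntil x hx)
      have h2 := w.length_takeUntil_le_length hx
      have h3 : G.dist o v ≤ n := hv
      show G.dist o x ≤ n
      omega
    exact ⟨w.induce _ hs⟩
  have : Nonempty {v | G.dist o v ≤ n} := ⟨⟨o, ho⟩⟩
  exact ⟨fun x y => (key x).symm.trans (key y)⟩

theorem exists_exhaustion {G : SimpleGraph V} (hG : G.Connected)
    (hfin : ∀ x, {y | G.Adj x y}.Finite) : ∃ H : ℕ → G.Subgraph, IsExhaustion G H := by
  obtain ⟨o⟩ := hG.nonempty
  refine ⟨fun n => (⊤ : G.Subgraph).induce {v | G.dist o v ≤ n}, ?_, ?_, ?_, ?_⟩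
  · intro n
    exact ball_finite hG hfin o n
  · intro n
    exact SimpleGraph.connected_induce_iff.1 (ball_connected hG o n)
  · intro m n hmn
    refine SimpleGraph.Subgraph.induce_mono_right ?_
    intro v hv
    exact le_trans (show G.dist o v ≤ m from hv) hmn
  · apply SimpleGraph.Subgraph.ext
    · rw [SimpleGraph.Subgraph.verts_iSup]
      ext v
      simp only [Set.mem_iUnion, SimpleGraph.Subgraph.verts_top, Set.mem_univ, iff_true]
      exact ⟨G.dist o v, le_refl (G.dist o v)⟩
    · funext x y
      rw [SimpleGraph.Subgraph.iSup_adj, eq_iff_iff]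
      constructor
      · rintro ⟨n, -, -, h⟩
        exact h
      · intro h
        exact ⟨max (G.dist o x) (G.dist o y), le_max_left (G.dist o x) (G.dist o y),
          le_max_right (G.dist o x) (G.dist o y), h⟩

theorem measurableSet_cyl (F : Finset (Sym2 V)) (η : Sym2 V → Bool) :
    MeasurableSet {x : Sym2 V → Bool | ∀ e ∈ F, x e = η e} := by
  have : {x : Sym2 V → Bool | ∀ e ∈ F, x e = η e} = ⋂ e ∈ F, {x | x e = η e} := by
    ext x
    simp
  rw [this]
  exact Finset.measurableSet_biInter _ fun e _ =>
    measurableSet_eq_fun (measurable_pi_apply e) measurable_const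

/-- two probability measures with the same cylinder probabilities are equal -/
theorem measure_ext_cyl {μ ν : Measure (Sym2 V → Bool)} [IsProbabilityMeasure μ]
    [IsProbabilityMeasure ν]
    (h : ∀ (F : Finset (Sym2 V)) (η : Sym2 V → Bool),
      (μ {x | ∀ e ∈ F, x e = η e}).toReal = (ν {x | ∀ e ∈ F, x e = η e}).toReal) : μ = ν := by
  classical
  set C : Set (Set (Sym2 V → Bool)) :=
    {S | S = ∅ ∨ ∃ (F : Finset (Sym2 V)) (η : Sym2 V → Bool), S = {x | ∀ e ∈ F, x e = η e}} with hC
  have hgen : (inferInstance : MeasurableSpace (Sym2 V → Bool)) =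
      MeasurableSpace.generateFrom C := by
    apply le_antisymm
    · refine iSup_le fun e => ?_
      rintro s ⟨t, -, rfl⟩
      have h1 : (fun x : Sym2 V → Bool => x e) ⁻¹' t =
          ⋃ b ∈ t, {x : Sym2 V → Bool | x e = b} := by
        ext x
        simp
      rw [h1]
      refine MeasurableSet.biUnion t.to_countable fun b _ => ?_
      refine MeasurableSpace.measurableSet_generateFrom (Or.inr ⟨{e}, fun _ => b, ?_⟩)
      ext x
      simp
    · refine MeasurableSpace.generateFrom_le ?_
      rintro s (rfl | ⟨F, η, rfl⟩)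
      · exact MeasurableSet.empty
      · exact measurableSet_cyl F η
  have hpi : IsPiSystem C := by
    rintro s (rfl | ⟨F, η, rfl⟩) t (rfl | ⟨F', η', rfl⟩) hne
    · exact Or.inl (by simp)
    · exact Or.inl (by simp)
    · exact Or.inl (by simp)
    · obtain ⟨x, hx, hx'⟩ := hne
      refine Or.inr ⟨F ∪ F', x, ?_⟩
      ext y
      simp only [Set.mem_inter_iff, Set.mem_ofPred_eq, Finset.mem_union]
      constructor
      · rintro ⟨h1, h2⟩ e (he | he)
        · rw [h1 e he, hx e he]
        · rw [h2 e he, hx' e he]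
      · intro h1
        exact ⟨fun e he => (h1 e (Or.inl he)).trans (hx e he),
          fun e he => (h1 e (Or.inr he)).trans (hx' e he)⟩
  refine ext_of_generate_finite C hgen hpi ?_ ?_
  · rintro s (rfl | ⟨F, η, rfl⟩)
    · simp
    · exact (ENNReal.toReal_eq_toReal_iff' (measure_ne_top _ _) (measure_ne_top _ _)).1 (h F η)
  · simp

/-- the free uniform spanning forest is unique -/
theorem isFUSF_unique {G : SimpleGraph V} (hG : G.Connected)
    (hfin : ∀ x, {y | G.Adj x y}.Finite) {μ ν : Measure (Sym2 V → Bool)}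
    (hμ : IsFUSF G μ) (hν : IsFUSF G ν) : μ = ν := by
  obtain ⟨H, hH⟩ := exists_exhaustion hG hfin
  have := hμ.1
  have := hν.1
  refine measure_ext_cyl fun F η => ?_
  exact tendsto_nhds_unique (hμ.2.2 H hH F η) (hν.2.2 H hH F η)

end Vale.Agent.P143
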