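import Vale.Agent.P143.Runs

/-! [S] soft part: `Phi_congr`, `Phi_measurable` -/

open MeasureTheory Filter Topology

namespace Vale.Agent.P143

variable {E : Type*}

theorem run_congr (Tr : Finset (Finset E)) {ω ω' : Noise E} (l : List (E × ℕ))
    (h : ∀ ev ∈ l, ω ev = ω' ev) : run Tr ω l = run Tr ω' l := by
  induction l with
  | nil => rfl
  | cons ev l ih =>
    rw [run, run, ih (fun x hx => h x (List.mem_cons_of_mem _ hx)), h ev (List.mem_cons_self)]

open Classical in
theorem marg_congr (Tr : Finset E → Finset (Finset E)) {lam lam' : E → unitInterval}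
    {ω ω' : Noise E} (A : Finset E) (h1 : ∀ e ∈ A, lam e = lam' e)
    (h2 : ∀ e ∈ A, ∀ j, ω (e, j) = ω' (e, j)) (r : ℕ) (e : E) :
    marg Tr lam ω A r e = marg Tr lam' ω' A r e := by
  unfold marg
  refine Finset.sum_congr rfl fun q hq => ?_
  rw [List.mem_toFinset, List.mem_permutations] at hq
  have hqA : ∀ x ∈ q, x ∈ A := fun x hx => by simpa using hq.mem_iff.1 hx
  have hpw : q.Pairwise (fun x y => lam y < lam x) ↔ q.Pairwise (fun x y => lam' y < lam' x) := by
    refine List.Pairwise.iff_of_mem fun {x y} hx hy => ?_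
    rw [h1 x (hqA x hx), h1 y (hqA y hy)]
  have hrun : run (Tr A) ω (evs q r) = run (Tr A) ω' (evs q r) :=
    run_congr _ _ fun ev hev => h2 ev.1 (hqA _ (mem_evs hev).1) ev.2
  simp only [hpw, hrun]

open Classical in
theorem Mlim_congr (Tr : Finset E → Finset (Finset E)) (X : ℕ → Finset E) (G : Set E)
    {lam lam' : E → unitInterval} {ω ω' : Noise E} (h1 : ∀ e ∈ G, lam e = lam' e)
    (h2 : ∀ e ∈ G, ∀ j, ω (e, j) = ω' (e, j)) (r : ℕ) (e : E) :
    Mlim Tr X G lam ω r e = Mlim Tr X G lam' ω' r e := by
  unfold Mlim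
  congr 1
  funext n
  exact marg_congr Tr _ (fun e he => h1 e (Finset.mem_filter.1 he).2)
    (fun e he => h2 e (Finset.mem_filter.1 he).2) r e

open Classical in
/-- `Phi` only depends on the noise of the elements of `G` -/
theorem Phi_congr (Tr : Finset E → Finset (Finset E)) (X : ℕ → Finset E) (G : Set E)
    {lam lam' : E → unitInterval} {ω ω' : Noise E} (h1 : ∀ e ∈ G, lam e = lam' e)
    (h2 : ∀ e ∈ G, ∀ j, ω (e, j) = ω' (e, j)) (e : E) :
    Phi Tr X G lam ω e = Phi Tr X G lam' ω' e := by
  unfold Phi
  have hinj : Set.InjOn lam G ↔ Set.InjOn lam' G :=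
    ⟨fun h x hx y hy hxy => h hx hy (by rw [h1 x hx, h1 y hy]; exact hxy),
     fun h x hx y hy hxy => h hx hy (by rw [← h1 x hx, ← h1 y hy]; exact hxy)⟩
  rw [decide_eq_decide, hinj]
  simp only [Mlim_congr Tr X G h1 h2]

/-! ### measurability -/

/-- the parameter space of `Phi` -/
abbrev Par (E : Type*) := (E → Bool) × ((E → unitInterval) × Noise E)

theorem meas_coord (e : E) : Measurable (fun p : Par E => p.1 e) :=
  (measurable_pi_apply e).comp measurable_fst

theorem measSet_coord (e : E) : MeasurableSet {p : Par E | p.1 e = true} :=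
  (meas_coord e) (measurableSet_singleton true)

theorem meas_lab (e : E) : Measurable (fun p : Par E => p.2.1 e) :=
  (measurable_pi_apply e).comp (measurable_fst.comp measurable_snd)

open Classical in
theorem meas_marg (Tr : Finset E → Finset (Finset E)) (A : Finset E) (r : ℕ) (e : E) :
    Measurable (fun p : Par E => marg Tr p.2.1 p.2.2 A r e) := by
  unfold marg
  refine Finset.measurable_fun_sum _ fun q _ => ?_
  refine Measurable.ite ?_ ?_ measurable_const
  · -- the ordering condition
    have : {p : Par E | q.Pairwise (fun x y => p.2.1 y < p.2.1 x)} =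
        ⋂ i : Fin q.length, ⋂ j : Fin q.length, {p : Par E | i < j → p.2.1 q[j] < p.2.1 q[i]} := by
      ext p
      simp only [Set.mem_ofPred_eq, Set.mem_iInter]
      rw [List.pairwise_iff_get]
      exact Iff.rfl
    rw [this]
    refine MeasurableSet.iInter fun i => MeasurableSet.iInter fun j => ?_
    by_cases hij : i < j
    · simp only [hij, true_implies]
      exact measurableSet_lt (meas_lab _) (meas_lab _)
    · simp [hij]
  · exact ((meas_mg (Tr A) e).comp (measurable_run (Tr A) _)).comp
      (measurable_snd.comp measurable_snd)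

open Classical in
/-- the restriction of a finite set to `G` -/
noncomputable def flt (S : Finset E) (G : Set E) : Finset E := S.filter (· ∈ G)

open Classical in
theorem mem_flt {S : Finset E} {G : Set E} {f : E} : f ∈ flt S G ↔ f ∈ S ∧ f ∈ G := by
  unfold flt
  exact Finset.mem_filter

theorem Mlim_eq (Tr : Finset E → Finset (Finset E)) (X : ℕ → Finset E) (G : Set E)
    (lam : E → unitInterval) (ω : Noise E) (r : ℕ) (e : E) :
    Mlim Tr X G lam ω r e =
      Filter.limsup (fun n => marg Tr lam ω (flt (X n) G) r e) Filter.atTop := rfl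

theorem measSet_flt (S A : Finset E) :
    MeasurableSet {p : Par E | flt S {f | p.1 f = true} = A} := by
  classical
  have : {p : Par E | flt S {f | p.1 f = true} = A} =
      ⋂ f ∈ S ∪ A, {p : Par E | (f ∈ S ∧ p.1 f = true) ↔ f ∈ A} := by
    ext p
    simp only [Set.mem_ofPred_eq, Set.mem_iInter, Finset.ext_iff, mem_flt, Finset.mem_union]
    constructor
    · intro h f _; exact h f
    · intro h f
      by_cases hf : f ∈ S ∨ f ∈ A
      · exact h f hf
      · push Not at hf
        simp [hf.1, hf.2]
  rw [this]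
  refine Finset.measurableSet_biInter _ fun f _ => ?_
  by_cases h1 : f ∈ S <;> by_cases h2 : f ∈ A
  · simpa [h1, h2] using measSet_coord f
  · have : {p : Par E | (f ∈ S ∧ p.1 f = true) ↔ f ∈ A} = {p : Par E | p.1 f = true}ᶜ := by
      ext p; simp [h1, h2]
    rw [this]
    exact (measSet_coord f).compl
  · simp [h1, h2]
  · simp [h1, h2]

theorem meas_Mlim (Tr : Finset E → Finset (Finset E)) (X : ℕ → Finset E) (r : ℕ) (e : E) :
    Measurable (fun p : Par E => Mlim Tr X {f | p.1 f = true} p.2.1 p.2.2 r e) := by
  classical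
  simp only [Mlim_eq]
  refine Measurable.limsup fun n => ?_
  have hEq : (fun p : Par E =>
      marg Tr p.2.1 p.2.2 (flt (X n) {f | p.1 f = true}) r e) =
      fun p : Par E => ∑ A ∈ (X n).powerset,
        if flt (X n) {f | p.1 f = true} = A then marg Tr p.2.1 p.2.2 A r e else 0 := by
    funext p
    rw [Finset.sum_ite_eq, if_pos]
    exact Finset.mem_powerset.2 fun f hf => (mem_flt.1 hf).1
  rw [hEq]
  refine Finset.measurable_fun_sum _ fun A _ => ?_
  exact Measurable.ite (measSet_flt (X n) A) (meas_marg Tr A r e) measurable_const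

open Classical in
theorem Phi_measurable [Countable E] (Tr : Finset E → Finset (Finset E)) (X : ℕ → Finset E) :
    Measurable (fun p : (E → Bool) × ((E → unitInterval) × Noise E) =>
      (fun e => Phi Tr X {f | p.1 f = true} p.2.1 p.2.2 e : E → Bool)) := by
  refine measurable_pi_iff.2 fun e => measurable_to_bool ?_
  have h1 : ((fun p : Par E => Phi Tr X {f | p.1 f = true} p.2.1 p.2.2 e) ⁻¹' {true}) =
      {p : Par E | p.1 e = true} ∩
      ((⋂ x : E, ⋂ y : E, {p : Par E | p.1 x = true → p.1 y = true → p.2.1 x = p.2.1 y → x = y}) ∩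
      (⋃ N : ℕ, ⋂ k : ℕ, {p : Par E | N ≤ k → 1 / 2 <
        Mlim Tr X {f | p.1 f = true} p.2.1 p.2.2 (2 ^ k) e})) := by
    ext p
    simp only [Phi, Set.mem_preimage, Set.mem_singleton_iff, decide_eq_true_eq,
      Set.mem_inter_iff, Set.mem_iInter, Set.mem_iUnion, Set.mem_ofPred_eq,
      Filter.eventually_atTop]
    refine and_congr Iff.rfl (and_congr ?_ Iff.rfl)
    constructor
    · intro h x y hx hy hxy; exact h hx hy hxy
    · intro h x hx y hy hxy; exact h x y hx hy hxy
  have h2 : MeasurableSet ((fun p : Par E => Phi Tr X {f | p.1 f = true} p.2.1 p.2.2 e) ⁻¹'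
      {true}) := by
    rw [h1]
    refine (measSet_coord e).inter (MeasurableSet.inter ?_ ?_)
    · refine MeasurableSet.iInter fun x => MeasurableSet.iInter fun y => ?_
      by_cases hxy : x = y
      · simp [hxy]
      · have : {p : Par E | p.1 x = true → p.1 y = true → p.2.1 x = p.2.1 y → x = y} =
            {p : Par E | p.1 x = true}ᶜ ∪ ({p : Par E | p.1 y = true}ᶜ ∪
              {p : Par E | p.2.1 x = p.2.1 y}ᶜ) := by
          ext p
          simp only [Set.mem_ofPred_eq, Set.mem_union, Set.mem_compl_iff, hxy]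
          tauto
        rw [this]
        exact (measSet_coord x).compl.union ((measSet_coord y).compl.union
          (measurableSet_eq_fun (meas_lab x) (meas_lab y)).compl)
    · refine MeasurableSet.iUnion fun N => MeasurableSet.iInter fun k => ?_
      by_cases hk : N ≤ k
      · simp only [hk, true_implies]
        exact measurableSet_lt measurable_const (meas_Mlim Tr X (2 ^ k) e)
      · simp [hk]
  exact h2

end Vale.Agent.P143
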