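import Vale.Agent.P143.PhiLim
import Vale.Agent.P143.PhiMeas

/-! [S] equivariance of the factor map -/

open MeasureTheory Filter Topology

namespace Vale.Agent.P143

variable {E : Type*}

section equiv

variable (π : E ≃ E)

open Classical in
theorem wt_image (h : E → ℝ) (B : Finset E) :
    wt (fun f => h (π.symm f)) (B.image π) = wt h B := by
  unfold wt
  rw [Finset.sum_image (fun x _ y _ hxy => π.injective hxy)]
  simp

open Classical in
theorem Zf_image (Tr : Finset (Finset E)) (h : E → ℝ) :
    Zf (Tr.image (fun B => B.image π)) (fun f => h (π.symm f)) = Zf Tr h := by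
  unfold Zf
  rw [Finset.sum_image (fun x _ y _ hxy => Finset.image_injective π.injective hxy)]
  simp only [wt_image]

open Classical in
theorem mg_image (Tr : Finset (Finset E)) (h : E → ℝ) (e : E) :
    mg (Tr.image (fun B => B.image π)) (fun f => h (π.symm f)) (π e) = mg Tr h e := by
  unfold mg
  rw [Finset.sum_filter, Finset.sum_filter,
    Finset.sum_image (fun x _ y _ hxy => Finset.image_injective π.injective hxy)]
  refine Finset.sum_congr rfl fun B _ => ?_
  have h1 : π e ∈ B.image π ↔ e ∈ B := by
    rw [Finset.mem_image]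
    constructor
    · rintro ⟨x, hx, hxe⟩
      rwa [← π.injective hxe]
    · intro he; exact ⟨e, he, rfl⟩
  simp only [h1, prb, wt_image, Zf_image]

open Classical in
theorem stepA_image (Tr : Finset (Finset E)) (e : E) (u : ℝ) (h : E → ℝ) :
    stepA (Tr.image (fun B => B.image π)) (π e) u (fun f => h (π.symm f)) =
      fun f => stepA Tr e u h (π.symm f) := by
  unfold stepA
  rw [mg_image]
  funext f
  simp only [Equiv.symm_apply_apply]
  by_cases hf : f = π e
  · subst hf
    simp
  · rw [Function.update_of_ne hf, Function.update_of_ne]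
    intro h1
    exact hf (by rw [← h1, Equiv.apply_symm_apply])

open Classical in
theorem run_image (Tr : Finset (Finset E)) (ω : Noise E) (l : List (E × ℕ)) :
    run (Tr.image (fun B => B.image π)) (fun p => ω (π.symm p.1, p.2))
      (l.map (fun p => (π p.1, p.2))) = fun f => run Tr ω l (π.symm f) := by
  induction l with
  | nil => rfl
  | cons ev l ih =>
    rw [List.map_cons, run, run, ih, stepA_image]
    simp

theorem evs_map (q : List E) (r : ℕ) :
    evs (q.map π) r = (evs q r).map (fun p => (π p.1, p.2)) := by
  induction r with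
  | zero => rfl
  | succ r ih =>
    rw [evs, evs, ih, List.map_append, List.map_map, List.map_map]
    rfl

open Classical in
theorem marg_image (Tr : Finset E → Finset (Finset E))
    (hTr : ∀ A : Finset E, Tr (A.image π) = (Tr A).image (fun B => B.image π))
    {lam : E → unitInterval} (ω : Noise E) {A : Finset E} (hlam : Set.InjOn lam (A : Set E))
    (r : ℕ) (e : E) :
    marg Tr (fun f => lam (π.symm f)) (fun p => ω (π.symm p.1, p.2)) (A.image π) r (π e) =
      marg Tr lam ω A r e := by
  obtain ⟨q, hq⟩ := exists_isSort hlam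
  have hq' : IsSort (fun f => lam (π.symm f)) (A.image π) (q.map π) := by
    constructor
    · rw [List.pairwise_map]
      simpa using hq.1
    · intro x
      rw [List.mem_map, Finset.mem_image]
      simp only [hq.2]
  rw [marg_eq Tr ω hq, marg_eq Tr _ hq', hTr, evs_map, run_image, mg_image]

open Classical in
/-- equivariance -/
theorem Phi_equiv (Tr : Finset E → Finset (Finset E)) {X : ℕ → Finset E} (hX : Monotone X)
    (hXu : ∀ e, ∃ n, e ∈ X n) (hne : ∀ A, (Tr A).Nonempty) (_hsub : ∀ A, ∀ B ∈ Tr A, B ⊆ A)
    (π : E ≃ E)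
    (hTr : ∀ A : Finset E, Tr (A.image π) = (Tr A).image (fun B => B.image π))
    {G : Set E} (hQL : QL Tr G) (lam : E → unitInterval) (ω : Noise E) (e : E) :
    Phi Tr X (π '' G) (fun f => lam (π.symm f)) (fun p => ω (π.symm p.1, p.2)) (π e)
      = Phi Tr X G lam ω e := by
  unfold Phi
  rw [decide_eq_decide]
  have hmem : π e ∈ π '' G ↔ e ∈ G := π.injective.mem_set_image
  rw [hmem]
  refine and_congr_right fun he => ?_
  have hinj : Set.InjOn (fun f => lam (π.symm f)) (π '' G) ↔ Set.InjOn lam G := by
    constructor
    · intro h x hx y hy hxy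
      have := h (Set.mem_image_of_mem π hx) (Set.mem_image_of_mem π hy) (by simpa using hxy)
      exact π.injective this
    · rintro h _ ⟨x, hx, rfl⟩ _ ⟨y, hy, rfl⟩ hxy
      simp only [Equiv.symm_apply_apply] at hxy
      rw [h hx hy hxy]
  rw [hinj]
  refine and_congr_right fun hlam => ?_
  have hM : ∀ r, Mlim Tr X (π '' G) (fun f => lam (π.symm f)) (fun p => ω (π.symm p.1, p.2)) r
      (π e) = Mlim Tr X G lam ω r e := by
    intro r
    set B : ℕ → Finset E := fun n => (flt (X n) (π '' G)).image π.symm with hB
    have hBG : ∀ n, ((B n : Finset E) : Set E) ⊆ G := by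
      intro n x hx
      rw [Finset.mem_coe, hB, Finset.mem_image] at hx
      obtain ⟨y, hy, rfl⟩ := hx
      obtain ⟨z, hz, rfl⟩ := (mem_flt.1 hy).2
      simpa using hz
    have hBi : ∀ n, flt (X n) (π '' G) = (B n).image π := by
      intro n
      rw [hB, Finset.image_image]
      simp
    have hseq : ∀ n, marg Tr (fun f => lam (π.symm f)) (fun p => ω (π.symm p.1, p.2))
        (flt (X n) (π '' G)) r (π e) = marg Tr lam ω (B n) r e := by
      intro n
      rw [hBi n]
      exact marg_image π Tr hTr ω (hlam.mono (hBG n)) r e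
    have hlim : Tendsto (fun n => marg Tr lam ω (B n) r e) atTop (𝓝 (Mlim Tr X G lam ω r e)) := by
      rw [Metric.tendsto_atTop]
      intro ε hε
      obtain ⟨A₀, hA₀, hspec⟩ := Mlim_spec hne hX hXu hQL r he (half_pos hε)
      choose N hN using hXu
      refine ⟨A₀.sup (fun x => N (π x)), fun n hn => ?_⟩
      have hsubB : A₀ ⊆ B n := by
        intro x hx
        rw [hB, Finset.mem_image]
        refine ⟨π x, mem_flt.2 ⟨?_, Set.mem_image_of_mem π (hA₀ hx)⟩, by simp⟩
        exact hX ((Finset.le_sup (f := fun x => N (π x)) hx).trans hn) (hN (π x))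
      rw [Real.dist_eq]
      have := hspec (B n) hsubB (hBG n) lam hlam ω
      linarith
    rw [Mlim_eq]
    simp only [hseq]
    exact hlim.limsup_eq
  simp only [hM]

end equiv

end Vale.Agent.P143
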