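import Vale.Agent.P143.PhiLim
import Vale.Agent.P143.PhiMeas

/-! [S7] law of the factor map for fixed labels -/

open MeasureTheory Filter Topology

namespace Vale.Agent.P143

variable {E : Type*}

theorem meas_Mlim_fixed (Tr : Finset E → Finset (Finset E)) (X : ℕ → Finset E) (G : Set E)
    (lam : E → unitInterval) (r : ℕ) (e : E) :
    Measurable (fun ω : Noise E => Mlim Tr X G lam ω r e) := by
  classical
  have h := meas_Mlim Tr X r e
  have h2 : Measurable (fun ω : Noise E =>
      (((fun f => decide (f ∈ G)), (lam, ω)) : Par E)) :=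
    measurable_const.prodMk (measurable_const.prodMk measurable_id)
  have h3 := h.comp h2
  have e1 : (fun ω : Noise E => Mlim Tr X G lam ω r e)
      = (fun p : Par E => Mlim Tr X {f | p.1 f = true} p.2.1 p.2.2 r e) ∘
        (fun ω : Noise E => (((fun f => decide (f ∈ G)), (lam, ω)) : Par E)) := by
    funext ω
    simp
  rw [e1]
  exact h3

/-- the rounded configuration agrees with `η` on `F` -/
def Agree (Tr : Finset E → Finset (Finset E)) (X : ℕ → Finset E) (G : Set E)
    (lam : E → unitInterval) (r : ℕ) (F : Finset E) (η : E → Bool) (ω : Noise E) : Prop :=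
  ∀ e ∈ F, (1 / 2 < Mlim Tr X G lam ω r e ↔ η e = true)

theorem measSet_gt (Tr : Finset E → Finset (Finset E)) (X : ℕ → Finset E) (G : Set E)
    (lam : E → unitInterval) (r : ℕ) (e : E) :
    MeasurableSet {ω : Noise E | 1 / 2 < Mlim Tr X G lam ω r e} :=
  measurableSet_lt measurable_const (meas_Mlim_fixed Tr X G lam r e)

theorem measSet_agree (Tr : Finset E → Finset (Finset E)) (X : ℕ → Finset E) (G : Set E)
    (lam : E → unitInterval) (r : ℕ) (F : Finset E) (η : E → Bool) :
    MeasurableSet {ω : Noise E | Agree Tr X G lam r F η ω} := by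
  have : {ω : Noise E | Agree Tr X G lam r F η ω} =
      ⋂ e ∈ F, {ω : Noise E | (1 / 2 < Mlim Tr X G lam ω r e ↔ η e = true)} := by
    ext ω
    simp [Agree]
  rw [this]
  refine Finset.measurableSet_biInter _ fun e _ => ?_
  by_cases h : η e = true
  · simp only [h, iff_true]
    exact measSet_gt Tr X G lam r e
  · have h2 : {ω : Noise E | (1 / 2 < Mlim Tr X G lam ω r e ↔ η e = true)}
        = {ω : Noise E | 1 / 2 < Mlim Tr X G lam ω r e}ᶜ := by
      ext ω
      simp [h]
    rw [h2]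
    exact (measSet_gt Tr X G lam r e).compl

theorem integral_ind {S : Set (Noise E)} (hS : MeasurableSet S) [DecidablePred (· ∈ S)] :
    ∫ ω, (if ω ∈ S then (1 : ℝ) else 0) ∂(noiseMeasure E) = ((noiseMeasure E) S).toReal := by
  have : (fun ω => if ω ∈ S then (1 : ℝ) else 0) = S.indicator 1 := by
    funext ω
    simp [Set.indicator_apply]
  rw [this, integral_indicator_one hS]
  rfl

open Classical in
/-- (A1) comparison with finite volume -/
theorem agree_cyl {Tr : Finset E → Finset (Finset E)} (hne : ∀ A, (Tr A).Nonempty)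
    {X : ℕ → Finset E} (hX : Monotone X) (hXu : ∀ e, ∃ n, e ∈ X n) {G : Set E} (hQL : QL Tr G)
    {lam : E → unitInterval} (hlam : Set.InjOn lam G) (r : ℕ) {F : Finset E} (hF : (F : Set E) ⊆ G)
    (η : E → Bool) :
    ∃ A₀ : Finset E, (A₀ : Set E) ⊆ G ∧ ∀ A : Finset E, A₀ ⊆ A → (A : Set E) ⊆ G →
      |cyl (Tr A) (fun _ => 0) F η
        - ((noiseMeasure E) {ω | Agree Tr X G lam r F η ω}).toReal|
        ≤ 2 * (F.card * (1 / (1 + 1 / 150 * (r : ℝ)))) := by
  have hM : ∀ e ∈ F, ∃ A₀ : Finset E, (A₀ : Set E) ⊆ G ∧ ∀ A : Finset E, A₀ ⊆ A → (A : Set E) ⊆ G →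
      ∀ (lam : E → unitInterval), Set.InjOn lam G → ∀ (ω : Noise E),
        |marg Tr lam ω A r e - Mlim Tr X G lam ω r e| ≤ 1 / 8 :=
    fun e he => Mlim_spec hne hX hXu hQL r (hF he) (by norm_num)
  choose! N hN1 hN2 using hM
  refine ⟨F ∪ F.biUnion N, ?_, ?_⟩
  · intro x hx
    rw [Finset.mem_coe, Finset.mem_union, Finset.mem_biUnion] at hx
    rcases hx with hx | ⟨f, hf, hx⟩
    · exact hF hx
    · exact hN1 f hf hx
  · intro A hA hAG
    obtain ⟨q, hq⟩ := exists_isSort (lam := lam) (A := A) (hlam.mono hAG)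
    have hFA : F ⊆ A := Finset.subset_union_left.trans hA
    have hNA : ∀ e ∈ F, N e ⊆ A := fun e he x hx =>
      hA (Finset.mem_union_right _ (Finset.mem_biUnion.mpr ⟨e, he, hx⟩))
    rw [← exact_run (hne A) F η (nodup_evs hq.nodup r)]
    have hms := measSet_agree Tr X G lam r F η
    rw [← integral_ind hms]
    have i1 : Integrable (fun ω => cyl (Tr A) (run (Tr A) ω (evs q r)) F η) (noiseMeasure E) := by
      refine integrable_bdd (C := 1) ((meas_cyl (Tr A) F η).comp (measurable_run (Tr A) _))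
        (fun ω => ?_)
      have h1 := cyl_nonneg (Tr A) (run (Tr A) ω (evs q r)) F η
      have h2 := cyl_le_one (hne A) (run (Tr A) ω (evs q r)) F η
      rw [abs_le]; constructor <;> linarith
    have i2 : Integrable (fun ω => if ω ∈ {ω : Noise E | Agree Tr X G lam r F η ω}
        then (1 : ℝ) else 0) (noiseMeasure E) := by
      refine integrable_bdd (C := 1) (Measurable.ite hms measurable_const measurable_const)
        (fun ω => ?_)
      split_ifs <;> norm_num
    rw [← integral_sub i1 i2]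
    have i3 : ∀ e, Integrable (fun ω => 1 - sp (Tr A) (run (Tr A) ω (evs q r)) e ^ 2)
        (noiseMeasure E) := fun e =>
      integrable_bdd (meas_vr (Tr A) e (evs q r)) (fun ω => vr_abs' (hne A) e _)
    have hb : |∫ ω, (cyl (Tr A) (run (Tr A) ω (evs q r)) F η
        - if ω ∈ {ω : Noise E | Agree Tr X G lam r F η ω} then (1 : ℝ) else 0) ∂(noiseMeasure E)|
        ≤ ∫ ω, 2 * ∑ e ∈ F, (1 - sp (Tr A) (run (Tr A) ω (evs q r)) e ^ 2) ∂(noiseMeasure E) := by
      refine (abs_integral_le_integral_abs).trans ?_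
      refine integral_mono (i1.sub i2).abs ((integrable_finsetSum _ (fun e _ => i3 e)).const_mul 2)
        (fun ω => ?_)
      have h3 := law_bound (hne A) (run (Tr A) ω (evs q r)) F η
        (fun e => Mlim Tr X G lam ω r e) (fun e he => by
          have := hN2 e he A (hNA e he) hAG lam hlam ω
          rwa [marg_eq Tr ω hq] at this)
      have h4 : (if ω ∈ {ω : Noise E | Agree Tr X G lam r F η ω} then (1 : ℝ) else 0)
          = (if ∀ e ∈ F, (1 / 2 < Mlim Tr X G lam ω r e ↔ η e = true) then (1 : ℝ) else 0) :=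
        if_congr Iff.rfl rfl rfl
      show |cyl (Tr A) (run (Tr A) ω (evs q r)) F η
        - (if ω ∈ {ω : Noise E | Agree Tr X G lam r F η ω} then (1 : ℝ) else 0)| ≤ _
      rw [h4]
      exact h3
    refine hb.trans ?_
    rw [integral_const_mul, integral_finsetSum _ (fun e _ => i3 e)]
    apply mul_le_mul_of_nonneg_left _ (by norm_num)
    rw [← nsmul_eq_mul]
    apply Finset.sum_le_card_nsmul
    intro e he
    exact var_bound (hne A) hq.nodup ((hq.2 e).mpr (hFA he)) r

theorem sign_pt {s s' S S' : ℝ} (hs : |s| ≤ 1) (h1 : |s - S| ≤ 1 / 8)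
    (h2 : |s' - S'| ≤ 1 / 8) (hne : ¬ (0 < S ↔ 0 < S')) :
    1 ≤ 2 * (1 - s ^ 2) + 64 * (s' - s) ^ 2 := by
  have a1 := abs_le.mp h1
  have a2 := abs_le.mp h2
  have a3 := abs_le.mp hs
  by_cases h3 : |s| ≤ 1 / 2
  · have : s ^ 2 ≤ 1 / 4 := by
      rw [← sq_abs]; nlinarith [abs_nonneg s]
    nlinarith [sq_nonneg (s' - s)]
  · push Not at h3
    have h5 : s ^ 2 ≤ 1 := by nlinarith
    have h6 : 1 / 64 ≤ (s' - s) ^ 2 := by
      rcases lt_or_ge 0 s with hp | hp
      · rw [abs_of_pos hp] at h3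
        have h4 : 0 < S := by linarith
        have h4' : ¬ 0 < S' := fun h => hne ⟨fun _ => h, fun _ => h4⟩
        nlinarith
      · rw [abs_of_nonpos hp] at h3
        have h4 : ¬ 0 < S := by linarith
        have h4' : 0 < S' := by
          by_contra h
          exact hne ⟨fun h' => absurd h' h4, fun h' => absurd h' h⟩
        nlinarith
    nlinarith

open Classical in
/-- (A2) the rounding rarely changes -/
theorem sign_change {Tr : Finset E → Finset (Finset E)} (hne : ∀ A, (Tr A).Nonempty)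
    {X : ℕ → Finset E} (hX : Monotone X) (hXu : ∀ e, ∃ n, e ∈ X n) {G : Set E} (hQL : QL Tr G)
    {lam : E → unitInterval} (hlam : Set.InjOn lam G) {r r' : ℕ} (hr : r ≤ r') {e : E}
    (he : e ∈ G) :
    ((noiseMeasure E) {ω | ¬ (1 / 2 < Mlim Tr X G lam ω r e ↔
      1 / 2 < Mlim Tr X G lam ω r' e)}).toReal ≤ 66 * (1 / (1 + 1 / 150 * (r : ℝ))) := by
  obtain ⟨A1, hA1, hA1'⟩ := Mlim_spec hne hX hXu hQL r he (δ := 1 / 16) (by norm_num)
  obtain ⟨A2, hA2, hA2'⟩ := Mlim_spec hne hX hXu hQL r' he (δ := 1 / 16) (by norm_num)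
  set A : Finset E := insert e (A1 ∪ A2) with hAdef
  have hAG : (A : Set E) ⊆ G := by
    intro x hx
    rw [hAdef, Finset.mem_coe, Finset.mem_insert, Finset.mem_union] at hx
    rcases hx with hx | hx | hx
    · rw [hx]; exact he
    · exact hA1 hx
    · exact hA2 hx
  have hA1A : A1 ⊆ A := fun x hx => Finset.mem_insert_of_mem (Finset.mem_union_left _ hx)
  have hA2A : A2 ⊆ A := fun x hx => Finset.mem_insert_of_mem (Finset.mem_union_right _ hx)
  obtain ⟨q, hq⟩ := exists_isSort (lam := lam) (A := A) (hlam.mono hAG)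
  have heq : e ∈ q := (hq.2 e).mpr (Finset.mem_insert_self _ _)
  have hms : MeasurableSet {ω : Noise E | ¬ (1 / 2 < Mlim Tr X G lam ω r e ↔
      1 / 2 < Mlim Tr X G lam ω r' e)} := by
    have e1 : {ω : Noise E | ¬ (1 / 2 < Mlim Tr X G lam ω r e ↔
        1 / 2 < Mlim Tr X G lam ω r' e)}
        = ({ω : Noise E | 1 / 2 < Mlim Tr X G lam ω r e} ∩
            {ω : Noise E | 1 / 2 < Mlim Tr X G lam ω r' e}ᶜ) ∪
          ({ω : Noise E | 1 / 2 < Mlim Tr X G lam ω r e}ᶜ ∩
            {ω : Noise E | 1 / 2 < Mlim Tr X G lam ω r' e}) := by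
      ext ω
      simp only [Set.mem_ofPred_eq, Set.mem_union, Set.mem_inter_iff, Set.mem_compl_iff]
      tauto
    rw [e1]
    have m1 := measSet_gt Tr X G lam r e
    have m2 := measSet_gt Tr X G lam r' e
    exact (m1.inter m2.compl).union (m1.compl.inter m2)
  rw [← integral_ind hms]
  have i3 : Integrable (fun ω => 1 - sp (Tr A) (run (Tr A) ω (evs q r)) e ^ 2)
      (noiseMeasure E) :=
    integrable_bdd (meas_vr (Tr A) e (evs q r)) (fun ω => vr_abs' (hne A) e _)
  have i4 : Integrable (fun ω => (sp (Tr A) (run (Tr A) ω (evs q r')) e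
      - sp (Tr A) (run (Tr A) ω (evs q r)) e) ^ 2) (noiseMeasure E) := by
    refine integrable_bdd (C := 4) (((meas_sp_run (Tr A) e (evs q r')).sub
      (meas_sp_run (Tr A) e (evs q r))).pow_const 2) (fun ω => ?_)
    have a1 := abs_le.mp (sp_abs (hne A) (run (Tr A) ω (evs q r)) e)
    have a2 := abs_le.mp (sp_abs (hne A) (run (Tr A) ω (evs q r')) e)
    rw [abs_of_nonneg (sq_nonneg _)]
    nlinarith
  have i2 : Integrable (fun ω => if ω ∈ {ω : Noise E | ¬ (1 / 2 < Mlim Tr X G lam ω r e ↔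
      1 / 2 < Mlim Tr X G lam ω r' e)} then (1 : ℝ) else 0) (noiseMeasure E) := by
    refine integrable_bdd (C := 1) (Measurable.ite hms measurable_const measurable_const)
      (fun ω => ?_)
    split_ifs <;> norm_num
  have hb : ∫ ω, (if ω ∈ {ω : Noise E | ¬ (1 / 2 < Mlim Tr X G lam ω r e ↔
      1 / 2 < Mlim Tr X G lam ω r' e)} then (1 : ℝ) else 0) ∂(noiseMeasure E)
      ≤ ∫ ω, (2 * (1 - sp (Tr A) (run (Tr A) ω (evs q r)) e ^ 2)
        + 64 * (sp (Tr A) (run (Tr A) ω (evs q r')) e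
      - sp (Tr A) (run (Tr A) ω (evs q r)) e) ^ 2) ∂(noiseMeasure E) := by
    refine integral_mono i2 ((i3.const_mul 2).add (i4.const_mul 64)) (fun ω => ?_)
    have h1 := hA1' A hA1A hAG lam hlam ω
    have h2 := hA2' A hA2A hAG lam hlam ω
    rw [marg_eq Tr ω hq] at h1 h2
    have hs := sp_abs (hne A) (run (Tr A) ω (evs q r)) e
    have hnn : 0 ≤ 1 - sp (Tr A) (run (Tr A) ω (evs q r)) e ^ 2 := by
      have := sq_le_one_of_abs hs
      linarith
    show (if ω ∈ {ω : Noise E | ¬ (1 / 2 < Mlim Tr X G lam ω r e ↔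
      1 / 2 < Mlim Tr X G lam ω r' e)} then (1 : ℝ) else 0) ≤
        2 * (1 - sp (Tr A) (run (Tr A) ω (evs q r)) e ^ 2)
        + 64 * (sp (Tr A) (run (Tr A) ω (evs q r')) e
      - sp (Tr A) (run (Tr A) ω (evs q r)) e) ^ 2
    split_ifs with hc
    · apply sign_pt (S := 2 * Mlim Tr X G lam ω r e - 1) (S' := 2 * Mlim Tr X G lam ω r' e - 1) hs
      · have e1 : sp (Tr A) (run (Tr A) ω (evs q r)) e - (2 * Mlim Tr X G lam ω r e - 1)
          = 2 * (mg (Tr A) (run (Tr A) ω (evs q r)) e - Mlim Tr X G lam ω r e) := by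
          unfold sp; ring
        rw [e1, abs_mul, abs_of_pos (by norm_num : (0 : ℝ) < 2)]
        linarith
      · have e1 : sp (Tr A) (run (Tr A) ω (evs q r')) e - (2 * Mlim Tr X G lam ω r' e - 1)
          = 2 * (mg (Tr A) (run (Tr A) ω (evs q r')) e - Mlim Tr X G lam ω r' e) := by
          unfold sp; ring
        rw [e1, abs_mul, abs_of_pos (by norm_num : (0 : ℝ) < 2)]
        linarith
      · intro hiff
        apply hc
        constructor
        · intro h
          have := hiff.mp (by linarith)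
          linarith
        · intro h
          have := hiff.mpr (by linarith)
          linarith
    · nlinarith [sq_nonneg (sp (Tr A) (run (Tr A) ω (evs q r')) e
        - sp (Tr A) (run (Tr A) ω (evs q r)) e)]
  refine hb.trans ?_
  rw [integral_add (i3.const_mul 2) (i4.const_mul 64), integral_const_mul, integral_const_mul]
  have v1 := var_bound (hne A) hq.nodup heq r
  have v2 := mart (hne A) hq.nodup e hr
  linarith

open Classical in
/-- (A3)+(A4): almost surely the rounding stabilises, to `Phi` -/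
theorem ae_stable {Tr : Finset E → Finset (Finset E)} (hne : ∀ A, (Tr A).Nonempty)
    {X : ℕ → Finset E} (hX : Monotone X) (hXu : ∀ e, ∃ n, e ∈ X n) {G : Set E} (hQL : QL Tr G)
    {lam : E → unitInterval} (hlam : Set.InjOn lam G) {e : E} (he : e ∈ G) :
    ∀ᵐ ω ∂(noiseMeasure E), ∀ᶠ k : ℕ in atTop,
      (1 / 2 < Mlim Tr X G lam ω (2 ^ k) e ↔ Phi Tr X G lam ω e = true) := by
  have hsum : (∑' k : ℕ, (noiseMeasure E) {ω | ¬ (1 / 2 < Mlim Tr X G lam ω (2 ^ k) e ↔
      1 / 2 < Mlim Tr X G lam ω (2 ^ (k + 1)) e)}) ≠ ⊤ := by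
    have hle : ∀ k : ℕ, (noiseMeasure E) {ω | ¬ (1 / 2 < Mlim Tr X G lam ω (2 ^ k) e ↔
        1 / 2 < Mlim Tr X G lam ω (2 ^ (k + 1)) e)} ≤ ENNReal.ofReal (9900 * (1 / 2) ^ k) := by
      intro k
      have h1 := sign_change hne hX hXu hQL hlam (r := 2 ^ k) (r' := 2 ^ (k + 1))
        (Nat.pow_le_pow_right (by norm_num) (Nat.le_succ k)) he
      rw [← ENNReal.ofReal_toReal (measure_ne_top (noiseMeasure E) {ω |
        ¬ (1 / 2 < Mlim Tr X G lam ω (2 ^ k) e ↔ 1 / 2 < Mlim Tr X G lam ω (2 ^ (k + 1)) e)})]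
      apply ENNReal.ofReal_le_ofReal
      refine h1.trans ?_
      push_cast
      have hp : (0 : ℝ) < 2 ^ k := by positivity
      have h2 : 1 / (1 + 1 / 150 * (2 : ℝ) ^ k) ≤ 150 / 2 ^ k := by
        rw [div_le_div_iff₀ (by positivity) hp]
        nlinarith
      have h3 : (9900 : ℝ) * (1 / 2) ^ k = 66 * (150 / 2 ^ k) := by
        rw [one_div, inv_pow]; ring
      rw [h3]
      linarith
    have hs : Summable (fun k : ℕ => (9900 : ℝ) * (1 / 2) ^ k) :=
      (summable_geometric_of_lt_one (by norm_num) (by norm_num)).mul_left _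
    refine ne_top_of_le_ne_top ?_ (ENNReal.tsum_le_tsum hle)
    rw [← ENNReal.ofReal_tsum_of_nonneg (fun k => by positivity) hs]
    exact ENNReal.ofReal_ne_top
  filter_upwards [ae_eventually_notMem hsum] with ω hω
  obtain ⟨K, hK⟩ := eventually_atTop.mp hω
  have hstep : ∀ k ≥ K, (1 / 2 < Mlim Tr X G lam ω (2 ^ k) e ↔
      1 / 2 < Mlim Tr X G lam ω (2 ^ (k + 1)) e) := by
    intro k hk
    have := hK k hk
    simp only [not_not] at this
    exact this
  have hconst : ∀ k ≥ K, (1 / 2 < Mlim Tr X G lam ω (2 ^ k) e ↔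
      1 / 2 < Mlim Tr X G lam ω (2 ^ K) e) := by
    intro k hk
    induction k, hk using Nat.le_induction with
    | base => exact Iff.rfl
    | succ k hk ih => exact (hstep k hk).symm.trans ih
  have hPhi : Phi Tr X G lam ω e = true ↔ 1 / 2 < Mlim Tr X G lam ω (2 ^ K) e := by
    unfold Phi
    rw [decide_eq_true_eq]
    constructor
    · rintro ⟨-, -, h⟩
      obtain ⟨k, hk1, hk2⟩ := (h.and (eventually_ge_atTop K)).exists
      exact (hconst k hk2).mp hk1
    · intro h
      refine ⟨he, hlam, ?_⟩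
      filter_upwards [eventually_ge_atTop K] with k hk
      exact (hconst k hk).mpr h
  filter_upwards [eventually_ge_atTop K] with k hk
  rw [hPhi]
  exact hconst k hk

theorem measSet_phi [Countable E] (Tr : Finset E → Finset (Finset E)) (X : ℕ → Finset E)
    (G : Set E) (lam : E → unitInterval) (F : Finset E) (η : E → Bool) :
    MeasurableSet {ω : Noise E | ∀ e ∈ F, Phi Tr X G lam ω e = η e} := by
  classical
  have h := Phi_measurable Tr X
  have h2 : Measurable (fun ω : Noise E =>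
      (((fun f => decide (f ∈ G)), (lam, ω)) : Par E)) :=
    measurable_const.prodMk (measurable_const.prodMk measurable_id)
  have h3 := h.comp h2
  have h4 : ∀ e, Measurable (fun ω : Noise E => Phi Tr X G lam ω e) := by
    intro e
    have h5 := (measurable_pi_apply e).comp h3
    have e1 : (fun ω : Noise E => Phi Tr X G lam ω e)
      = (fun f : E → Bool => f e) ∘ ((fun p : (E → Bool) × ((E → unitInterval) × Noise E) =>
        (fun e => Phi Tr X {f | p.1 f = true} p.2.1 p.2.2 e : E → Bool)) ∘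
        (fun ω : Noise E => (((fun f => decide (f ∈ G)), (lam, ω)) : Par E))) := by
      funext ω
      simp
    rw [e1]
    exact h5
  have e2 : {ω : Noise E | ∀ e ∈ F, Phi Tr X G lam ω e = η e}
      = ⋂ e ∈ F, {ω : Noise E | Phi Tr X G lam ω e = η e} := by
    ext ω; simp
  rw [e2]
  refine Finset.measurableSet_biInter _ fun e _ => ?_
  exact h4 e (measurableSet_singleton (η e))

theorem card_bound (n : ℕ) {ε : ℝ} (hε : 0 < ε) : ∃ K : ℕ, ∀ k ≥ K,
    2 * ((n : ℝ) * (1 / (1 + 1 / 150 * ((2 ^ k : ℕ) : ℝ)))) ≤ ε := by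
  obtain ⟨K, hK⟩ := exists_nat_gt (300 * (n : ℝ) / ε)
  refine ⟨K, fun k hk => ?_⟩
  have h1 : (K : ℝ) ≤ 2 ^ k := by
    have h2 : k < 2 ^ k := Nat.lt_two_pow_self
    have h3 : K ≤ 2 ^ k := hk.trans h2.le
    exact_mod_cast h3
  push_cast
  have hn : (0 : ℝ) ≤ n := Nat.cast_nonneg n
  have hp : (0 : ℝ) < 1 + 1 / 150 * 2 ^ k := by positivity
  rw [← mul_assoc, mul_one_div, div_le_iff₀ hp]
  rw [div_lt_iff₀ hε] at hK
  nlinarith

open Classical in
/-- (A6) law for cylinders inside `G` -/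
theorem Phi_law_in [Countable E] {Tr : Finset E → Finset (Finset E)}
    (hne : ∀ A, (Tr A).Nonempty)
    {X : ℕ → Finset E} (hX : Monotone X) (hXu : ∀ e, ∃ n, e ∈ X n) {G : Set E} (hQL : QL Tr G)
    {lam : E → unitInterval} (hlam : Set.InjOn lam G)
    {A : ℕ → Finset E} (hA : Monotone A) (hAG : ∀ n, (A n : Set E) ⊆ G)
    (hAu : ∀ e ∈ G, ∃ n, e ∈ A n) {F : Finset E} (hF : (F : Set E) ⊆ G) (η : E → Bool) :
    Tendsto (fun n => cyl (Tr (A n)) (fun _ => 0) F η) atTop
      (𝓝 ((noiseMeasure E) {ω | ∀ e ∈ F, Phi Tr X G lam ω e = η e}).toReal) := by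
  have hkey : Tendsto (fun k : ℕ => ((noiseMeasure E)
      {ω | Agree Tr X G lam (2 ^ k) F η ω}).toReal) atTop
      (𝓝 ((noiseMeasure E) {ω | ∀ e ∈ F, Phi Tr X G lam ω e = η e}).toReal) := by
    refine (ENNReal.tendsto_toReal (measure_ne_top _ _)).comp ?_
    refine tendsto_measure_of_ae_tendsto_indicator_of_isFiniteMeasure atTop
      (measSet_phi Tr X G lam F η) (fun k => measSet_agree Tr X G lam (2 ^ k) F η) ?_
    have hall : ∀ᵐ ω ∂(noiseMeasure E), ∀ e ∈ F, ∀ᶠ k : ℕ in atTop,
        (1 / 2 < Mlim Tr X G lam ω (2 ^ k) e ↔ Phi Tr X G lam ω e = true) := by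
      have := (Finset.eventually_all F (l := ae (noiseMeasure E))
        (p := fun e ω => ∀ᶠ k : ℕ in atTop,
          (1 / 2 < Mlim Tr X G lam ω (2 ^ k) e ↔ Phi Tr X G lam ω e = true))).mpr
        (fun e he => ae_stable hne hX hXu hQL hlam (hF he))
      exact this
    filter_upwards [hall] with ω hω
    have hω' := (Finset.eventually_all F (l := (atTop : Filter ℕ))
        (p := fun e k => (1 / 2 < Mlim Tr X G lam ω (2 ^ k) e ↔
          Phi Tr X G lam ω e = true))).mpr hω
    filter_upwards [hω'] with k hk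
    show Agree Tr X G lam (2 ^ k) F η ω ↔ ∀ e ∈ F, Phi Tr X G lam ω e = η e
    unfold Agree
    constructor
    · intro h e he
      have h1 := (hk e he).symm.trans (h e he)
      exact Bool.eq_iff_iff.mpr h1
    · intro h e he
      rw [hk e he, h e he]
  rw [Metric.tendsto_atTop]
  intro ε hε
  obtain ⟨K1, hK1⟩ := card_bound F.card (show 0 < ε / 3 by linarith)
  obtain ⟨K2, hK2⟩ := Metric.tendsto_atTop.mp hkey (ε / 3) (by linarith)
  set k := max K1 K2 with hk
  have h1 := hK1 k (le_max_left _ _)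
  have h2 := hK2 k (le_max_right _ _)
  rw [Real.dist_eq] at h2
  obtain ⟨A₀, hA₀, hA₀'⟩ := agree_cyl hne hX hXu hQL hlam (2 ^ k) hF η
  have hex : ∀ x ∈ A₀, ∃ n, x ∈ A n := fun x hx => hAu x (hA₀ hx)
  choose! N hN using hex
  refine ⟨A₀.sup N, fun n hn => ?_⟩
  rw [Real.dist_eq]
  have hsub : A₀ ⊆ A n := fun x hx => hA ((Finset.le_sup hx).trans hn) (hN x hx)
  have h3 := hA₀' (A n) hsub (hAG n)
  have h4 := abs_sub_le (cyl (Tr (A n)) (fun _ => 0) F η)
    ((noiseMeasure E) {ω | Agree Tr X G lam (2 ^ k) F η ω}).toReal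
    ((noiseMeasure E) {ω | ∀ e ∈ F, Phi Tr X G lam ω e = η e}).toReal
  linarith

theorem Phi_out (Tr : Finset E → Finset (Finset E)) (X : ℕ → Finset E) {G : Set E}
    (lam : E → unitInterval) (ω : Noise E) {e : E} (he : e ∉ G) :
    Phi Tr X G lam ω e = false := by
  unfold Phi
  rw [decide_eq_false_iff_not]
  exact fun h => he h.1

open Classical in
/-- law of the factor map for fixed distinct labels -/
theorem Phi_law [Countable E] (Tr : Finset E → Finset (Finset E)) {X : ℕ → Finset E}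
    (hX : Monotone X)
    (hXu : ∀ e, ∃ n, e ∈ X n) (hne : ∀ A, (Tr A).Nonempty) (hsub : ∀ A, ∀ B ∈ Tr A, B ⊆ A)
    {G : Set E} (hQL : QL Tr G) {lam : E → unitInterval} (hlam : Set.InjOn lam G)
    {A : ℕ → Finset E} (hA : Monotone A) (hAG : ∀ n, (A n : Set E) ⊆ G)
    (hAu : ∀ e ∈ G, ∃ n, e ∈ A n) (F : Finset E) (η : E → Bool) :
    Tendsto (fun n => ∑ B ∈ (Tr (A n)).filter (fun B => ∀ e ∈ F, (e ∈ B ↔ η e = true)),
        prb (Tr (A n)) (fun _ => 0) B) atTop
      (𝓝 ((noiseMeasure E) {ω | ∀ e ∈ F, Phi Tr X G lam ω e = η e}).toReal) := by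
  by_cases hbad : ∃ e ∈ F, e ∉ G ∧ η e = true
  · obtain ⟨e, heF, heG, hη⟩ := hbad
    have h1 : ∀ n, ∑ B ∈ (Tr (A n)).filter (fun B => ∀ e ∈ F, (e ∈ B ↔ η e = true)),
        prb (Tr (A n)) (fun _ => 0) B = 0 := by
      intro n
      apply Finset.sum_eq_zero
      intro B hB
      simp only [Finset.mem_filter] at hB
      exfalso
      have h2 := (hB.2 e heF).mpr hη
      exact heG (hAG n (hsub (A n) B hB.1 h2))
    have h2 : {ω : Noise E | ∀ e ∈ F, Phi Tr X G lam ω e = η e} = ∅ := by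
      ext ω
      simp only [Set.mem_ofPred_eq, Set.mem_empty_iff_false, iff_false]
      intro h
      have h3 := h e heF
      rw [Phi_out Tr X lam ω heG, hη] at h3
      exact absurd h3 (by simp)
    simp_rw [h1, h2]
    simp
  · push Not at hbad
    set F' := F.filter (· ∈ G) with hF'
    have hF'G : (F' : Set E) ⊆ G := by
      intro x hx
      exact (Finset.mem_filter.mp hx).2
    have h1 := Phi_law_in hne hX hXu hQL hlam hA hAG hAu hF'G η
    have h2 : ∀ n, ∑ B ∈ (Tr (A n)).filter (fun B => ∀ e ∈ F, (e ∈ B ↔ η e = true)),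
        prb (Tr (A n)) (fun _ => 0) B = cyl (Tr (A n)) (fun _ => 0) F' η := by
      intro n
      unfold cyl
      apply Finset.sum_congr _ (fun _ _ => rfl)
      ext B
      simp only [Finset.mem_filter]
      refine and_congr_right (fun hB => ?_)
      constructor
      · intro h e he
        exact h e (Finset.mem_filter.mp he).1
      · intro h e he
        by_cases heG : e ∈ G
        · exact h e (Finset.mem_filter.mpr ⟨he, heG⟩)
        · have h3 := hbad e he heG
          constructor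
          · intro h4
            exact absurd (hAG n (hsub (A n) B hB h4)) heG
          · intro h4
            exact absurd h4 h3
    have h3 : {ω : Noise E | ∀ e ∈ F, Phi Tr X G lam ω e = η e}
        = {ω : Noise E | ∀ e ∈ F', Phi Tr X G lam ω e = η e} := by
      ext ω
      simp only [Set.mem_ofPred_eq]
      constructor
      · intro h e he
        exact h e (Finset.mem_filter.mp he).1
      · intro h e he
        by_cases heG : e ∈ G
        · exact h e (Finset.mem_filter.mpr ⟨he, heG⟩)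
        · have h4 := hbad e he heG
          rw [Phi_out Tr X lam ω heG]
          simpa using h4
    simp_rw [h2, h3]
    exact h1

end Vale.Agent.P143
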