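import Vale.Agent.P143.FDefs

/-! Measure-theoretic lemmas on products of uniform variables, used for the transfer from vertex
noise to edge noise. -/

open MeasureTheory Filter Topology

namespace Vale.Agent.P143

theorem iid_map_inj {α ι : Type*} {f : α → ι} (hf : Function.Injective f) :
    (iid ι).map (fun ω i => ω (f i)) = iid α :=
  Measure.map_infinitePi_infinitePi_of_inj hf

theorem measurable_sumElim {α β : Type*} :
    Measurable fun p : (α → unitInterval) × (β → unitInterval) => (Sum.elim p.1 p.2 :
      α ⊕ β → unitInterval) := by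
  refine measurable_pi_iff.2 fun i => ?_
  cases i with
  | inl a => exact (measurable_pi_apply a).comp measurable_fst
  | inr b => exact (measurable_pi_apply b).comp measurable_snd

theorem map_sumElim (α β : Type*) :
    ((iid α).prod (iid β)).map (fun p => (Sum.elim p.1 p.2 : α ⊕ β → unitInterval))
      = iid (α ⊕ β) := by
  classical
  refine Measure.eq_infinitePi _ fun s t ht => ?_
  rw [Measure.map_apply measurable_sumElim (MeasurableSet.pi s.countable_toSet fun _ _ => ht _)]
  have h1 : (fun p : (α → unitInterval) × (β → unitInterval) =>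
      (Sum.elim p.1 p.2 : α ⊕ β → unitInterval)) ⁻¹' ((s : Set (α ⊕ β)).pi t)
      = ((s.toLeft : Set α).pi (fun a => t (Sum.inl a))) ×ˢ
        ((s.toRight : Set β).pi (fun b => t (Sum.inr b))) := by
    ext p
    simp only [Set.mem_preimage, Set.mem_pi, Finset.mem_coe, Set.mem_prod, Finset.mem_toLeft,
      Finset.mem_toRight]
    constructor
    · intro h
      exact ⟨fun a ha => h (Sum.inl a) ha, fun b hb => h (Sum.inr b) hb⟩
    · rintro ⟨h, h'⟩ i hi
      cases i with
      | inl a => exact h a hi
      | inr b => exact h' b hi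
  rw [h1, Measure.prod_prod, Measure.infinitePi_pi _ (fun i _ => ht _),
    Measure.infinitePi_pi _ (fun i _ => ht _)]
  conv_rhs => rw [← Finset.toLeft_disjSum_toRight (u := s), Finset.prod_disjSum]

theorem map_pair (α β : Type*) :
    (iid (α ⊕ β)).map (fun ω => ((fun a => ω (Sum.inl a) : α → unitInterval),
      (fun b => ω (Sum.inr b) : β → unitInterval))) = (iid α).prod (iid β) := by
  rw [← map_sumElim, Measure.map_map (by fun_prop) measurable_sumElim]
  have h : ((fun ω : α ⊕ β → unitInterval => ((fun a => ω (Sum.inl a) : α → unitInterval),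
      (fun b => ω (Sum.inr b) : β → unitInterval))) ∘
      (fun p : (α → unitInterval) × (β → unitInterval) => (Sum.elim p.1 p.2 :
      α ⊕ β → unitInterval))) = id := by
    funext p
    rfl
  rw [h, Measure.map_id]

/-- one uniform variable per vertex gives countably many per vertex -/
theorem exists_split (V : Type*) : ∃ T : unitInterval → (ℕ → unitInterval), Measurable T ∧
    (iid V).map (fun U (j : V × ℕ) => T (U j.1) j.2) = iid (V × ℕ) := by
  obtain ⟨τ, hτ, hτlaw⟩ := Measure.exists_measurable_map_eq (iid ℕ)
  refine ⟨τ, hτ, ?_⟩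
  set T : (V → unitInterval) → (V × ℕ → unitInterval) := fun U j => τ (U j.1) j.2 with hT
  have hTm : Measurable T := measurable_pi_iff.2 fun j =>
    (measurable_pi_apply j.2).comp (hτ.comp (measurable_pi_apply j.1))
  have h1 : (iid V).map (fun U v => τ (U v)) =
      Measure.infinitePi fun _ : V => iid ℕ := by
    rw [Measure.infinitePi_map_pi (fun _ : V => (volume : Measure unitInterval))
      (f := fun _ => τ) (fun _ => hτ)]
    congr 1
    funext v
    exact hτlaw
  have h2 := Measure.infinitePi_map_curry_symm
    (fun (_ : V) (_ : ℕ) => (volume : Measure unitInterval))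
  have h3 : T = (MeasurableEquiv.curry V ℕ unitInterval).symm ∘ fun U v => τ (U v) := by
    funext U j
    rfl
  have hm' : Measurable fun (U : V → unitInterval) (v : V) => τ (U v) :=
    measurable_pi_iff.2 fun v => hτ.comp (measurable_pi_apply v)
  rw [h3, ← Measure.map_map (MeasurableEquiv.measurable _) hm', h1]
  exact h2

theorem iid_ae_ne {ι : Type*} {j j' : ι} (hjj : j ≠ j') :
    ∀ᵐ R ∂(iid ι), R j ≠ R j' := by
  have hms : MeasurableSet {R : ι → unitInterval | R j = R j'} :=
    measurableSet_eq_fun (measurable_pi_apply j) (measurable_pi_apply j')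
  have h := Measure.infinitePi_map_eval_prod (P := fun _ : ι => (volume : Measure unitInterval)) hjj
  rw [ae_iff]
  have hd : MeasurableSet {p : unitInterval × unitInterval | p.1 = p.2} :=
    measurableSet_eq_fun measurable_fst measurable_snd
  have h2 : {R : ι → unitInterval | ¬ R j ≠ R j'} =
      (fun ω : ι → unitInterval => (ω j, ω j')) ⁻¹' {p | p.1 = p.2} := by
    ext R
    simp
  rw [h2, ← Measure.map_apply (by fun_prop) hd, h, Measure.measure_prod_null hd]
  refine Eventually.of_forall fun x => ?_
  have h3 : Prod.mk x ⁻¹' {p : unitInterval × unitInterval | p.1 = p.2} = {x} := by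
    ext y
    simp [eq_comm]
  simp only [h3, Pi.zero_apply]
  exact measure_singleton _

theorem iid_ae_injective {ι : Type*} [Countable ι] :
    ∀ᵐ R ∂(iid ι), Function.Injective R := by
  have h : ∀ᵐ R ∂(iid ι), ∀ j j' : ι, j ≠ j' → R j ≠ R j' := by
    rw [ae_all_iff]
    intro j
    rw [ae_all_iff]
    intro j'
    by_cases hj : j = j'
    · exact Eventually.of_forall fun R h => absurd hj h
    · filter_upwards [iid_ae_ne hj] with R hR _
      exact hR
  filter_upwards [h] with R hR i j hij
  by_contra hne
  exact hR i j hne hij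

/-- a map of a product whose sections have the same law -/
theorem map_prod_of_sections {α β γ : Type*} [MeasurableSpace α] [MeasurableSpace β]
    [MeasurableSpace γ] {μ : Measure α} [IsProbabilityMeasure μ] {ν : Measure β}
    [IsProbabilityMeasure ν] {ρ : Measure γ} {N : α × β → γ} (hN : Measurable N)
    (h : ∀ᵐ a ∂μ, ν.map (fun b => N (a, b)) = ρ) : (μ.prod ν).map N = ρ := by
  ext S hS
  rw [Measure.map_apply hN hS, Measure.prod_apply (hN hS)]
  have h1 : ∀ᵐ a ∂μ, ν (Prod.mk a ⁻¹' (N ⁻¹' S)) = ρ S := by
    filter_upwards [h] with a ha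
    rw [← ha, Measure.map_apply (by fun_prop) hS]
    rfl
  rw [lintegral_congr_ae h1]
  simp

end Vale.Agent.P143
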