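import Vale.Agent.P143.SDefs
import Vale.Agent.P143.TransferLaw

/-! [X] from vertex noise to edge noise on locally finite graphs (any countable vertex set) -/

open MeasureTheory Filter Topology

namespace Vale.Agent.P143

variable {V : Type*}

open Classical in
/-- keep only the noise of the (non-diagonal) edges of the graph coded by `g` -/
noncomputable def mask (g : Sym2 V → Bool)
    (p : (Sym2 V → unitInterval) × Noise (Sym2 V)) :
    (Sym2 V → unitInterval) × Noise (Sym2 V) :=
  (fun e => if g e = true ∧ ¬ e.IsDiag then p.1 e else 0,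
   fun q => if g q.1 = true ∧ ¬ q.1.IsDiag then p.2 q else 0)

open Classical in
/-- rank of `y` among the neighbours of `x` ordered by their labels -/
noncomputable def rk (g : Sym2 V → Bool) (t : V → unitInterval) (x y : V) : ℕ :=
  ⌊(∑' z, if g s(x, z) = true ∧ t z < t y then (1 : ENNReal) else 0).toReal⌋₊

theorem rk_eq (g : Sym2 V → Bool) (t : V → unitInterval) (x y : V)
    (hf : {z | g s(x, z) = true ∧ t z < t y}.Finite) :
    rk g t x y = hf.toFinset.card := by
  classical
  have h : (∑' z, if g s(x, z) = true ∧ t z < t y then (1 : ENNReal) else 0)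
      = (hf.toFinset.card : ENNReal) := by
    rw [tsum_eq_sum (s := hf.toFinset)]
    · rw [Finset.sum_congr rfl (g := fun _ => (1 : ENNReal))]
      · simp
      · intro z hz
        have hz' : g s(x, z) = true ∧ t z < t y := by simpa using hz
        rw [if_pos hz']
    · intro z hz
      have hz' : ¬ (g s(x, z) = true ∧ t z < t y) := by simpa using hz
      rw [if_neg hz']
  unfold rk
  rw [h]
  simp

theorem rk_lt (g : Sym2 V → Bool) (hg : ∀ x : V, {y | g s(x, y) = true}.Finite)
    (t : V → unitInterval) {x y y' : V} (hy : g s(x, y) = true) (hyy : t y < t y') :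
    rk g t x y < rk g t x y' := by
  have hf : ∀ w, {z | g s(x, z) = true ∧ t z < t w}.Finite := fun w =>
    (hg x).subset fun z hz => hz.1
  rw [rk_eq g t x y (hf y), rk_eq g t x y' (hf y')]
  refine Finset.card_lt_card ⟨fun z hz => ?_, fun h => ?_⟩
  · have hz' : g s(x, z) = true ∧ t z < t y := by simpa using hz
    simpa using ⟨hz'.1, hz'.2.trans hyy⟩
  · have h1 : y ∈ (hf y').toFinset := by simpa using ⟨hy, hyy⟩
    have h2 := h h1
    simp at h2

theorem rk_equiv (π : Equiv.Perm V) (g : Sym2 V → Bool) (t : V → unitInterval) (x y : V) :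
    rk (fun e => g (Sym2.map π.symm e)) (fun v => t (π.symm v)) x y
      = rk g t (π.symm x) (π.symm y) := by
  unfold rk
  congr 2
  rw [← Equiv.tsum_eq π.symm
    (fun z => if g s(π.symm x, z) = true ∧ t z < t (π.symm y) then (1 : ENNReal) else 0)]
  rfl

theorem measurable_rk [Countable V] (x y : V) :
    Measurable fun p : (Sym2 V → Bool) × (V → unitInterval) => rk p.1 p.2 x y := by
  classical
  refine Nat.measurable_floor.comp (ENNReal.measurable_toReal.comp (Measurable.tsum ?_))
  intro z
  have h1 : MeasurableSet {p : (Sym2 V → Bool) × (V → unitInterval) | p.1 s(x, z) = true} :=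
    measurableSet_eq_fun ((measurable_pi_apply s(x, z)).comp measurable_fst) measurable_const
  have h2 : MeasurableSet {p : (Sym2 V → Bool) × (V → unitInterval) | p.2 z < p.2 y} :=
    measurableSet_lt ((measurable_pi_apply z).comp measurable_snd)
      ((measurable_pi_apply y).comp measurable_snd)
  exact Measurable.ite (h1.inter h2) measurable_const measurable_const

/-- index of the noise variable attached to the oriented edge -/
def ix (k : ℕ) (j : Option ℕ) : ℕ := Encodable.encode (k, j) + 1

theorem ix_inj {k k' : ℕ} {j j' : Option ℕ} (h : ix k j = ix k' j') : k = k' ∧ j = j' := by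
  have h1 : Encodable.encode (k, j) = Encodable.encode (k', j') := Nat.succ_injective h
  have h2 := Encodable.encode_injective h1
  exact ⟨congrArg Prod.fst h2, congrArg Prod.snd h2⟩

open Classical in
/-- noise value of the oriented pair `(x,y)` -/
noncomputable def valo (g : Sym2 V → Bool) (Z : V × ℕ → unitInterval) (j : Option ℕ)
    (x y : V) : unitInterval :=
  if Z (x, 0) < Z (y, 0) then Z (x, ix (rk g (fun v => Z (v, 0)) x y) j)
  else if Z (y, 0) < Z (x, 0) then Z (y, ix (rk g (fun v => Z (v, 0)) y x) j)
  else 0

theorem valo_symm (g : Sym2 V → Bool) (Z : V × ℕ → unitInterval) (j : Option ℕ) (x y : V) :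
    valo g Z j x y = valo g Z j y x := by
  unfold valo
  rcases lt_trichotomy (Z (x, 0)) (Z (y, 0)) with h | h | h
  · simp [h, h.not_gt]
  · simp [h]
  · simp [h, h.not_gt]

open Classical in
/-- noise value of the edge `e` -/
noncomputable def val (g : Sym2 V → Bool) (Z : V × ℕ → unitInterval) (j : Option ℕ)
    (e : Sym2 V) : unitInterval :=
  if g e = true then Sym2.lift ⟨valo g Z j, valo_symm g Z j⟩ e else 0

theorem valo_equiv (π : Equiv.Perm V) (g : Sym2 V → Bool) (Z : V × ℕ → unitInterval)
    (j : Option ℕ) (x y : V) :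
    valo (fun e => g (Sym2.map π.symm e)) (fun p => Z (π.symm p.1, p.2)) j x y
      = valo g Z j (π.symm x) (π.symm y) := by
  unfold valo
  rw [rk_equiv π g (fun v => Z (v, 0)) x y, rk_equiv π g (fun v => Z (v, 0)) y x]

theorem val_equiv (π : Equiv.Perm V) (g : Sym2 V → Bool) (Z : V × ℕ → unitInterval)
    (j : Option ℕ) (e : Sym2 V) :
    val (fun e => g (Sym2.map π.symm e)) (fun p => Z (π.symm p.1, p.2)) j e
      = val g Z j (Sym2.map π.symm e) := by
  induction e using Sym2.ind with
  | _ x y =>
    unfold val
    simp only [Sym2.lift_mk, Sym2.map_mk]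
    rw [valo_equiv]

theorem measurable_coordZ (q : V × ℕ) :
    Measurable fun p : (Sym2 V → Bool) × (V × ℕ → unitInterval) => p.2 q :=
  (measurable_pi_apply q).comp measurable_snd

theorem measurable_rkZ [Countable V] (x y : V) :
    Measurable fun p : (Sym2 V → Bool) × (V × ℕ → unitInterval) =>
      rk p.1 (fun v => p.2 (v, 0)) x y := by
  have h : Measurable fun p : (Sym2 V → Bool) × (V × ℕ → unitInterval) =>
      (p.1, fun v : V => p.2 (v, 0)) :=
    measurable_fst.prodMk (measurable_pi_iff.2 fun v => measurable_coordZ (v, 0))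
  have h2 := (measurable_rk x y).comp h
  simpa only [Function.comp_def] using h2

theorem measurable_ixZ [Countable V] (j : Option ℕ) (x y : V) :
    Measurable fun p : (Sym2 V → Bool) × (V × ℕ → unitInterval) =>
      p.2 (x, ix (rk p.1 (fun v => p.2 (v, 0)) x y) j) := by
  have h1 : Measurable fun q : (V × ℕ → unitInterval) × ℕ => q.1 (x, ix q.2 j) :=
    measurable_from_prod_countable_left fun k => measurable_pi_apply (x, ix k j)
  have h2 : Measurable fun p : (Sym2 V → Bool) × (V × ℕ → unitInterval) =>
      (p.2, rk p.1 (fun v => p.2 (v, 0)) x y) :=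
    measurable_snd.prodMk (measurable_rkZ x y)
  exact h1.comp h2

theorem measurable_valo [Countable V] (j : Option ℕ) (x y : V) :
    Measurable fun p : (Sym2 V → Bool) × (V × ℕ → unitInterval) => valo p.1 p.2 j x y := by
  classical
  have hlt : ∀ q q' : V × ℕ,
      MeasurableSet {p : (Sym2 V → Bool) × (V × ℕ → unitInterval) | p.2 q < p.2 q'} :=
    fun q q' => measurableSet_lt (measurable_coordZ q) (measurable_coordZ q')
  unfold valo
  refine Measurable.ite (hlt (x, 0) (y, 0)) (measurable_ixZ j x y) ?_
  exact Measurable.ite (hlt (y, 0) (x, 0)) (measurable_ixZ j y x) measurable_const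

theorem measurable_val [Countable V] (j : Option ℕ) (e : Sym2 V) :
    Measurable fun p : (Sym2 V → Bool) × (V × ℕ → unitInterval) => val p.1 p.2 j e := by
  classical
  induction e using Sym2.ind with
  | _ x y =>
    have h1 : MeasurableSet {p : (Sym2 V → Bool) × (V × ℕ → unitInterval) |
        p.1 s(x, y) = true} :=
      measurableSet_eq_fun ((measurable_pi_apply s(x, y)).comp measurable_fst) measurable_const
    exact Measurable.ite h1 (measurable_valo j x y) measurable_const

/-- the edges of the graph coded by `g` -/
abbrev Ed (g : Sym2 V → Bool) := {e : Sym2 V // g e = true ∧ ¬ e.IsDiag}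

theorem exists_lt_of_edge {g : Sym2 V → Bool} {t : V → unitInterval}
    (ht : Function.Injective t) (e : Ed g) :
    ∃ x y, e.1 = s(x, y) ∧ t x < t y := by
  obtain ⟨e, he, hd⟩ := e
  induction e using Sym2.ind with
  | _ x y =>
    have hxy : x ≠ y := by simpa using hd
    rcases lt_or_gt_of_ne (ht.ne hxy) with h | h
    · exact ⟨x, y, rfl, h⟩
    · exact ⟨y, x, Sym2.eq_swap, h⟩

theorem low_inj {g : Sym2 V → Bool} (hg : ∀ x : V, {y | g s(x, y) = true}.Finite)
    {t : V → unitInterval} (ht : Function.Injective t) {X Y : Ed g → V}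
    (hXY : ∀ e, e.1 = s(X e, Y e)) :
    Function.Injective fun e : Ed g => (X e, rk g t (X e) (Y e)) := by
  intro e e' h
  simp only [Prod.mk.injEq] at h
  obtain ⟨hX, hr⟩ := h
  have hge : g s(X e, Y e) = true := hXY e ▸ e.2.1
  have hge' : g s(X e', Y e') = true := hXY e' ▸ e'.2.1
  rw [← hX] at hr hge'
  apply Subtype.ext
  rw [hXY e, hXY e', ← hX]
  rcases lt_trichotomy (t (Y e)) (t (Y e')) with h | h | h
  · exact absurd hr (rk_lt g hg t hge h).ne
  · rw [ht h]
  · exact absurd hr (rk_lt g hg t hge' h).ne'

/-- extension by zero of the edge noise -/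
noncomputable def ext0 (g : Sym2 V → Bool) (N : Ed g × Option ℕ → unitInterval) :
    (Sym2 V → unitInterval) × Noise (Sym2 V) := by
  classical
  exact (fun e => if h : g e = true ∧ ¬ e.IsDiag then N (⟨e, h⟩, none) else 0,
    fun q => if h : g q.1 = true ∧ ¬ q.1.IsDiag then N (⟨q.1, h⟩, some q.2) else 0)

theorem measurable_ext0 (g : Sym2 V → Bool) : Measurable (ext0 g) := by
  classical
  refine Measurable.prodMk (measurable_pi_iff.2 fun e => ?_) (measurable_pi_iff.2 fun q => ?_)
  · by_cases h : g e = true ∧ ¬ e.IsDiag
    · simpa only [dif_pos h] using measurable_pi_apply _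
    · simpa only [dif_neg h] using measurable_const
  · by_cases h : g q.1 = true ∧ ¬ q.1.IsDiag
    · simpa only [dif_pos h] using measurable_pi_apply _
    · simpa only [dif_neg h] using measurable_const

theorem mask_eq_ext0 (g : Sym2 V → Bool) (p : (Sym2 V → unitInterval) × Noise (Sym2 V)) :
    mask g p = ext0 g (fun q : Ed g × Option ℕ =>
      (Sum.elim p.1 p.2 : Sym2 V ⊕ (Sym2 V × ℕ) → unitInterval)
        (match q.2 with
        | none => Sum.inl q.1.1
        | some i => Sum.inr (q.1.1, i))) := by
  classical
  unfold mask ext0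
  refine Prod.ext (funext fun e => ?_) (funext fun q => ?_)
  · by_cases h : g e = true ∧ ¬ e.IsDiag
    · simp only [dif_pos h, if_pos h]
      rfl
    · simp only [dif_neg h, if_neg h]
  · by_cases h : g q.1 = true ∧ ¬ q.1.IsDiag
    · simp only [dif_pos h, if_pos h]
      rfl
    · simp only [dif_neg h, if_neg h]

theorem mask_law (g : Sym2 V → Bool) :
    Measure.map (mask g) ((Measure.infinitePi (fun _ : Sym2 V =>
        (volume : Measure unitInterval))).prod (noiseMeasure (Sym2 V)))
      = (iid (Ed g × Option ℕ)).map (ext0 g) := by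
  set f : Ed g × Option ℕ → Sym2 V ⊕ (Sym2 V × ℕ) := fun q => match q.2 with
        | none => Sum.inl q.1.1
        | some i => Sum.inr (q.1.1, i) with hf
  have hfi : Function.Injective f := by
    rintro ⟨e, j⟩ ⟨e', j'⟩ h
    cases j with
    | none =>
      cases j' with
      | none =>
        have : e.1 = e'.1 := by simpa [hf] using h
        rw [Subtype.ext this]
      | some i' => simp [hf] at h
    | some i =>
      cases j' with
      | none => simp [hf] at h
      | some i' =>
        have : e.1 = e'.1 ∧ i = i' := by simpa [hf] using h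
        rw [Subtype.ext this.1, this.2]
  have h1 : mask g = ext0 g ∘ (fun (ω : Sym2 V ⊕ (Sym2 V × ℕ) → unitInterval)
      (q : Ed g × Option ℕ) => ω (f q)) ∘
      (fun p : (Sym2 V → unitInterval) × Noise (Sym2 V) =>
        (Sum.elim p.1 p.2 : Sym2 V ⊕ (Sym2 V × ℕ) → unitInterval)) := by
    funext p
    exact mask_eq_ext0 g p
  have hm : Measurable fun (ω : Sym2 V ⊕ (Sym2 V × ℕ) → unitInterval)
      (q : Ed g × Option ℕ) => ω (f q) := by fun_prop
  rw [h1, ← Measure.map_map (measurable_ext0 g) (hm.comp measurable_sumElim),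
    ← Measure.map_map hm measurable_sumElim]
  congr 1
  have h2 := map_sumElim (Sym2 V) (Sym2 V × ℕ)
  unfold noiseMeasure
  rw [h2]
  exact iid_map_inj hfi

/-- edge noise is an equivariant function of vertex noise, jointly measurably in the graph.
Construction: split `U v` into a label `t v` and i.i.d. uniforms `a v (k, i)` (`k, i ∈ ℕ`);
the edge `{x,y}` with `t x < t y` uses the noise `a x (rank of y among the neighbours of x, ·)`. -/
theorem transferV (V : Type*) [Countable V] : ∃ Ψ : (Sym2 V → Bool) × (V → unitInterval) →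
      (Sym2 V → unitInterval) × Noise (Sym2 V),
    Measurable Ψ ∧
    (∀ (π : Equiv.Perm V) (g : Sym2 V → Bool) (U : V → unitInterval),
      Ψ (fun e => g (Sym2.map π.symm e), fun v => U (π.symm v))
        = (fun e => (Ψ (g, U)).1 (Sym2.map π.symm e),
           fun q => (Ψ (g, U)).2 (Sym2.map π.symm q.1, q.2))) ∧
    ∀ g : Sym2 V → Bool, (∀ x : V, {y | g s(x, y) = true}.Finite) →
      Measure.map (fun U => Ψ (g, U)) (Measure.infinitePi (fun _ : V => (volume : Measure unitInterval)))
        = Measure.map (mask g)
            ((Measure.infinitePi (fun _ : Sym2 V => (volume : Measure unitInterval))).prod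
              (noiseMeasure (Sym2 V))) := by
  classical
  obtain ⟨τ, hτ, hτlaw⟩ := exists_split V
  set T : (V → unitInterval) → (V × ℕ → unitInterval) := fun U j => τ (U j.1) j.2 with hT
  have hTm : Measurable T := measurable_pi_iff.2 fun j =>
    (measurable_pi_apply j.2).comp (hτ.comp (measurable_pi_apply j.1))
  set Ψ₀ : (Sym2 V → Bool) × (V × ℕ → unitInterval) →
      (Sym2 V → unitInterval) × Noise (Sym2 V) := fun p =>
    (fun e => val p.1 p.2 none e, fun q => val p.1 p.2 (some q.2) q.1) with hΨ₀
  have hΨ₀m : Measurable Ψ₀ :=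
    Measurable.prodMk (measurable_pi_iff.2 fun e => measurable_val none e)
      (measurable_pi_iff.2 fun q => measurable_val (some q.2) q.1)
  refine ⟨fun p => Ψ₀ (p.1, T p.2), hΨ₀m.comp (measurable_fst.prodMk (hTm.comp measurable_snd)),
    ?_, ?_⟩
  · intro π g U
    have h1 : T (fun v => U (π.symm v)) = fun p => T U (π.symm p.1, p.2) := rfl
    refine Prod.ext (funext fun e => ?_) (funext fun q => ?_)
    · simp only [hΨ₀, h1]
      exact val_equiv π g (T U) none e
    · simp only [hΨ₀, h1]
      exact val_equiv π g (T U) (some q.2) q.1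
  · intro g hg
    rw [mask_law]
    have hgm : Measurable fun Z : V × ℕ → unitInterval => Ψ₀ (g, Z) :=
      hΨ₀m.comp (measurable_const.prodMk measurable_id)
    have h1 : (fun U => Ψ₀ ((g, U).1, T (g, U).2)) =
        (fun Z : V × ℕ → unitInterval => Ψ₀ (g, Z)) ∘ T := rfl
    rw [h1, ← Measure.map_map hgm hTm, hτlaw]
    -- separate the labels from the rest
    set F : V ⊕ (V × ℕ) → V × ℕ := fun i => match i with
      | Sum.inl v => (v, 0)
      | Sum.inr q => (q.1, q.2 + 1) with hF
    have hFi : Function.Injective F := by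
      rintro (v | q) (v' | q') h
      · have : v = v' := by simpa [hF] using h
        rw [this]
      · simp [hF] at h
      · simp [hF] at h
      · have h' : q.1 = q'.1 ∧ q.2 = q'.2 := by simpa [hF] using h
        rw [Prod.ext h'.1 h'.2]
    set G : (V → unitInterval) × (V × ℕ → unitInterval) → (V × ℕ → unitInterval) := fun p q =>
      match q with
      | (v, 0) => p.1 v
      | (v, k + 1) => p.2 (v, k) with hG
    have hGm : Measurable G := by
      refine measurable_pi_iff.2 fun q => ?_
      obtain ⟨v, k⟩ := q
      cases k with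
      | zero => exact (measurable_pi_apply v).comp measurable_fst
      | succ k => exact (measurable_pi_apply (v, k)).comp measurable_snd
    have hGlaw : ((iid V).prod (iid (V × ℕ))).map G = iid (V × ℕ) := by
      have hm1 : Measurable (fun ω : V ⊕ (V × ℕ) → unitInterval =>
          ((fun a => ω (Sum.inl a) : V → unitInterval),
          (fun b => ω (Sum.inr b) : V × ℕ → unitInterval))) := by fun_prop
      have hm2 : Measurable (fun (ω : V × ℕ → unitInterval) i => ω (F i)) := by fun_prop
      rw [← map_pair, ← iid_map_inj hFi, Measure.map_map hm1 hm2,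
        Measure.map_map hGm (hm1.comp hm2)]
      have h2 : (G ∘ (fun ω : V ⊕ (V × ℕ) → unitInterval =>
          ((fun a => ω (Sum.inl a) : V → unitInterval),
          (fun b => ω (Sum.inr b) : V × ℕ → unitInterval))) ∘
          fun (ω : V × ℕ → unitInterval) i => ω (F i)) = id := by
        funext ω q
        obtain ⟨v, k⟩ := q
        cases k with
        | zero => rfl
        | succ k => rfl
      rw [h2, Measure.map_id]
    rw [← hGlaw, Measure.map_map hgm hGm]
    refine map_prod_of_sections (hgm.comp hGm) ?_
    filter_upwards [iid_ae_injective (ι := V)] with t ht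
    -- fixed distinct labels
    choose X Y hXY hlt using fun e : Ed g => exists_lt_of_edge ht e
    set f : Ed g × Option ℕ → V × ℕ := fun q =>
      (X q.1, Encodable.encode (rk g t (X q.1) (Y q.1), q.2)) with hf
    have hfi : Function.Injective f := by
      rintro ⟨e, j⟩ ⟨e', j'⟩ h
      simp only [hf, Prod.mk.injEq] at h
      have h2 := Encodable.encode_injective h.2
      simp only [Prod.mk.injEq] at h2
      have h3 : e = e' := low_inj hg ht hXY (Prod.ext h.1 h2.1)
      rw [h3, h2.2]
    have h3 : (fun b : V × ℕ → unitInterval =>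
        ((fun Z : V × ℕ → unitInterval => Ψ₀ (g, Z)) ∘ G) (t, b)) =
        ext0 g ∘ fun (ω : V × ℕ → unitInterval) q => ω (f q) := by
      funext b
      have hlab : (fun v => G (t, b) (v, 0)) = t := rfl
      have hkey : ∀ (j : Option ℕ) (e : Sym2 V), val g (G (t, b)) j e =
          if h : g e = true ∧ ¬ e.IsDiag then b (f (⟨e, h⟩, j)) else 0 := by
        intro j e
        by_cases h : g e = true ∧ ¬ e.IsDiag
        · rw [dif_pos h]
          have he : e = s(X ⟨e, h⟩, Y ⟨e, h⟩) := hXY ⟨e, h⟩
          have hxy : t (X ⟨e, h⟩) < t (Y ⟨e, h⟩) := hlt ⟨e, h⟩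
          have hxy' : G (t, b) (X ⟨e, h⟩, 0) < G (t, b) (Y ⟨e, h⟩, 0) := hxy
          have h4 : val g (G (t, b)) j e = valo g (G (t, b)) j (X ⟨e, h⟩) (Y ⟨e, h⟩) := by
            unfold val
            rw [if_pos h.1]
            conv_lhs => rw [he]
            rfl
          rw [h4]
          simp only [valo, hlab]
          rw [if_pos hxy']
          simp only [hf]
          rfl
        · rw [dif_neg h]
          by_cases hge : g e = true
          · have hd : e.IsDiag := by
              by_contra hd
              exact h ⟨hge, hd⟩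
            induction e using Sym2.ind with
            | _ x y =>
              have hxy : x = y := by simpa using hd
              subst hxy
              simp [val, valo]
          · simp [val, hge]
      refine Prod.ext (funext fun e => ?_) (funext fun q => ?_)
      · exact hkey none e
      · exact hkey (some q.2) q.1
    rw [h3, ← Measure.map_map (measurable_ext0 g) (by fun_prop), iid_map_inj hfi]

/-- the case `V = ℕ` -/
theorem transfer : ∃ Ψ : (Sym2 ℕ → Bool) × (ℕ → unitInterval) →
      (Sym2 ℕ → unitInterval) × Noise (Sym2 ℕ),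
    Measurable Ψ ∧
    (∀ (π : Equiv.Perm ℕ) (g : Sym2 ℕ → Bool) (U : ℕ → unitInterval),
      Ψ (fun e => g (Sym2.map π.symm e), fun v => U (π.symm v))
        = (fun e => (Ψ (g, U)).1 (Sym2.map π.symm e),
           fun q => (Ψ (g, U)).2 (Sym2.map π.symm q.1, q.2))) ∧
    ∀ g : Sym2 ℕ → Bool, (∀ x : ℕ, {y | g s(x, y) = true}.Finite) →
      Measure.map (fun U => Ψ (g, U)) (Measure.infinitePi (fun _ : ℕ => (volume : Measure unitInterval)))
        = Measure.map (mask g)
            ((Measure.infinitePi (fun _ : Sym2 ℕ => (volume : Measure unitInterval))).prod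
              (noiseMeasure (Sym2 ℕ))) := transferV ℕ

end Vale.Agent.P143
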