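import Vale.Agent.P143.FDefs
import Vale.Agent.P143.PhiLaw
import Vale.Agent.P143.PhiMeas
import Vale.Agent.P143.PhiEquiv
import Vale.Agent.P143.Dini
import Vale.Agent.P143.Transfer
import Vale.Agent.P143.Bridge
import Vale.Agent.P143.Exh

/-! [F] final assembly -/

open MeasureTheory Filter Topology

namespace Vale.Agent.P143

theorem codeGraph_edgeSet {V : Type*} (g : Sym2 V → Bool) :
    (codeGraph g).edgeSet = {e | g e = true ∧ ¬ e.IsDiag} := by
  ext e
  unfold codeGraph
  rw [SimpleGraph.edgeSet_fromEdgeSet]
  simp

theorem exists_exhaust (E : Type*) [Countable E] :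
    ∃ X : ℕ → Finset E, Monotone X ∧ ∀ e, ∃ n, e ∈ X n := by
  classical
  rcases isEmpty_or_nonempty E with h | h
  · exact ⟨fun _ => ∅, fun _ _ _ => le_rfl, fun e => h.elim e⟩
  · obtain ⟨f, hf⟩ := exists_surjective_nat E
    refine ⟨fun n => (Finset.range n).image f, fun m n hmn => ?_, fun e => ?_⟩
    · exact Finset.image_subset_image (Finset.range_mono hmn)
    · obtain ⟨n, rfl⟩ := hf e
      exact ⟨n + 1, Finset.mem_image_of_mem _ (by simp)⟩

/-- the set of edges coded by `g` -/
def Es {V : Type*} (g : Sym2 V → Bool) : Set (Sym2 V) := {e | g e = true ∧ ¬ e.IsDiag}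

open Classical in
/-- remove the diagonal -/
noncomputable def offd {V : Type*} (g : Sym2 V → Bool) : Sym2 V → Bool :=
  fun e => if e.IsDiag then false else g e

theorem offd_set {V : Type*} (g : Sym2 V → Bool) : {f | offd g f = true} = Es g := by
  ext f
  simp only [offd, Es, Set.mem_ofPred_eq]
  split_ifs with h <;> simp [h]

theorem measurable_offd {V : Type*} : Measurable (offd : (Sym2 V → Bool) → (Sym2 V → Bool)) := by
  classical
  rw [measurable_pi_iff]
  intro e
  unfold offd
  by_cases h : e.IsDiag
  · simp only [h, if_true]; exact measurable_const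
  · simp only [h, if_false]; exact measurable_pi_apply e

theorem Es_equiv {V : Type*} (π : Equiv.Perm V) (g : Sym2 V → Bool) :
    Es (fun e => g (Sym2.map π.symm e)) = symPerm π '' Es g := by
  rw [Equiv.image_eq_preimage_symm]
  ext e
  simp only [Es, Set.mem_ofPred_eq, Set.mem_preimage]
  rw [symPerm_symm_apply]
  have h1 : (Sym2.map π.symm e).IsDiag ↔ e.IsDiag := by
    induction e with
    | _ x y => simp
  rw [h1]

theorem measurable_mask {V : Type*} (g : Sym2 V → Bool) : Measurable (mask g) := by
  classical
  unfold mask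
  refine Measurable.prodMk (measurable_pi_iff.2 fun e => ?_) (measurable_pi_iff.2 fun q => ?_)
  · by_cases h : g e = true ∧ ¬ e.IsDiag
    · simp only [if_pos h]
      exact (measurable_pi_apply e).comp measurable_fst
    · simp only [if_neg h]
      exact measurable_const
  · by_cases h : g q.1 = true ∧ ¬ q.1.IsDiag
    · simp only [if_pos h]
      exact (measurable_pi_apply q).comp measurable_snd
    · simp only [if_neg h]
      exact measurable_const

/-- one universal map for all connected locally finite graphs on `V` -/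
theorem universal (V : Type*) [Countable V] :
    ∃ Φ : (Sym2 V → Bool) × (V → unitInterval) → (Sym2 V → Bool), Measurable Φ ∧
      (∀ (π : Equiv.Perm V) (g : Sym2 V → Bool) (U : V → unitInterval),
        Φ (fun e => g (Sym2.map π.symm e), fun v => U (π.symm v))
          = fun e => Φ (g, U) (Sym2.map π.symm e)) ∧
      ∀ g : Sym2 V → Bool, (codeGraph g).Connected →
        (∀ v, ((codeGraph g).neighborSet v).Finite) →
        IsFUSF (codeGraph g) ((iid V).map (fun U => Φ (g, U))) := by
  classical
  obtain ⟨X, hX, hXu⟩ := exists_exhaust (Sym2 V)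
  obtain ⟨Ψ, hΨm, hΨe, hΨl⟩ := transferV V
  have hne : ∀ A : Finset (Sym2 V), (bases A).Nonempty := bases_nonempty
  have hsub : ∀ A : Finset (Sym2 V), ∀ B ∈ bases A, B ⊆ A := fun A B hB => bases_subset hB
  have hPm := Phi_measurable (bases (V := V)) X
  have hΦm : Measurable fun p : (Sym2 V → Bool) × (V → unitInterval) =>
      (fun e => Phi bases X {f | offd p.1 f = true} (Ψ p).1 (Ψ p).2 e : Sym2 V → Bool) :=
    hPm.comp ((measurable_offd.comp measurable_fst).prodMk hΨm)
  refine ⟨fun p e => Phi bases X {f | offd p.1 f = true} (Ψ p).1 (Ψ p).2 e, hΦm, ?_, ?_⟩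
  · intro π g U
    funext e
    simp only
    rw [hΨe π g U, offd_set, offd_set, Es_equiv]
    have key : ∀ (i1 : DecidableEq (Sym2 V)) (i2 : DecidableEq (Finset (Sym2 V)))
        (A : Finset (Sym2 V)), bases (@Finset.image _ _ i1 (symPerm π) A)
          = @Finset.image _ _ i2 (fun B => @Finset.image _ _ i1 (symPerm π) B) (bases A) :=
      fun i1 i2 A => @bases_image V i1 i2 π A
    have h1 := Phi_equiv (bases (V := V)) hX hXu hne hsub (symPerm π)
      (fun A => key _ _ A) (G := Es g) (ql_bases _) (Ψ (g, U)).1 (Ψ (g, U)).2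
      (Sym2.map π.symm e)
    have h2 : symPerm π (Sym2.map π.symm e) = e := (symPerm π).right_inv e
    rw [h2] at h1
    exact h1
  · intro g hconn hlf
    have hΦg : Measurable fun U : V → unitInterval =>
        (fun e => Phi bases X {f | offd g f = true} (Ψ (g, U)).1 (Ψ (g, U)).2 e :
          Sym2 V → Bool) := by
      have h1 := hΦm.comp ((measurable_const (a := g)).prodMk measurable_id)
      simp only [Function.comp_def, id_eq] at h1
      exact h1
    refine ⟨Measure.isProbabilityMeasure_map hΦg.aemeasurable, exists_exhaustion hconn hlf, ?_⟩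
    intro H hH F η
    obtain ⟨A, hAe, hAm, hAs, hAu⟩ := exhaustion_edges hH
    have hEs : (codeGraph g).edgeSet = Es g := codeGraph_edgeSet g
    have hAG : ∀ n, (A n : Set (Sym2 V)) ⊆ Es g := by
      intro n
      rw [← hEs]
      exact hAs n
    have hAu' : ∀ e ∈ Es g, ∃ n, e ∈ A n := by rw [← hEs]; exact hAu
    set S : Set ((Sym2 V → unitInterval) × Noise (Sym2 V)) :=
      {p | ∀ e ∈ F, Phi bases X (Es g) p.1 p.2 e = η e} with hSdef
    have hcyl : MeasurableSet {x : Sym2 V → Bool | ∀ e ∈ F, x e = η e} := measurableSet_cyl F η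
    have hPg : Measurable fun p : (Sym2 V → unitInterval) × Noise (Sym2 V) =>
        (fun e => Phi bases X (Es g) p.1 p.2 e : Sym2 V → Bool) := by
      have h1 := hPm.comp ((measurable_const (a := offd g)).prodMk measurable_id)
      simp only [Function.comp_def, offd_set, id_eq] at h1
      exact h1
    have hS : MeasurableSet S := hPg hcyl
    have hgm : Measurable fun U : V → unitInterval => Ψ (g, U) :=
      hΨm.comp (measurable_const.prodMk measurable_id)
    have hmask : mask g ⁻¹' S = S := by
      ext p
      simp only [hSdef, Set.mem_preimage, Set.mem_ofPred_eq]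
      have h1 : ∀ e, Phi bases X (Es g) (mask g p).1 (mask g p).2 e =
          Phi bases X (Es g) p.1 p.2 e := by
        intro e
        exact Phi_congr _ X (Es g) (fun f hf => if_pos hf) (fun f hf j => if_pos hf) e
      simp only [h1]
    have hlaw : (Measure.map (fun U : V → unitInterval =>
        (fun e => Phi bases X {f | offd g f = true} (Ψ (g, U)).1 (Ψ (g, U)).2 e :
          Sym2 V → Bool)) (iid V)) {x | ∀ e ∈ F, x e = η e} =
        ((iid (Sym2 V)).prod (noiseMeasure (Sym2 V))) S := by
      rw [Measure.map_apply hΦg hcyl]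
      have h1 : (fun U : V → unitInterval =>
          (fun e => Phi bases X {f | offd g f = true} (Ψ (g, U)).1 (Ψ (g, U)).2 e :
          Sym2 V → Bool)) ⁻¹' {x | ∀ e ∈ F, x e = η e} = (fun U => Ψ (g, U)) ⁻¹' S := by
        simp only [offd_set]
        rfl
      have hfin : ∀ x : V, {y | g s(x, y) = true}.Finite := by
        intro x
        refine ((hlf x).union (Set.finite_singleton x)).subset fun y hy => ?_
        by_cases hxy : y = x
        · right; exact hxy
        · left
          change (codeGraph g).Adj x y
          unfold codeGraph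
          rw [SimpleGraph.fromEdgeSet_adj]
          exact ⟨hy, fun h => hxy h.symm⟩
      have hmm : Measurable (mask g) := measurable_mask g
      rw [h1, ← Measure.map_apply hgm hS, hΨl g hfin, Measure.map_apply hmm hS, hmask]
    -- the sections
    have hsec : ∀ lam : Sym2 V → unitInterval, Function.Injective lam →
        Tendsto (fun n => ustProb (H n) F η) atTop
          (𝓝 ((noiseMeasure (Sym2 V)) (Prod.mk lam ⁻¹' S)).toReal) := by
      intro lam hlam
      have h1 := Phi_law (bases (V := V)) hX hXu hne hsub (G := Es g) (ql_bases _)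
        (lam := lam) hlam.injOn hAm hAG hAu' F η
      refine h1.congr fun n => ?_
      have key : ∀ i : DecidablePred fun B : Finset (Sym2 V) => ∀ e ∈ F, (e ∈ B ↔ η e = true),
          ustProb (H n) F η = ∑ B ∈ @Finset.filter _ (fun B : Finset (Sym2 V) =>
            ∀ e ∈ F, (e ∈ B ↔ η e = true)) i (bases (A n)),
            prb (bases (A n)) (fun _ => 0) B :=
        fun i => @ustProb_eq V _ _ (hH.connected n) _ (hAe n) F η i
      exact (key _).symm
    have : IsProbabilityMeasure (noiseMeasure (Sym2 V)) := by
      unfold noiseMeasure; infer_instance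
    obtain ⟨lam0, hlam0⟩ := (iid_ae_injective (ι := Sym2 V)).exists
    have hconst : ∀ᵐ lam ∂(iid (Sym2 V)), (noiseMeasure (Sym2 V)) (Prod.mk lam ⁻¹' S) =
        (noiseMeasure (Sym2 V)) (Prod.mk lam0 ⁻¹' S) := by
      filter_upwards [iid_ae_injective (ι := Sym2 V)] with lam hlam
      have h1 := tendsto_nhds_unique (hsec lam hlam) (hsec lam0 hlam0)
      exact (ENNReal.toReal_eq_toReal_iff' (measure_ne_top _ _) (measure_ne_top _ _)).1 h1
    have hprod : ((iid (Sym2 V)).prod (noiseMeasure (Sym2 V))) S =
        (noiseMeasure (Sym2 V)) (Prod.mk lam0 ⁻¹' S) := by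
      rw [Measure.prod_apply hS, lintegral_congr_ae hconst, lintegral_const, measure_univ, mul_one]
    have := hsec lam0 hlam0
    rw [← hprod, ← hlaw] at this
    exact this

/-- every graph, all automorphisms (from `universal` with `g` = indicator of the edge set) -/
theorem all_graphs (V : Type*) [Countable V] (G : SimpleGraph V)
    (hc : G.Connected) (hf : ∀ v, (G.neighborSet v).Finite) :
    ∃ Φ : (V → unitInterval) → (Sym2 V → Bool), Measurable Φ ∧
      (∀ (π : G ≃g G) (U : V → unitInterval),
        Φ (fun v => U (π.symm v)) = fun e => Φ U (Sym2.map π.symm e)) ∧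
      IsFUSF G ((iid V).map Φ) := by
  classical
  obtain ⟨Φ, hm, he, hl⟩ := universal V
  set g : Sym2 V → Bool := fun e => decide (e ∈ G.edgeSet) with hg
  have hgG : codeGraph g = G := by
    ext x y
    unfold codeGraph
    rw [SimpleGraph.fromEdgeSet_adj]
    simp only [hg, Set.mem_ofPred_eq, decide_eq_true_eq, SimpleGraph.mem_edgeSet]
    exact ⟨fun h => h.1, fun h => ⟨h, h.ne⟩⟩
  refine ⟨fun U => Φ (g, U), hm.comp (measurable_const.prodMk measurable_id), ?_, ?_⟩
  · intro π U
    have h1 := he π.toEquiv g U
    have h2 : (fun e => g (Sym2.map π.toEquiv.symm e)) = g := by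
      funext e
      simp only [hg]
      congr 1
      induction e with
      | _ x y =>
        rw [Sym2.map_mk, SimpleGraph.mem_edgeSet, SimpleGraph.mem_edgeSet]
        exact propext π.symm.map_adj_iff
    rw [h2] at h1
    exact h1
  · have h1 := hl g (by rw [hgG]; exact hc) (by rw [hgG]; exact hf)
    rw [hgG] at h1
    exact h1

/-- Cayley graphs -/
theorem cayley (Γ : Type*) [Group Γ] (S : Finset Γ)
    (hS : Subgroup.closure (S : Set Γ) = ⊤) :
    ∃ Φ : (Γ → unitInterval) → (Sym2 Γ → Bool), Measurable Φ ∧
      (∀ (γ : Γ) (U : Γ → unitInterval),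
        Φ (fun v => U (γ⁻¹ * v)) = fun e => Φ U (Sym2.map (fun v => γ⁻¹ * v) e)) ∧
      IsFUSF (SimpleGraph.mulCayley (S : Set Γ)) ((iid Γ).map Φ) := by
  classical
  have hcount : Countable Γ := by
    have hsurj : Function.Surjective
        (fun l : List (S × Bool) => FreeGroup.lift (fun s : S => (s : Γ)) (FreeGroup.mk l)) := by
      intro γ
      have h1 : γ ∈ (FreeGroup.lift (fun s : S => (s : Γ))).range := by
        rw [FreeGroup.range_lift_eq_closure]
        have h2 : Set.range (fun s : S => (s : Γ)) = (S : Set Γ) := by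
          ext x; simp
        rw [h2, hS]; trivial
      obtain ⟨w, hw⟩ := h1
      obtain ⟨l, rfl⟩ := Quot.exists_rep w
      exact ⟨l, hw⟩
    exact hsurj.countable
  have hconn : (SimpleGraph.mulCayley (S : Set Γ)).Connected := by
    have key : ∀ γ ∈ Subgroup.closure (S : Set Γ), ∀ x : Γ,
        (SimpleGraph.mulCayley (S : Set Γ)).Reachable x (x * γ) := by
      intro γ hγ
      induction hγ using Subgroup.closure_induction with
      | mem s hs =>
        intro x
        by_cases h : x = x * s
        · rw [← h]
        · refine SimpleGraph.Adj.reachable ?_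
          rw [SimpleGraph.mulCayley_adj]
          exact ⟨h, Or.inl (by simpa using hs)⟩
      | one => intro x; rw [mul_one]
      | mul a b _ _ iha ihb =>
        intro x
        rw [← mul_assoc]
        exact (iha x).trans (ihb (x * a))
      | inv a _ iha =>
        intro x
        have := iha (x * a⁻¹)
        rw [inv_mul_cancel_right] at this
        exact this.symm
    have : Nonempty Γ := ⟨1⟩
    refine SimpleGraph.Connected.mk fun x y => ?_
    have := key (x⁻¹ * y) (by rw [hS]; trivial) x
    rwa [mul_inv_cancel_left] at this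
  have hfin : ∀ v, ((SimpleGraph.mulCayley (S : Set Γ)).neighborSet v).Finite := by
    intro v
    refine ((S.finite_toSet.image (fun s => v * s)).union
      (S.finite_toSet.image (fun s => v * s⁻¹))).subset fun w hw => ?_
    rw [SimpleGraph.mem_neighborSet, SimpleGraph.mulCayley_adj'] at hw
    obtain ⟨_, s, hs, h | h⟩ := hw
    · left; exact ⟨s, hs, h⟩
    · right
      refine ⟨s, hs, ?_⟩
      simp only
      rw [h, mul_inv_cancel_right]
  obtain ⟨Φ, hm, he, hl⟩ := all_graphs Γ _ hconn hfin
  refine ⟨Φ, hm, fun γ U => ?_, hl⟩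
  let π : SimpleGraph.mulCayley (S : Set Γ) ≃g SimpleGraph.mulCayley (S : Set Γ) :=
    { toEquiv := Equiv.mulLeft γ
      map_rel_iff' := by
        intro a b
        exact SimpleGraph.mulCayley_adj_mul_iff_right }
  exact he π U

end Vale.Agent.P143
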