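import Vale.Agent.P143.FDefs

/-! [F] corollaries of `universal`: a fixed graph with all its automorphisms; Cayley graphs.
(`universal` enters as the hypothesis `Universal V`, discharged in the final file.) -/

open MeasureTheory Filter Topology

namespace Vale.Agent.P143

/-- the statement of the main theorem `universal` -/
def Universal (V : Type*) : Prop :=
    ∃ Φ : (Sym2 V → Bool) × (V → unitInterval) → (Sym2 V → Bool), Measurable Φ ∧
      (∀ (π : Equiv.Perm V) (g : Sym2 V → Bool) (U : V → unitInterval),
        Φ (fun e => g (Sym2.map π.symm e), fun v => U (π.symm v))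
          = fun e => Φ (g, U) (Sym2.map π.symm e)) ∧
      ∀ g : Sym2 V → Bool, (codeGraph g).Connected →
        (∀ v, ((codeGraph g).neighborSet v).Finite) →
        IsFUSF (codeGraph g) ((iid V).map (fun U => Φ (g, U)))

open Classical in
/-- every graph, all automorphisms (from `universal` with `g` = indicator of the edge set) -/
theorem all_graphs_of (V : Type*) (hU : Universal V) (G : SimpleGraph V)
    (hc : G.Connected) (hf : ∀ v, (G.neighborSet v).Finite) :
    ∃ Φ : (V → unitInterval) → (Sym2 V → Bool), Measurable Φ ∧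
      (∀ (π : G ≃g G) (U : V → unitInterval),
        Φ (fun v => U (π.symm v)) = fun e => Φ U (Sym2.map π.symm e)) ∧
      IsFUSF G ((iid V).map Φ) := by
  obtain ⟨Φ, hΦ, heq, hlaw⟩ := hU
  set g : Sym2 V → Bool := fun e => decide (e ∈ G.edgeSet) with hg
  have hcode : codeGraph g = G := by
    unfold codeGraph
    have : {e | g e = true} = G.edgeSet := by ext e; simp [hg]
    rw [this, SimpleGraph.fromEdgeSet_edgeSet]
  refine ⟨fun U => Φ (g, U), hΦ.comp (measurable_const.prodMk measurable_id), ?_, ?_⟩
  · intro π U
    have h1 : (fun e => g (Sym2.map π.symm.toEquiv e)) = g := by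
      funext e
      induction e using Sym2.ind with
      | _ x y =>
        simp only [hg, Sym2.map_mk, SimpleGraph.mem_edgeSet]
        rw [decide_eq_decide]
        exact π.symm.map_rel_iff
    have h2 := heq π.toEquiv g U
    have h3 : (fun e => g (Sym2.map π.toEquiv.symm e)) = g := h1
    rw [h3] at h2
    exact h2
  · have := hlaw g (by rw [hcode]; exact hc) (by rw [hcode]; exact hf)
    rw [hcode] at this
    exact this

theorem countable_of_closure {Γ : Type*} [Group Γ] {S : Finset Γ}
    (hS : Subgroup.closure (S : Set Γ) = ⊤) : Countable Γ := by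
  have h1 : Function.Surjective (FreeGroup.lift (fun x : S => (x : Γ))) := by
    rw [← MonoidHom.range_eq_top, FreeGroup.range_lift_eq_closure]
    simpa using hS
  exact h1.countable

theorem cayley_connected {Γ : Type*} [Group Γ] {S : Finset Γ}
    (hS : Subgroup.closure (S : Set Γ) = ⊤) :
    (SimpleGraph.mulCayley (S : Set Γ)).Connected := by
  have key : ∀ x : Γ, ∀ u : Γ, (SimpleGraph.mulCayley (S : Set Γ)).Reachable u (u * x) := by
    intro x
    have hx : x ∈ Subgroup.closure (S : Set Γ) := by rw [hS]; trivial
    induction hx using Subgroup.closure_induction with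
    | mem s hs =>
      intro u
      by_cases h : u = u * s
      · rw [← h]
      · refine SimpleGraph.Adj.reachable ?_
        rw [SimpleGraph.mulCayley_adj']
        exact ⟨h, s, hs, Or.inl rfl⟩
    | one => intro u; rw [mul_one]
    | mul x y _ _ hx hy =>
      intro u
      rw [← mul_assoc]
      exact (hx u).trans (hy (u * x))
    | inv x _ hx =>
      intro u
      have := hx (u * x⁻¹)
      rw [inv_mul_cancel_right] at this
      exact this.symm
  have : Nonempty Γ := ⟨1⟩
  refine ⟨fun u v => ?_⟩
  have := key (u⁻¹ * v) u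
  rwa [mul_inv_cancel_left] at this

theorem cayley_finite {Γ : Type*} [Group Γ] (S : Finset Γ) (v : Γ) :
    ((SimpleGraph.mulCayley (S : Set Γ)).neighborSet v).Finite := by
  refine ((S.finite_toSet.image (fun g => v * g)).union
    (S.finite_toSet.image (fun g => v * g⁻¹))).subset ?_
  intro w hw
  rw [SimpleGraph.mem_neighborSet, SimpleGraph.mulCayley_adj'] at hw
  obtain ⟨_, g, hg, h | h⟩ := hw
  · exact Or.inl ⟨g, hg, h⟩
  · exact Or.inr ⟨g, hg, by rw [h]; simp⟩

/-- left multiplication as an automorphism of the Cayley graph -/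
def cayleyIso {Γ : Type*} [Group Γ] (S : Set Γ) (γ : Γ) :
    SimpleGraph.mulCayley S ≃g SimpleGraph.mulCayley S where
  toEquiv := Equiv.mulLeft γ
  map_rel_iff' := by
    intro a b
    simp [SimpleGraph.mulCayley_adj', mul_assoc]

/-- Cayley graphs -/
theorem cayley_of (Γ : Type*) [Group Γ] (hU : Universal Γ) (S : Finset Γ)
    (hS : Subgroup.closure (S : Set Γ) = ⊤) :
    ∃ Φ : (Γ → unitInterval) → (Sym2 Γ → Bool), Measurable Φ ∧
      (∀ (γ : Γ) (U : Γ → unitInterval),
        Φ (fun v => U (γ⁻¹ * v)) = fun e => Φ U (Sym2.map (fun v => γ⁻¹ * v) e)) ∧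
      IsFUSF (SimpleGraph.mulCayley (S : Set Γ)) ((iid Γ).map Φ) := by
  obtain ⟨Φ, h1, h2, h3⟩ := all_graphs_of Γ hU (SimpleGraph.mulCayley (S : Set Γ))
    (cayley_connected hS) (fun v => cayley_finite S v)
  exact ⟨Φ, h1, fun γ U => h2 (cayleyIso (S : Set Γ) γ) U, h3⟩

end Vale.Agent.P143
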