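import Vale.Agent.P143.Samp

/-! [S2] finite-volume Gibbs algebra and one event -/

open MeasureTheory

namespace Vale.Agent.P143

variable {E : Type*}

theorem wt_pos (h : E → ℝ) (B : Finset E) : 0 < wt h B := Real.exp_pos _

theorem Zf_pos {Tr : Finset (Finset E)} (hne : Tr.Nonempty) (h : E → ℝ) : 0 < Zf Tr h :=
  Finset.sum_pos (fun B _ => wt_pos h B) hne

theorem prb_nonneg (Tr : Finset (Finset E)) (h : E → ℝ) (B : Finset E) :
    0 ≤ prb Tr h B :=
  div_nonneg (wt_pos h B).le (Finset.sum_nonneg (fun B _ => (wt_pos h B).le))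

theorem prb_sum {Tr : Finset (Finset E)} (hne : Tr.Nonempty) (h : E → ℝ) :
    ∑ B ∈ Tr, prb Tr h B = 1 := by
  unfold prb
  rw [← Finset.sum_div]
  exact div_self (Zf_pos hne h).ne'

theorem prb_le_one {Tr : Finset (Finset E)} (hne : Tr.Nonempty) (h : E → ℝ) {B : Finset E}
    (hB : B ∈ Tr) : prb Tr h B ≤ 1 := by
  rw [← prb_sum hne h]
  exact Finset.single_le_sum (f := fun B => prb Tr h B) (fun B _ => prb_nonneg Tr h B) hB

theorem mg_nonneg (Tr : Finset (Finset E)) (h : E → ℝ) (e : E) : 0 ≤ mg Tr h e :=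
  Finset.sum_nonneg (fun B _ => prb_nonneg Tr h B)

theorem mg_le_one {Tr : Finset (Finset E)} (hne : Tr.Nonempty) (h : E → ℝ) (e : E) :
    mg Tr h e ≤ 1 := by
  classical
  rw [← prb_sum hne h]
  unfold mg
  exact Finset.sum_le_sum_of_subset_of_nonneg (Finset.filter_subset _ _)
    (fun B _ _ => prb_nonneg Tr h B)

open Classical in
/-- spin of `e` in the configuration `B` -/
noncomputable def sg (e : E) (B : Finset E) : ℝ := if e ∈ B then 1 else -1

/-- mean spin -/
noncomputable def sp (Tr : Finset (Finset E)) (h : E → ℝ) (e : E) : ℝ := 2 * mg Tr h e - 1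

theorem sp_eq {Tr : Finset (Finset E)} (hne : Tr.Nonempty) (h : E → ℝ) (e : E) :
    sp Tr h e = ∑ B ∈ Tr, prb Tr h B * sg e B := by
  classical
  unfold sp mg
  rw [← prb_sum hne h, Finset.mul_sum, Finset.sum_filter, ← Finset.sum_sub_distrib]
  apply Finset.sum_congr rfl
  intro B _
  unfold sg
  split_ifs <;> ring

theorem sp_abs {Tr : Finset (Finset E)} (hne : Tr.Nonempty) (h : E → ℝ) (e : E) :
    |sp Tr h e| ≤ 1 := by
  have h1 := mg_nonneg Tr h e
  have h2 := mg_le_one hne h e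
  unfold sp
  rw [abs_le]
  constructor <;> linarith

theorem sg_sq (e : E) (B : Finset E) : sg e B ^ 2 = 1 := by
  unfold sg
  split_ifs <;> norm_num

theorem sg_abs (e : E) (B : Finset E) : |sg e B| = 1 := by
  unfold sg
  split_ifs <;> norm_num

theorem ep_pos : 0 < ep := by unfold ep; norm_num

theorem ep_half : ep ≤ 1 / 2 := by unfold ep; norm_num

theorem one_add_half' {z s : ℝ} (hz : |z| ≤ 1 / 2) (hs : |s| ≤ 1) : 1 / 2 ≤ 1 + z * s := by
  have hzs : |z * s| ≤ 1 / 2 := by
    rw [abs_mul]; nlinarith [abs_nonneg z, abs_nonneg s]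
  have := (abs_le.mp hzs).1; linarith

/-- argument of `T` -/
theorem arg_abs {m : ℝ} (h0 : 0 ≤ m) (h1 : m ≤ 1) : |ep * (2 * m - 1)| ≤ 1 / 2 := by
  rw [abs_mul, abs_of_pos ep_pos]
  have : |2 * m - 1| ≤ 1 := by rw [abs_le]; constructor <;> linarith
  have := ep_half
  nlinarith [ep_pos, abs_nonneg (2 * m - 1)]

theorem zz_abs {m u : ℝ} (h0 : 0 ≤ m) (h1 : m ≤ 1) (hu : u ∈ Set.Icc (0 : ℝ) 1) :
    |zz m u| ≤ ep := by
  unfold zz
  rw [abs_mul, abs_of_pos ep_pos]
  have := abs_T_le (arg_abs h0 h1) hu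
  nlinarith [ep_pos]

theorem zz_lip {m m' u : ℝ} (h0 : 0 ≤ m) (h1 : m ≤ 1) (h0' : 0 ≤ m') (h1' : m' ≤ 1)
    (hu : u ∈ Set.Icc (0 : ℝ) 1) :
    |zz m u - zz m' u| ≤ 2 / 25 * |m - m'| := by
  unfold zz
  rw [← mul_sub, abs_mul, abs_of_pos ep_pos]
  have := T_lip (arg_abs h0 h1) (arg_abs h0' h1') hu
  have e : ep * (2 * m - 1) - ep * (2 * m' - 1) = ep * (2 * (m - m')) := by ring
  rw [e, abs_mul, abs_mul, abs_of_pos ep_pos, abs_of_pos (by norm_num : (0 : ℝ) < 2)] at this
  unfold ep at *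
  nlinarith

/-- effect of one event on configuration probabilities -/
theorem prb_stepA {Tr : Finset (Finset E)} (hne : Tr.Nonempty) (e : E) {u : ℝ}
    (hu : u ∈ Set.Icc (0 : ℝ) 1) (h : E → ℝ) (B : Finset E) :
    prb Tr (stepA Tr e u h) B
      = prb Tr h B * ((1 + zz (mg Tr h e) u * sg e B) / (1 + zz (mg Tr h e) u * sp Tr h e)) := by
  classical
  have hm0 := mg_nonneg Tr h e
  have hm1 := mg_le_one hne h e
  have hz := (zz_abs hm0 hm1 hu).trans ep_half
  set z := zz (mg Tr h e) u with hzd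
  have hz' := abs_le.mp hz
  have hp1 : 0 < 1 + z := by linarith
  have hp2 : 0 < 1 - z := by linarith
  have hw : ∀ B : Finset E, wt (stepA Tr e u h) B = wt h B * (1 + z * sg e B) / (1 - z) := by
    intro B
    unfold wt stepA inc
    by_cases heB : e ∈ B
    · rw [← Finset.add_sum_erase B _ heB, ← Finset.add_sum_erase B h heB, Function.update_self]
      have : ∑ x ∈ B.erase e, Function.update h e (h e + Real.log ((1 + zz (mg Tr h e) u) /
          (1 - zz (mg Tr h e) u))) x = ∑ x ∈ B.erase e, h x := by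
        apply Finset.sum_congr rfl
        intro x hx
        rw [Function.update_of_ne (Finset.ne_of_mem_erase hx)]
      rw [this, ← hzd]
      have e2 : sg e B = 1 := by unfold sg; rw [if_pos heB]
      rw [e2, mul_one, show h e + Real.log ((1 + z) / (1 - z)) + ∑ x ∈ B.erase e, h x
        = (h e + ∑ x ∈ B.erase e, h x) + Real.log ((1 + z) / (1 - z)) by ring, Real.exp_add,
        Real.exp_log (by positivity), mul_div_assoc]
    · have : ∑ x ∈ B, Function.update h e (h e + Real.log ((1 + zz (mg Tr h e) u) /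
          (1 - zz (mg Tr h e) u))) x = ∑ x ∈ B, h x := by
        apply Finset.sum_congr rfl
        intro x hx
        rw [Function.update_of_ne]
        rintro rfl
        exact heB hx
      rw [this]
      have e2 : sg e B = -1 := by unfold sg; rw [if_neg heB]
      rw [e2, mul_neg_one, ← sub_eq_add_neg, mul_div_assoc, div_self hp2.ne', mul_one]
  have hZ : Zf Tr (stepA Tr e u h) = Zf Tr h * (1 + z * sp Tr h e) / (1 - z) := by
    have hZ0 := Zf_pos hne h
    unfold Zf
    simp_rw [hw]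
    rw [← Finset.sum_div]
    congr 1
    rw [sp_eq hne h e]
    have : ∑ B ∈ Tr, wt h B = Zf Tr h := rfl
    rw [this, mul_add, mul_one, Finset.mul_sum, Finset.mul_sum]
    simp_rw [mul_add, mul_one]
    rw [Finset.sum_add_distrib, this]
    congr 1
    apply Finset.sum_congr rfl
    intro B _
    unfold prb
    field_simp
  have hs := sp_abs hne h e
  have hden := one_add_half' hz hs
  unfold prb
  rw [hw, hZ]
  have hZ0 := Zf_pos hne h
  have h3 : 1 + z * sp Tr h e ≠ 0 := by linarith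
  field_simp

theorem int_affine {c s : ℝ} {m : ℝ} (h0 : 0 ≤ m) (h1 : m ≤ 1) (hs : s = 2 * m - 1) (p : ℝ) :
    ∫ u : unitInterval, p * ((1 + zz m u * c) / (1 + zz m u * s)) = p := by
  have he := arg_abs h0 h1
  have hs1 : |s| ≤ 1 := by rw [hs, abs_le]; constructor <;> linarith
  have hpos : ∀ τ ∈ Set.Icc (-1 : ℝ) 1, 1 + ep * τ * s ≠ 0 := by
    intro τ hτ
    have : |ep * τ| ≤ 1 / 2 := by
      rw [abs_mul, abs_of_pos ep_pos]
      have : |τ| ≤ 1 := abs_le.mpr hτ
      nlinarith [abs_nonneg τ, ep_pos, ep_half]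
    have := one_add_half' this hs1
    linarith
  unfold zz
  rw [int_T he (ψ := fun τ => p * ((1 + ep * τ * c) / (1 + ep * τ * s))) (by
    apply ContinuousOn.mul (by fun_prop)
    apply ContinuousOn.div (by fun_prop) (by fun_prop)
    exact hpos)]
  have h2 : ∀ τ ∈ Set.uIcc (-1 : ℝ) 1,
      p * ((1 + ep * τ * c) / (1 + ep * τ * s)) * ((1 + ep * (2 * m - 1) * τ) / 2)
        = p / 2 + (p * ep * c / 2) * τ + 0 * τ ^ 2 := by
    intro τ hτ
    rw [Set.uIcc_of_le (by norm_num)] at hτ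
    have h3 := hpos τ hτ
    rw [← hs, show 1 + ep * s * τ = 1 + ep * τ * s by ring]
    field_simp
    ring
  rw [intervalIntegral.integral_congr h2, int_quad]
  ring

/-- configuration probabilities are martingales -/
theorem int_prb {Tr : Finset (Finset E)} (hne : Tr.Nonempty) (e : E) (h : E → ℝ)
    (B : Finset E) : ∫ u : unitInterval, prb Tr (stepA Tr e u h) B = prb Tr h B := by
  simp_rw [fun u : unitInterval => prb_stepA hne e u.2 h B]
  exact int_affine (mg_nonneg Tr h e) (mg_le_one hne h e) rfl _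

theorem cont_zz {m : ℝ} : Continuous (fun u : unitInterval => zz m u) := by
  unfold zz
  have := cont_T_I (ep * (2 * m - 1))
  fun_prop

theorem cont_prb_step {Tr : Finset (Finset E)} (hne : Tr.Nonempty) (e : E) (h : E → ℝ)
    (B : Finset E) : Continuous (fun u : unitInterval => prb Tr (stepA Tr e u h) B) := by
  simp_rw [fun u : unitInterval => prb_stepA hne e u.2 h B]
  apply Continuous.mul continuous_const
  have := cont_zz (m := mg Tr h e)
  apply Continuous.div (by fun_prop) (by fun_prop)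
  intro u
  have h1 := (zz_abs (mg_nonneg Tr h e) (mg_le_one hne h e) u.2).trans ep_half
  have := one_add_half' h1 (sp_abs hne h e)
  linarith

theorem cont_sp_step {Tr : Finset (Finset E)} (hne : Tr.Nonempty) (e : E) (h : E → ℝ)
    (f : E) : Continuous (fun u : unitInterval => sp Tr (stepA Tr e u h) f) := by
  simp_rw [sp_eq hne _ f]
  apply continuous_finsetSum
  intro B _
  exact (cont_prb_step hne e h B).mul continuous_const

/-- spins are martingales -/
theorem int_sp {Tr : Finset (Finset E)} (hne : Tr.Nonempty) (e : E) (h : E → ℝ)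
    (f : E) : ∫ u : unitInterval, sp Tr (stepA Tr e u h) f = sp Tr h f := by
  simp_rw [sp_eq hne _ f]
  rw [integral_finsetSum]
  · apply Finset.sum_congr rfl
    intro B _
    rw [integral_mul_const, int_prb hne]
  · intro B _
    exact intble ((cont_prb_step hne e h B).mul continuous_const)

/-- second moments do not decrease -/
theorem int_sp_sq_ge {Tr : Finset (Finset E)} (hne : Tr.Nonempty) (e : E) (h : E → ℝ)
    (f : E) : sp Tr h f ^ 2 ≤ ∫ u : unitInterval, sp Tr (stepA Tr e u h) f ^ 2 := by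
  have hc := cont_sp_step hne e h f
  have h2 : 0 ≤ ∫ u : unitInterval, (sp Tr (stepA Tr e u h) f - sp Tr h f) ^ 2 :=
    integral_nonneg (fun u => sq_nonneg _)
  have h3 : ∀ u : unitInterval, (sp Tr (stepA Tr e u h) f - sp Tr h f) ^ 2
      = sp Tr (stepA Tr e u h) f ^ 2
        + (sp Tr h f ^ 2 - 2 * sp Tr h f * sp Tr (stepA Tr e u h) f) := fun u => by ring
  simp_rw [h3] at h2
  have i0 : Integrable (fun u : unitInterval => 2 * sp Tr h f * sp Tr (stepA Tr e u h) f) :=
    (intble hc).const_mul _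
  have i1 : Integrable (fun u : unitInterval => sp Tr h f ^ 2
      - 2 * sp Tr h f * sp Tr (stepA Tr e u h) f) := (integrable_const _).sub i0
  rw [integral_add (intble (f := fun u : unitInterval => sp Tr (stepA Tr e u h) f ^ 2)
    (hc.pow 2)) i1, integral_sub (integrable_const _) i0, integral_const_mul,
    int_sp hne] at h2
  simp at h2
  nlinarith

/-- own event: formula for the new mean spin -/
theorem sp_own {Tr : Finset (Finset E)} (hne : Tr.Nonempty) (e : E) {u : ℝ}
    (hu : u ∈ Set.Icc (0 : ℝ) 1) (h : E → ℝ) :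
    sp Tr (stepA Tr e u h) e = sp Tr h e + zz (mg Tr h e) u * (1 - sp Tr h e ^ 2) /
      (1 + zz (mg Tr h e) u * sp Tr h e) := by
  have h1 := (zz_abs (mg_nonneg Tr h e) (mg_le_one hne h e) hu).trans ep_half
  have hden := one_add_half' h1 (sp_abs hne h e)
  have hne' : 1 + zz (mg Tr h e) u * sp Tr h e ≠ 0 := by linarith
  rw [sp_eq hne (stepA Tr e u h) e]
  simp_rw [fun B => prb_stepA hne e hu h B]
  set z := zz (mg Tr h e) u
  set s := sp Tr h e with hs
  have e1 : ∀ B ∈ Tr, prb Tr h B * ((1 + z * sg e B) / (1 + z * s)) * sg e B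
      = (prb Tr h B * sg e B + z * prb Tr h B) / (1 + z * s) := by
    intro B _
    have := sg_sq e B
    field_simp
    linear_combination (prb Tr h B * z) * this
  rw [Finset.sum_congr rfl e1, ← Finset.sum_div, Finset.sum_add_distrib, ← sp_eq hne h e,
    ← Finset.mul_sum, prb_sum hne h, ← hs]
  rw [div_eq_iff hne', add_mul, div_mul_cancel₀ _ hne']
  ring

/-- gain of the own event -/
theorem int_own {Tr : Finset (Finset E)} (hne : Tr.Nonempty) (e : E) (h : E → ℝ) :
    sp Tr h e ^ 2 + 1 / 150 * (1 - sp Tr h e ^ 2) ^ 2 ≤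
      ∫ u : unitInterval, sp Tr (stepA Tr e u h) e ^ 2 := by
  have hm := sp_abs hne h e
  have he := arg_abs (mg_nonneg Tr h e) (mg_le_one hne h e)
  have hs : ep * (2 * mg Tr h e - 1) = ep * sp Tr h e := rfl
  simp_rw [fun u : unitInterval => sp_own hne e u.2 h]
  unfold zz
  rw [hs] at he ⊢
  set m := sp Tr h e with hmd
  have hpos : ∀ τ ∈ Set.Icc (-1 : ℝ) 1, 1 / 2 ≤ 1 + ep * τ * m := by
    intro τ hτ
    have : |ep * τ| ≤ 1 / 2 := by
      rw [abs_mul, abs_of_pos ep_pos]
      have : |τ| ≤ 1 := abs_le.mpr hτ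
      nlinarith [abs_nonneg τ, ep_pos, ep_half]
    exact one_add_half' this hm
  have hle : ∀ τ ∈ Set.Icc (-1 : ℝ) 1, 1 + ep * τ * m ≤ 3 / 2 := by
    intro τ hτ
    have h1 : |ep * τ * m| ≤ 1 / 2 := by
      rw [abs_mul, abs_mul, abs_of_pos ep_pos]
      have h2 : |τ| ≤ 1 := abs_le.mpr hτ
      have : |τ| * |m| ≤ 1 := by nlinarith [abs_nonneg τ, abs_nonneg m]
      nlinarith [mul_nonneg (abs_nonneg τ) (abs_nonneg m), ep_pos, ep_half]
    have := (abs_le.mp h1).2
    linarith
  rw [int_T he (ψ := fun τ => (m + ep * τ * (1 - m ^ 2) / (1 + ep * τ * m)) ^ 2) (by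
    apply ContinuousOn.pow
    apply ContinuousOn.add (by fun_prop)
    apply ContinuousOn.div (by fun_prop) (by fun_prop)
    intro τ hτ
    have := hpos τ hτ
    linarith)]
  have h2 : ∀ τ ∈ Set.Icc (-1 : ℝ) 1,
      m ^ 2 / 2 + (ep * m ^ 3 / 2 + m * ep * (1 - m ^ 2)) * τ + ep ^ 2 * (1 - m ^ 2) ^ 2 / 3 * τ ^ 2 ≤
      (m + ep * τ * (1 - m ^ 2) / (1 + ep * τ * m)) ^ 2 * ((1 + ep * m * τ) / 2) := by
    intro τ hτ
    have p := hpos τ hτ
    have q := hle τ hτ
    have p0 : 0 < 1 + ep * τ * m := by linarith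
    have e2 : (m + ep * τ * (1 - m ^ 2) / (1 + ep * τ * m)) ^ 2 * ((1 + ep * m * τ) / 2)
        = m ^ 2 * (1 + ep * τ * m) / 2 + m * ep * (1 - m ^ 2) * τ
          + (ep ^ 2 * (1 - m ^ 2) ^ 2 * τ ^ 2 / 2) / (1 + ep * τ * m) := by
      rw [show 1 + ep * m * τ = 1 + ep * τ * m by ring]
      exact id1 m ep τ _ p0.ne'
    rw [e2]
    have e3 : ep ^ 2 * (1 - m ^ 2) ^ 2 / 3 * τ ^ 2
        ≤ (ep ^ 2 * (1 - m ^ 2) ^ 2 * τ ^ 2 / 2) / (1 + ep * τ * m) := by
      rw [le_div_iff₀ p0]
      have : 0 ≤ ep ^ 2 * (1 - m ^ 2) ^ 2 * τ ^ 2 := by positivity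
      nlinarith
    nlinarith
  have h3 : ∫ τ in (-1 : ℝ)..1, (m ^ 2 / 2 + (ep * m ^ 3 / 2 + m * ep * (1 - m ^ 2)) * τ
      + ep ^ 2 * (1 - m ^ 2) ^ 2 / 3 * τ ^ 2)
      = m ^ 2 + ep ^ 2 * (1 - m ^ 2) ^ 2 * (2 / 9) := by
    rw [int_quad]
    ring
  have h4 : m ^ 2 + 1 / 150 * (1 - m ^ 2) ^ 2
      ≤ m ^ 2 + ep ^ 2 * (1 - m ^ 2) ^ 2 * (2 / 9) := by
    have : 0 ≤ (1 - m ^ 2) ^ 2 := by positivity
    unfold ep
    nlinarith
  refine h4.trans ?_
  rw [← h3]
  apply intervalIntegral.integral_mono_on (by norm_num)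
  · apply Continuous.intervalIntegrable; fun_prop
  · apply ContinuousOn.intervalIntegrable
    rw [Set.uIcc_of_le (by norm_num)]
    apply ContinuousOn.mul _ (by fun_prop)
    apply ContinuousOn.pow
    apply ContinuousOn.add (by fun_prop)
    apply ContinuousOn.div (by fun_prop) (by fun_prop)
    intro τ hτ
    have := hpos τ hτ
    linarith
  · exact h2

/-! measurability and bounds -/

theorem meas_wt (B : Finset E) : Measurable (fun h : E → ℝ => wt h B) := by
  unfold wt
  fun_prop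

theorem meas_prb (Tr : Finset (Finset E)) (B : Finset E) :
    Measurable (fun h : E → ℝ => prb Tr h B) := by
  unfold prb Zf
  apply Measurable.div (meas_wt B)
  exact Finset.measurable_fun_sum _ (fun B _ => meas_wt B)

theorem meas_mg (Tr : Finset (Finset E)) (e : E) :
    Measurable (fun h : E → ℝ => mg Tr h e) := by
  unfold mg
  exact Finset.measurable_fun_sum _ (fun B _ => meas_prb Tr B)

theorem meas_sp (Tr : Finset (Finset E)) (e : E) :
    Measurable (fun h : E → ℝ => sp Tr h e) := by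
  unfold sp
  exact ((meas_mg Tr e).const_mul 2).sub_const 1

theorem meas_inc : Measurable (fun p : ℝ × ℝ => inc p.1 p.2) := by
  unfold inc zz
  have hT : Measurable (fun p : ℝ × ℝ => T (ep * (2 * p.1 - 1)) p.2) := by
    have h1 : Measurable (fun p : ℝ × ℝ => ((ep * (2 * p.1 - 1), p.2) : ℝ × ℝ)) := by fun_prop
    exact measurable_T.comp h1
  have hz := hT.const_mul ep
  fun_prop

theorem meas_inc_mg (Tr : Finset (Finset E)) (f : E) :
    Measurable (fun p : ℝ × (E → ℝ) => inc (mg Tr p.2 f) p.1) := by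
  have h2 : Measurable (fun p : ℝ × (E → ℝ) => mg Tr p.2 f) := (meas_mg Tr f).comp measurable_snd
  have h3 : Measurable (fun p : ℝ × (E → ℝ) => ((mg Tr p.2 f, p.1) : ℝ × ℝ)) :=
    Measurable.prodMk h2 measurable_fst
  have h5 : Measurable ((fun p : ℝ × ℝ => inc p.1 p.2) ∘
    (fun p : ℝ × (E → ℝ) => ((mg Tr p.2 f, p.1) : ℝ × ℝ))) := meas_inc.comp h3
  simp only [Function.comp_def] at h5
  exact h5

theorem meas_stepA (Tr : Finset (Finset E)) (e : E) :
    Measurable (fun p : ℝ × (E → ℝ) => stepA Tr e p.1 p.2) := by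
  classical
  refine measurable_pi_iff.mpr (fun f => ?_)
  by_cases hf : f = e
  · have h4 : (fun p : ℝ × (E → ℝ) => stepA Tr e p.1 p.2 f)
        = fun p : ℝ × (E → ℝ) => p.2 f + inc (mg Tr p.2 f) p.1 := by
      funext p
      subst hf
      unfold stepA
      rw [Function.update_self]
    rw [h4]
    have h1 : Measurable (fun p : ℝ × (E → ℝ) => p.2 f) := by fun_prop
    exact h1.add (meas_inc_mg Tr f)
  · have h4 : (fun p : ℝ × (E → ℝ) => stepA Tr e p.1 p.2 f)
        = fun p : ℝ × (E → ℝ) => p.2 f := by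
      funext p
      unfold stepA
      rw [Function.update_of_ne hf]
    rw [h4]
    fun_prop

/-- an increment is at most `1/2` in absolute value -/
theorem inc_abs {m u : ℝ} (h0 : 0 ≤ m) (h1 : m ≤ 1) (hu : u ∈ Set.Icc (0 : ℝ) 1) :
    |inc m u| ≤ 1 / 2 := by
  have hz := abs_le.mp (zz_abs h0 h1 hu)
  unfold inc
  set z := zz m u
  unfold ep at hz
  have hp1 : 0 < 1 + z := by linarith
  have hp2 : 0 < 1 - z := by linarith
  rw [abs_le]
  constructor
  · have h3 : Real.log ((1 - z) / (1 + z)) ≤ (1 - z) / (1 + z) - 1 :=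
      Real.log_le_sub_one_of_pos (by positivity)
    have h4 : Real.log ((1 + z) / (1 - z)) = - Real.log ((1 - z) / (1 + z)) := by
      rw [← Real.log_inv, inv_div]
    have h5 : (1 - z) / (1 + z) - 1 ≤ 1 / 2 := by
      rw [sub_le_iff_le_add, div_le_iff₀ hp1]
      linarith
    rw [h4]
    linarith
  · have h3 : Real.log ((1 + z) / (1 - z)) ≤ (1 + z) / (1 - z) - 1 :=
      Real.log_le_sub_one_of_pos (by positivity)
    have h5 : (1 + z) / (1 - z) - 1 ≤ 1 / 2 := by
      rw [sub_le_iff_le_add, div_le_iff₀ hp2]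
      linarith
    linarith

/-- increments are Lipschitz in the mean, with a constant `< 1/4` -/
theorem inc_lip {m m' u : ℝ} (h0 : 0 ≤ m) (h1 : m ≤ 1) (h0' : 0 ≤ m') (h1' : m' ≤ 1)
    (hu : u ∈ Set.Icc (0 : ℝ) 1) : |inc m u - inc m' u| ≤ 1 / 5 * |m - m'| := by
  have hz := abs_le.mp (zz_abs h0 h1 hu)
  have hz' := abs_le.mp (zz_abs h0' h1' hu)
  have hl := zz_lip h0 h1 h0' h1' hu
  unfold inc
  set z := zz m u
  set z' := zz m' u
  unfold ep at hz hz'
  have hp1 : 0 < 1 + z := by linarith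
  have hp2 : 0 < 1 - z := by linarith
  have hp1' : 0 < 1 + z' := by linarith
  have hp2' : 0 < 1 - z' := by linarith
  have key : ∀ x y : ℝ, -(1/5) ≤ x → x ≤ 1/5 → -(1/5) ≤ y → y ≤ 1/5 →
      Real.log ((1 + x) / (1 - x)) - Real.log ((1 + y) / (1 - y)) ≤ 5 / 2 * |x - y| := by
    intro x y hx1 hx2 hy1 hy2
    have q1 : 0 < 1 + x := by linarith
    have q2 : 0 < 1 - x := by linarith
    have q3 : 0 < 1 + y := by linarith
    have q4 : 0 < 1 - y := by linarith
    rw [Real.log_div q1.ne' q2.ne', Real.log_div q3.ne' q4.ne']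
    have l1 : Real.log (1 + x) - Real.log (1 + y) ≤ (1 + x) / (1 + y) - 1 := by
      rw [← Real.log_div q1.ne' q3.ne']
      exact Real.log_le_sub_one_of_pos (by positivity)
    have l2 : Real.log (1 - y) - Real.log (1 - x) ≤ (1 - y) / (1 - x) - 1 := by
      rw [← Real.log_div q4.ne' q2.ne']
      exact Real.log_le_sub_one_of_pos (by positivity)
    have e1 : (1 + x) / (1 + y) - 1 = (x - y) / (1 + y) := by field_simp; ring
    have e2 : (1 - y) / (1 - x) - 1 = (x - y) / (1 - x) := by field_simp; ring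
    rw [e1] at l1
    rw [e2] at l2
    have b1 : (x - y) / (1 + y) ≤ 5 / 4 * |x - y| := by
      rw [div_le_iff₀ q3]
      have := le_abs_self (x - y)
      nlinarith [abs_nonneg (x - y)]
    have b2 : (x - y) / (1 - x) ≤ 5 / 4 * |x - y| := by
      rw [div_le_iff₀ q2]
      have := le_abs_self (x - y)
      nlinarith [abs_nonneg (x - y)]
    linarith
  have k1 := key z z' (by linarith) (by linarith) (by linarith) (by linarith)
  have k2 := key z' z (by linarith) (by linarith) (by linarith) (by linarith)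
  rw [abs_sub_comm z' z] at k2
  have : |Real.log ((1 + z) / (1 - z)) - Real.log ((1 + z') / (1 - z'))| ≤ 5 / 2 * |z - z'| := by
    rw [abs_le]; constructor <;> linarith
  linarith

end Vale.Agent.P143
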