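import Vale.Agent.P143.Defs

/-! [K] Kirchhoff's theorem for weighted uniform spanning forests -/

namespace Vale.Agent.P143

variable {V : Type*}

open Classical in
theorem mem_basesK {A B : Finset (Sym2 V)} : B ∈ bases A ↔ IsBase A B := by
  unfold bases
  rw [Finset.mem_filter, Finset.mem_powerset]
  exact ⟨fun h => h.2, fun h => ⟨h.1, h⟩⟩

theorem gr_adjK {A : Finset (Sym2 V)} {x y : V} : (gr A).Adj x y ↔ s(x, y) ∈ A ∧ x ≠ y := by
  simp [gr]

theorem bases_nonempty (A : Finset (Sym2 V)) : (bases A).Nonempty := by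
  classical
  obtain ⟨F, hF, hac, hreach⟩ := (gr A).exists_isAcyclic_reachable_eq_le
  let B : Finset (Sym2 V) := A.filter (fun e => e ∈ F.edgeSet)
  have hB : gr B = F := by
    ext x y
    rw [gr_adjK]
    simp only [B, Finset.mem_filter, SimpleGraph.mem_edgeSet]
    constructor
    · rintro ⟨⟨_, h⟩, _⟩
      exact h
    · intro h
      exact ⟨⟨(gr_adjK.1 (hF h)).1, h⟩, h.ne⟩
  refine ⟨B, mem_basesK.2 ⟨Finset.filter_subset _ _, ?_, ?_, ?_⟩⟩
  · intro e he
    simp only [B, Finset.mem_filter] at he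
    exact SimpleGraph.not_isDiag_of_mem_edgeSet _ he.2
  · rw [hB]; exact hac
  · intro x y h
    rw [hB, hreach]; exact h

theorem bases_subset {A B : Finset (Sym2 V)} (hB : B ∈ bases A) : B ⊆ A := (mem_basesK.1 hB).1

/-- reachability after adding an edge -/
theorem reach_insert [DecidableEq (Sym2 V)] {F : Finset (Sym2 V)} {p q u v : V}
    (h : (gr (insert s(p, q) F)).Reachable u v) :
    (gr F).Reachable u v ∨ ((gr F).Reachable u p ∧ (gr F).Reachable q v) ∨
      ((gr F).Reachable u q ∧ (gr F).Reachable p v) := by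
  obtain ⟨w⟩ := h
  induction w with
  | nil => exact Or.inl (SimpleGraph.Reachable.refl _)
  | @cons u w v hadj _ ih =>
    rw [gr_adjK, Finset.mem_insert] at hadj
    obtain ⟨hmem, hne⟩ := hadj
    rcases hmem with hmem | hmem
    · rw [Sym2.eq_iff] at hmem
      rcases hmem with ⟨rfl, rfl⟩ | ⟨rfl, rfl⟩
      · rcases ih with ih | ⟨ih1, ih2⟩ | ⟨ih1, ih2⟩
        · exact Or.inr (Or.inl ⟨SimpleGraph.Reachable.refl _, ih⟩)
        · exact Or.inl (ih1.symm.trans ih2)
        · exact Or.inl ih2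
      · rcases ih with ih | ⟨ih1, ih2⟩ | ⟨ih1, ih2⟩
        · exact Or.inr (Or.inr ⟨SimpleGraph.Reachable.refl _, ih⟩)
        · exact Or.inl ih2
        · exact Or.inl (ih1.symm.trans ih2)
    · have h1 : (gr F).Reachable u w := (gr_adjK.2 ⟨hmem, hne⟩).reachable
      rcases ih with ih | ⟨ih1, ih2⟩ | ⟨ih1, ih2⟩
      · exact Or.inl (h1.trans ih)
      · exact Or.inr (Or.inl ⟨h1.trans ih1, ih2⟩)
      · exact Or.inr (Or.inr ⟨h1.trans ih1, ih2⟩)

theorem gr_mono {F F' : Finset (Sym2 V)} (h : F ⊆ F') : gr F ≤ gr F' := by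
  intro x y hxy
  rw [gr_adjK] at hxy ⊢
  exact ⟨h hxy.1, hxy.2⟩

/-- the exchange property -/
theorem exchange [DecidableEq (Sym2 V)] {A F : Finset (Sym2 V)} {g : Sym2 V} {x y : V}
    (hg : g ∉ F) (hb : IsBase A (insert g F)) (hxy : s(x, y) ∈ A)
    (hn : ¬ (gr F).Reachable x y) : IsBase A (insert s(x, y) F) := by
  obtain ⟨hsub, hdiag, hac, hreach⟩ := hb
  have hne : x ≠ y := by
    rintro rfl
    exact hn (SimpleGraph.Reachable.refl _)
  induction g with
  | _ p q =>
  refine ⟨?_, ?_, ?_, ?_⟩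
  · intro e he
    rw [Finset.mem_insert] at he
    rcases he with rfl | he
    · exact hxy
    · exact hsub (Finset.mem_insert_of_mem he)
  · intro e he
    rw [Finset.mem_insert] at he
    rcases he with rfl | he
    · rw [Sym2.mk_isDiag_iff]; exact hne
    · exact hdiag e (Finset.mem_insert_of_mem he)
  · have h1 : (gr F).IsAcyclic := hac.anti (gr_mono (Finset.subset_insert _ _))
    have h2 : gr (insert s(x, y) F) = gr F ⊔ SimpleGraph.edge x y := by
      ext u v
      rw [SimpleGraph.sup_adj, gr_adjK, gr_adjK, SimpleGraph.edge_adj, Finset.mem_insert]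
      constructor
      · rintro ⟨h | h, h'⟩
        · right
          rw [Sym2.eq_iff] at h
          exact ⟨h, h'⟩
        · left; exact ⟨h, h'⟩
      · rintro (⟨h, h'⟩ | ⟨h, h'⟩)
        · exact ⟨Or.inr h, h'⟩
        · refine ⟨Or.inl ?_, h'⟩
          rw [Sym2.eq_iff]; exact h
    rw [h2]
    exact h1.sup_edge_of_not_reachable hn
  · -- spanning
    have hmono : gr F ≤ gr (insert s(x, y) F) := gr_mono (Finset.subset_insert _ _)
    have hxy' : (gr (insert s(x, y) F)).Reachable x y :=
      (gr_adjK.2 ⟨Finset.mem_insert_self _ _, hne⟩).reachable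
    have hpq : (gr (insert s(x, y) F)).Reachable p q := by
      have h1 : (gr A).Reachable x y := (gr_adjK.2 ⟨hxy, hne⟩).reachable
      rcases reach_insert (hreach x y h1) with h | ⟨h, h'⟩ | ⟨h, h'⟩
      · exact absurd h hn
      · exact ((h.mono hmono).symm.trans hxy').trans (h'.mono hmono).symm
      · exact (h'.mono hmono).trans (hxy'.symm.trans (h.mono hmono))
    intro u v huv
    rcases reach_insert (hreach u v huv) with h | ⟨h, h'⟩ | ⟨h, h'⟩
    · exact h.mono hmono
    · exact (h.mono hmono).trans (hpq.trans (h'.mono hmono))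
    · exact (h.mono hmono).trans (hpq.symm.trans (h'.mono hmono))

theorem dif_mk (φ : V → ℝ) (x y : V) :
    dif φ s(x, y) = φ x - φ y ∨ dif φ s(x, y) = φ y - φ x := by
  have h : Quot.mk _ (Quot.out s(x, y)) = s(x, y) := Quot.out_eq _
  unfold dif
  generalize Quot.out s(x, y) = z at h ⊢
  obtain ⟨a, b⟩ := z
  have h' : s(a, b) = s(x, y) := h
  rw [Sym2.eq_iff] at h'
  rcases h' with ⟨rfl, rfl⟩ | ⟨rfl, rfl⟩
  · left; rfl
  · right; rfl

/-- the sign of the orientation does not depend on `φ` -/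
theorem dif_mk' (x y : V) :
    (∀ φ : V → ℝ, dif φ s(x, y) = φ x - φ y) ∨ (∀ φ : V → ℝ, dif φ s(x, y) = φ y - φ x) := by
  have h : Quot.mk _ (Quot.out s(x, y)) = s(x, y) := Quot.out_eq _
  unfold dif
  generalize Quot.out s(x, y) = z at h ⊢
  obtain ⟨a, b⟩ := z
  have h' : s(a, b) = s(x, y) := h
  rw [Sym2.eq_iff] at h'
  rcases h' with ⟨rfl, rfl⟩ | ⟨rfl, rfl⟩
  · left; intro φ; rfl
  · right; intro φ; rfl

/-- a connected pair carries a unit flow -/
theorem exists_flow {T : Finset (Sym2 V)} {a b : V} (h : (gr T).Reachable a b) :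
    ∃ c : Sym2 V → ℝ, ∀ φ : V → ℝ, ∑ f ∈ T, c f * dif φ f = φ a - φ b := by
  classical
  obtain ⟨w⟩ := h
  induction w with
  | nil => exact ⟨fun _ => 0, fun φ => by simp⟩
  | @cons u w v hadj _ ih =>
    obtain ⟨c, hc⟩ := ih
    rw [gr_adjK] at hadj
    obtain ⟨hmem, hne⟩ := hadj
    rcases dif_mk' u w with hd | hd
    · refine ⟨fun f => c f + if f = s(u, w) then 1 else 0, fun φ => ?_⟩
      have h1 : ∑ f ∈ T, (c f + if f = s(u, w) then (1 : ℝ) else 0) * dif φ f =
          ∑ f ∈ T, c f * dif φ f + ∑ f ∈ T, (if f = s(u, w) then dif φ f else 0) := by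
        rw [← Finset.sum_add_distrib]
        refine Finset.sum_congr rfl fun f _ => ?_
        split_ifs <;> ring
      rw [h1, hc, Finset.sum_ite_eq' T s(u, w), if_pos hmem, hd]
      ring
    · refine ⟨fun f => c f - if f = s(u, w) then 1 else 0, fun φ => ?_⟩
      have h1 : ∑ f ∈ T, (c f - if f = s(u, w) then (1 : ℝ) else 0) * dif φ f =
          ∑ f ∈ T, c f * dif φ f - ∑ f ∈ T, (if f = s(u, w) then dif φ f else 0) := by
        rw [← Finset.sum_sub_distrib]
        refine Finset.sum_congr rfl fun f _ => ?_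
        split_ifs <;> ring
      rw [h1, hc, Finset.sum_ite_eq' T s(u, w), if_pos hmem, hd]
      ring

open Classical in
/-- indicator of the component of `a` in `F` -/
noncomputable def ind (F : Finset (Sym2 V)) (a v : V) : ℝ := if (gr F).Reachable a v then 1 else 0

theorem ind_self (F : Finset (Sym2 V)) (a : V) : ind F a a = 1 := by
  unfold ind; rw [if_pos (SimpleGraph.Reachable.refl _)]

theorem ind_nonneg (F : Finset (Sym2 V)) (a v : V) : 0 ≤ ind F a v := by
  unfold ind; split_ifs <;> norm_num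

theorem ind_le_one (F : Finset (Sym2 V)) (a v : V) : ind F a v ≤ 1 := by
  unfold ind; split_ifs <;> norm_num

theorem ind_eq_of_reach {F : Finset (Sym2 V)} {a x y : V} (h : (gr F).Reachable x y) :
    ind F a x = ind F a y := by
  unfold ind
  congr 1
  exact propext ⟨fun h' => h'.trans h, fun h' => h'.trans h.symm⟩

theorem dif_ind_of_mem {F : Finset (Sym2 V)} {a : V} {f : Sym2 V} (hf : f ∈ F) :
    dif (ind F a) f = 0 := by
  induction f with
  | _ x y =>
  have h : ind F a x = ind F a y := by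
    by_cases hxy : x = y
    · rw [hxy]
    · exact ind_eq_of_reach (gr_adjK.2 ⟨hf, hxy⟩).reachable
  rcases dif_mk (ind F a) x y with h' | h' <;> rw [h', h] <;> ring

/-- endpoints of a forest edge are separated when it is removed -/
theorem not_reach_erase [DecidableEq (Sym2 V)] {T : Finset (Sym2 V)} (hac : (gr T).IsAcyclic)
    {x y : V} (hxy : s(x, y) ∈ T) (hne : x ≠ y) : ¬ (gr (T.erase s(x, y))).Reachable x y := by
  have h1 := SimpleGraph.isAcyclic_iff_forall_isBridge.1 hac
    (e := s(x, y)) (by rw [SimpleGraph.mem_edgeSet]; exact gr_adjK.2 ⟨hxy, hne⟩)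
  rw [SimpleGraph.isBridge_iff] at h1
  have h2 : (gr T).deleteEdges {s(x, y)} = gr (T.erase s(x, y)) := by
    ext u v
    rw [SimpleGraph.deleteEdges_adj, gr_adjK, gr_adjK, Finset.mem_erase]
    simp only [Set.mem_singleton_iff]
    tauto
  rwa [h2] at h1

/-- the flow along the tree path is given by the cut indicators -/
theorem flow_coeff [DecidableEq (Sym2 V)] {T : Finset (Sym2 V)} (hac : (gr T).IsAcyclic)
    (hdiag : ∀ e ∈ T, ¬ e.IsDiag) {a b : V} {c : Sym2 V → ℝ}
    (hc : ∀ φ : V → ℝ, ∑ f ∈ T, c f * dif φ f = φ a - φ b) {f : Sym2 V} (hf : f ∈ T) :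
    ((gr (T.erase f)).Reachable a b → c f = 0) ∧
      (¬ (gr (T.erase f)).Reachable a b → c f = dif (ind (T.erase f) a) f ∧
        dif (ind (T.erase f) a) f ≠ 0) := by
  classical
  induction f with
  | _ x y =>
  have hne : x ≠ y := by
    have := hdiag _ hf
    rwa [Sym2.mk_isDiag_iff] at this
  have key : ∀ z : V, c s(x, y) * dif (ind (T.erase s(x, y)) z) s(x, y) =
      ind (T.erase s(x, y)) z a - ind (T.erase s(x, y)) z b := by
    intro z
    rw [← hc, ← Finset.add_sum_erase T _ hf]
    rw [Finset.sum_eq_zero, add_zero]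
    intro g hg
    rw [dif_ind_of_mem hg, mul_zero]
  have hsep := not_reach_erase hac hf hne
  constructor
  · intro hab
    have h1 := key x
    rw [ind_eq_of_reach hab, sub_self] at h1
    have h2 : dif (ind (T.erase s(x, y)) x) s(x, y) ≠ 0 := by
      have hx := ind_self (T.erase s(x, y)) x
      have hy : ind (T.erase s(x, y)) x y = 0 := by unfold ind; rw [if_neg hsep]
      rcases dif_mk (ind (T.erase s(x, y)) x) x y with h' | h' <;> rw [h', hx, hy] <;> norm_num
    exact (mul_eq_zero.1 h1).resolve_right h2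
  · intro hab
    have h1 := key a
    have hb : ind (T.erase s(x, y)) a b = 0 := by unfold ind; rw [if_neg hab]
    rw [ind_self, hb, sub_zero] at h1
    -- dif is ±1
    have h3 : dif (ind (T.erase s(x, y)) a) s(x, y) = 0 ∨
        dif (ind (T.erase s(x, y)) a) s(x, y) = 1 ∨
        dif (ind (T.erase s(x, y)) a) s(x, y) = -1 := by
      have hx : ind (T.erase s(x, y)) a x = 0 ∨ ind (T.erase s(x, y)) a x = 1 := by
        unfold ind; split_ifs <;> simp
      have hy : ind (T.erase s(x, y)) a y = 0 ∨ ind (T.erase s(x, y)) a y = 1 := by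
        unfold ind; split_ifs <;> simp
      rcases dif_mk (ind (T.erase s(x, y)) a) x y with h' | h' <;> rcases hx with hx | hx <;>
        rcases hy with hy | hy <;> rw [h', hx, hy] <;> norm_num
    rcases h3 with h3 | h3 | h3
    · rw [h3] at h1; norm_num at h1
    · rw [h3] at h1 ⊢; exact ⟨by linarith, by norm_num⟩
    · rw [h3] at h1 ⊢; exact ⟨by linarith, by norm_num⟩

theorem wt_eq_erase [DecidableEq (Sym2 V)] (h : Sym2 V → ℝ) {T : Finset (Sym2 V)} {f : Sym2 V}
    (hf : f ∈ T) : wt h T = Real.exp (h f) * wt h (T.erase f) := by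
  unfold wt
  rw [← Finset.add_sum_erase T _ hf, Real.exp_add]

theorem Zf_pos_bases (A : Finset (Sym2 V)) (h : Sym2 V → ℝ) : 0 < Zf (bases A) h :=
  Finset.sum_pos (fun _ _ => Real.exp_pos _) (bases_nonempty A)

/-- Kirchhoff: with `φ = U / Z`, `U v = ∑_{T ∋ e} w(T \ e) 1[v ~ a in T \ e]`, the flow
`f ↦ exp (h f) * dif φ f` is a unit flow from `a` to `b` and `P(e ∈ T) = exp (h e) * φ a`. -/
theorem kirchhoff (A : Finset (Sym2 V)) (h : Sym2 V → ℝ) {a b : V} (hab : a ≠ b)
    (he : s(a, b) ∈ A) :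
    ∃ φ : V → ℝ, (∀ v, 0 ≤ φ v ∧ φ v ≤ φ a) ∧ φ b = 0 ∧
      IsFlow A a b (fun f => Real.exp (h f) * dif φ f) ∧
      mg (bases A) h s(a, b) = Real.exp (h s(a, b)) * φ a := by
  classical
  have hZ := Zf_pos_bases A h
  set Z := Zf (bases A) h with hZdef
  set e : Sym2 V := s(a, b) with hedef
  let Tre : Finset (Finset (Sym2 V)) := (bases A).filter (fun T => e ∈ T)
  let U : V → ℝ := fun v => ∑ T ∈ Tre, wt h (T.erase e) * ind (T.erase e) a v
  have hTre : ∀ T ∈ Tre, IsBase A T ∧ e ∈ T := by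
    intro T hT
    simp only [Tre, Finset.mem_filter, mem_basesK] at hT
    exact hT
  have hsep : ∀ T ∈ Tre, ¬ (gr (T.erase e)).Reachable a b := fun T hT =>
    not_reach_erase (hTre T hT).1.2.2.1 (hTre T hT).2 hab
  refine ⟨fun v => U v / Z, ?_, ?_, ?_, ?_⟩
  · intro v
    constructor
    · refine div_nonneg (Finset.sum_nonneg fun T _ => ?_) hZ.le
      exact mul_nonneg (Real.exp_pos _).le (ind_nonneg _ _ _)
    · refine div_le_div_of_nonneg_right (Finset.sum_le_sum fun T _ => ?_) hZ.le
      rw [ind_self]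
      exact mul_le_mul_of_nonneg_left (ind_le_one _ _ _) (Real.exp_pos _).le
  · have : U b = 0 := by
      refine Finset.sum_eq_zero fun T hT => ?_
      unfold ind
      rw [if_neg (hsep T hT), mul_zero]
    simp only [this, zero_div]
  · intro ψ
    have hflow : ∀ T' ∈ bases A, ∃ c : Sym2 V → ℝ, ∀ φ : V → ℝ,
        ∑ f ∈ T', c f * dif φ f = φ a - φ b := by
      intro T' hT'
      refine exists_flow ((mem_basesK.1 hT').2.2.2 a b ?_)
      exact (gr_adjK.2 ⟨he, hab⟩).reachable
    choose! c hc using hflow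
    have hdif : ∀ f, dif (fun v => U v / Z) f =
        (∑ T ∈ Tre, wt h (T.erase e) * dif (ind (T.erase e) a) f) / Z := by
      intro f
      unfold dif
      simp only [U]
      rw [← sub_div, ← Finset.sum_sub_distrib]
      congr 1
      refine Finset.sum_congr rfl fun T _ => ?_
      ring
    -- left-hand side as a double sum
    have hL : ∑ f ∈ A, Real.exp (h f) * dif (fun v => U v / Z) f * dif ψ f =
        (∑ p ∈ Tre ×ˢ A, Real.exp (h p.2) * wt h (p.1.erase e) *
          dif (ind (p.1.erase e) a) p.2 * dif ψ p.2) / Z := by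
      rw [Finset.sum_product_right, Finset.sum_div]
      refine Finset.sum_congr rfl fun f _ => ?_
      rw [hdif, mul_div_assoc', div_mul_eq_mul_div]
      congr 1
      rw [Finset.mul_sum, Finset.sum_mul]
      refine Finset.sum_congr rfl fun T _ => ?_
      ring
    have hR : (ψ a - ψ b) * Z = ∑ p ∈ (bases A ×ˢ A).filter (fun p => p.2 ∈ p.1),
        wt h p.1 * c p.1 p.2 * dif ψ p.2 := by
      rw [Finset.sum_filter, Finset.sum_product, hZdef, Zf, Finset.mul_sum]
      refine Finset.sum_congr rfl fun T' hT' => ?_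
      rw [← Finset.sum_filter]
      have hfil : A.filter (fun f => f ∈ T') = T' := by
        ext f
        simp only [Finset.mem_filter]
        exact ⟨fun h => h.2, fun h => ⟨bases_subset hT' h, h⟩⟩
      simp only [hfil]
      rw [← hc T' hT' ψ, Finset.sum_mul]
      refine Finset.sum_congr rfl fun f _ => ?_
      ring
    rw [hL, div_eq_iff hZ.ne', hR]
    -- restrict both sums to nonzero terms
    have hL' : ∑ p ∈ Tre ×ˢ A, Real.exp (h p.2) * wt h (p.1.erase e) *
          dif (ind (p.1.erase e) a) p.2 * dif ψ p.2 =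
        ∑ p ∈ (Tre ×ˢ A).filter (fun p => dif (ind (p.1.erase e) a) p.2 ≠ 0),
          Real.exp (h p.2) * wt h (p.1.erase e) *
          dif (ind (p.1.erase e) a) p.2 * dif ψ p.2 := by
      rw [Finset.sum_filter]
      refine Finset.sum_congr rfl fun p _ => ?_
      split_ifs with h0
      · rfl
      · rw [not_not] at h0
        rw [h0]; ring
    have hR' : ∑ p ∈ (bases A ×ˢ A).filter (fun p => p.2 ∈ p.1),
        wt h p.1 * c p.1 p.2 * dif ψ p.2 =
        ∑ p ∈ ((bases A ×ˢ A).filter (fun p => p.2 ∈ p.1)).filter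
          (fun p => ¬ (gr (p.1.erase p.2)).Reachable a b),
        wt h p.1 * c p.1 p.2 * dif ψ p.2 := by
      rw [Finset.sum_filter (fun p : Finset (Sym2 V) × Sym2 V =>
        ¬ (gr (p.1.erase p.2)).Reachable a b)]
      refine Finset.sum_congr rfl fun p hp => ?_
      by_cases h0 : (gr (p.1.erase p.2)).Reachable a b
      · simp only [Finset.mem_filter, Finset.mem_product] at hp
        have hb := mem_basesK.1 hp.1.1
        rw [(flow_coeff hb.2.2.1 hb.2.1 (hc p.1 hp.1.1) hp.2).1 h0, if_neg (not_not.2 h0)]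
        ring
      · rw [if_pos h0]
    have hfwd : ∀ T ∈ Tre, ∀ f ∈ A, dif (ind (T.erase e) a) f ≠ 0 →
        f ∉ T.erase e ∧ IsBase A (insert f (T.erase e)) := by
      intro T hT f hf h0
      have hnot : f ∉ T.erase e := fun hmem => h0 (dif_ind_of_mem hmem)
      refine ⟨hnot, ?_⟩
      have hb : IsBase A (insert e (T.erase e)) := by
        rw [Finset.insert_erase (hTre T hT).2]; exact (hTre T hT).1
      induction f with
      | _ x y =>
      refine exchange (Finset.notMem_erase e T) hb hf fun hxy => h0 ?_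
      rcases dif_mk (ind (T.erase e) a) x y with h' | h' <;>
        rw [h', ind_eq_of_reach hxy] <;> ring
    have hbwd : ∀ T' ∈ bases A, ∀ f ∈ T', ¬ (gr (T'.erase f)).Reachable a b →
        e ∉ T'.erase f ∧ IsBase A (insert e (T'.erase f)) := by
      intro T' hT' f hf h0
      have hnot : e ∉ T'.erase f := fun hmem => h0 (gr_adjK.2 ⟨hmem, hab⟩).reachable
      refine ⟨hnot, ?_⟩
      have hb : IsBase A (insert f (T'.erase f)) := by
        rw [Finset.insert_erase hf]; exact mem_basesK.1 hT'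
      exact exchange (Finset.notMem_erase f T') hb he h0
    rw [hL', hR']
    refine Finset.sum_nbij' (fun p => (insert p.2 (p.1.erase e), p.2))
      (fun p => (insert e (p.1.erase p.2), p.2)) ?_ ?_ ?_ ?_ ?_
    · rintro ⟨T, f⟩ hp
      simp only [Finset.mem_filter, Finset.mem_product] at hp ⊢
      obtain ⟨⟨hT, hf⟩, h0⟩ := hp
      obtain ⟨h1, h2⟩ := hfwd T hT f hf h0
      refine ⟨⟨⟨mem_basesK.2 h2, hf⟩, Finset.mem_insert_self _ _⟩, ?_⟩
      rw [Finset.erase_insert h1]
      exact hsep T hT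
    · rintro ⟨T', f⟩ hp
      simp only [Finset.mem_filter, Finset.mem_product] at hp ⊢
      obtain ⟨⟨⟨hT', hf⟩, hfT⟩, h0⟩ := hp
      obtain ⟨h1, h2⟩ := hbwd T' hT' f hfT h0
      have hb := mem_basesK.1 hT'
      refine ⟨⟨?_, hf⟩, ?_⟩
      · simp only [Tre, Finset.mem_filter, mem_basesK]
        exact ⟨h2, Finset.mem_insert_self _ _⟩
      · rw [Finset.erase_insert h1]
        exact ((flow_coeff hb.2.2.1 hb.2.1 (hc T' hT') hfT).2 h0).2
    · rintro ⟨T, f⟩ hp
      simp only [Finset.mem_filter, Finset.mem_product] at hp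
      obtain ⟨⟨hT, hf⟩, h0⟩ := hp
      obtain ⟨h1, h2⟩ := hfwd T hT f hf h0
      simp only [Finset.erase_insert h1, Finset.insert_erase (hTre T hT).2]
    · rintro ⟨T', f⟩ hp
      simp only [Finset.mem_filter, Finset.mem_product] at hp
      obtain ⟨⟨⟨hT', hf⟩, hfT⟩, h0⟩ := hp
      obtain ⟨h1, h2⟩ := hbwd T' hT' f hfT h0
      simp only [Finset.erase_insert h1, Finset.insert_erase hfT]
    · rintro ⟨T, f⟩ hp
      simp only [Finset.mem_filter, Finset.mem_product] at hp
      obtain ⟨⟨hT, hf⟩, h0⟩ := hp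
      obtain ⟨h1, h2⟩ := hfwd T hT f hf h0
      have hmem : f ∈ insert f (T.erase e) := Finset.mem_insert_self _ _
      have hn : ¬ (gr ((insert f (T.erase e)).erase f)).Reachable a b := by
        rw [Finset.erase_insert h1]; exact hsep T hT
      have h3 := ((flow_coeff h2.2.2.1 h2.2.1 (hc _ (mem_basesK.2 h2)) hmem).2 hn).1
      rw [Finset.erase_insert h1] at h3
      simp only
      rw [h3, wt_eq_erase h hmem, Finset.erase_insert h1]
  · unfold mg prb
    simp only [U]
    rw [← Finset.sum_div, mul_div_assoc']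
    congr 1
    rw [Finset.mul_sum]
    refine Finset.sum_congr (by ext; simp [Tre]) fun T hT => ?_
    rw [ind_self, mul_one]
    exact wt_eq_erase h (hTre T hT).2

end Vale.Agent.P143
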