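import Vale.Agent.P143.Runs

/-! [S4] when the marginals are nearly 0/1, the law is nearly the rounding -/

open MeasureTheory

namespace Vale.Agent.P143

variable {E : Type*}

theorem abs_sub_le_of_mem {c I S : ℝ} (h1 : I = 1 ∨ I = 0) (hc0 : 0 ≤ c) (hc1 : c ≤ 1)
    (ha : I = 1 → 1 - c ≤ S) (hb : I = 0 → c ≤ S) : |c - I| ≤ S := by
  rcases h1 with h | h
  · have := ha h
    rw [h, abs_le]; constructor <;> linarith
  · have := hb h
    rw [h, sub_zero, abs_of_nonneg hc0]; exact this

open Classical in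
theorem law_bound {Tr : Finset (Finset E)} (hne : Tr.Nonempty) (h : E → ℝ) (F : Finset E)
    (η : E → Bool) (M : E → ℝ) (hM : ∀ e ∈ F, |mg Tr h e - M e| ≤ 1 / 8) :
    |cyl Tr h F η - (if ∀ e ∈ F, (1 / 2 < M e ↔ η e = true) then 1 else 0)|
      ≤ 2 * ∑ e ∈ F, (1 - sp Tr h e ^ 2) := by
  set σ : E → ℝ := fun e => if η e = true then 1 else -1 with hσ
  have hσ2 : ∀ e, σ e = 1 ∨ σ e = -1 := by
    intro e
    simp only [hσ]
    split_ifs
    · left; rfl
    · right; rfl
  have hσsq : ∀ e, σ e ^ 2 = 1 := by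
    intro e
    rcases hσ2 e with h | h <;> rw [h] <;> norm_num
  -- single-site disagreement
  have hdis : ∀ e B, (1 - σ e * sg e B) / 2 = if (e ∈ B ↔ η e = true) then 0 else 1 := by
    intro e B
    simp only [hσ, sg]
    by_cases h1 : e ∈ B <;> by_cases h2 : η e = true <;> simp [h1, h2]
  have hdis0 : ∀ e B, 0 ≤ (1 - σ e * sg e B) / 2 := by
    intro e B
    rw [hdis]
    split_ifs <;> norm_num
  have hsum : ∀ e, ∑ B ∈ Tr, prb Tr h B * ((1 - σ e * sg e B) / 2) = (1 - σ e * sp Tr h e) / 2 := by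
    intro e
    have e1 : ∀ B ∈ Tr, prb Tr h B * ((1 - σ e * sg e B) / 2)
        = prb Tr h B / 2 - σ e / 2 * (prb Tr h B * sg e B) := by
      intro B _
      ring
    rw [Finset.sum_congr rfl e1, Finset.sum_sub_distrib, ← Finset.mul_sum, ← sp_eq hne h e,
      ← Finset.sum_div, prb_sum hne h]
    ring
  have hc : cyl Tr h F η
      = ∑ B ∈ Tr, prb Tr h B * (if ∀ e ∈ F, (e ∈ B ↔ η e = true) then 1 else 0) := by
    unfold cyl
    rw [Finset.sum_filter]
    apply Finset.sum_congr rfl
    intro B _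
    split_ifs <;> simp
  have hup : ∀ e ∈ F, cyl Tr h F η ≤ 1 - (1 - σ e * sp Tr h e) / 2 := by
    intro e he
    rw [← hsum e, hc]
    nth_rewrite 2 [← prb_sum hne h]
    rw [← Finset.sum_sub_distrib]
    apply Finset.sum_le_sum
    intro B _
    have h1 : (if ∀ e ∈ F, (e ∈ B ↔ η e = true) then (1 : ℝ) else 0)
        ≤ 1 - (1 - σ e * sg e B) / 2 := by
      rw [hdis]
      by_cases h2 : ∀ e ∈ F, (e ∈ B ↔ η e = true)
      · rw [if_pos h2, if_pos (h2 e he)]; norm_num
      · rw [if_neg h2]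
        split_ifs <;> norm_num
    have := mul_le_mul_of_nonneg_left h1 (prb_nonneg Tr h B)
    linarith
  have hlow : 1 - cyl Tr h F η ≤ ∑ e ∈ F, (1 - σ e * sp Tr h e) / 2 := by
    have h1 : ∀ B ∈ Tr, prb Tr h B - prb Tr h B * (if ∀ e ∈ F, (e ∈ B ↔ η e = true) then 1 else 0)
        ≤ ∑ e ∈ F, prb Tr h B * ((1 - σ e * sg e B) / 2) := by
      intro B _
      rw [← Finset.mul_sum]
      have h2 : 1 - (if ∀ e ∈ F, (e ∈ B ↔ η e = true) then (1 : ℝ) else 0)
          ≤ ∑ e ∈ F, (1 - σ e * sg e B) / 2 := by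
        by_cases h3 : ∀ e ∈ F, (e ∈ B ↔ η e = true)
        · rw [if_pos h3]
          simpa using Finset.sum_nonneg (fun e _ => hdis0 e B)
        · rw [if_neg h3]
          push Not at h3
          obtain ⟨e, he, h4⟩ := h3
          have h5 := Finset.single_le_sum (f := fun e => (1 - σ e * sg e B) / 2)
            (fun e _ => hdis0 e B) he
          have h6 : (1 - σ e * sg e B) / 2 = 1 := by
            rw [hdis, if_neg]
            intro h7
            rcases h4 with ⟨a, b⟩ | ⟨a, b⟩
            · exact b (h7.mp a)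
            · exact a (h7.mpr b)
          simp only [h6] at h5
          linarith
      have := mul_le_mul_of_nonneg_left h2 (prb_nonneg Tr h B)
      linarith
    have h8 := Finset.sum_le_sum h1
    rw [Finset.sum_sub_distrib, ← hc, prb_sum hne h, Finset.sum_comm] at h8
    simp_rw [hsum] at h8
    exact h8
  have hs : ∀ e, |sp Tr h e| ≤ 1 := fun e => sp_abs hne h e
  have hnn : ∀ e, 0 ≤ 1 - sp Tr h e ^ 2 := fun e => by
    have := sq_le_one_of_abs (hs e)
    linarith
  apply abs_sub_le_of_mem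
  · split_ifs
    · left; rfl
    · right; rfl
  · exact cyl_nonneg Tr h F η
  · exact cyl_le_one hne h F η
  · intro hI
    have hI' : ∀ e ∈ F, (1 / 2 < M e ↔ η e = true) := by
      by_contra hcon
      rw [if_neg hcon] at hI
      norm_num at hI
    refine hlow.trans ?_
    rw [Finset.mul_sum]
    apply Finset.sum_le_sum
    intro e he
    have h1 := abs_le.mp (hM e he)
    have h2 := abs_le.mp (hs e)
    have h3 : - (1 / 4) ≤ σ e * sp Tr h e := by
      unfold sp
      by_cases h4 : η e = true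
      · have h5 := (hI' e he).mpr h4
        have h6 : σ e = 1 := by simp only [hσ]; rw [if_pos h4]
        rw [h6]; linarith
      · have h5 : ¬ 1 / 2 < M e := fun h => h4 ((hI' e he).mp h)
        have h6 : σ e = -1 := by simp only [hσ]; rw [if_neg h4]
        rw [h6]; linarith
    have h7 : σ e * sp Tr h e ≤ 1 := by
      rcases hσ2 e with h | h <;> rw [h] <;> linarith
    have h8 : sp Tr h e ^ 2 = (σ e * sp Tr h e) ^ 2 := by rw [mul_pow, hσsq, one_mul]
    rw [h8]
    nlinarith
  · intro hI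
    have hI' : ¬ ∀ e ∈ F, (1 / 2 < M e ↔ η e = true) := by
      intro hcon
      rw [if_pos hcon] at hI
      norm_num at hI
    push Not at hI'
    obtain ⟨e, he, h4⟩ := hI'
    refine (hup e he).trans ?_
    have h9 := Finset.single_le_sum (f := fun e => 1 - sp Tr h e ^ 2) (fun e _ => hnn e) he
    have h1 := abs_le.mp (hM e he)
    have h2 := abs_le.mp (hs e)
    have h3 : σ e * sp Tr h e ≤ 1 / 4 := by
      unfold sp
      rcases h4 with ⟨a, b⟩ | ⟨a, b⟩
      · have h6 : σ e = -1 := by simp only [hσ]; rw [if_neg b]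
        rw [h6]; linarith
      · have h6 : σ e = 1 := by simp only [hσ]; rw [if_pos b]
        rw [h6]; linarith
    have h7 : -1 ≤ σ e * sp Tr h e := by
      rcases hσ2 e with h | h <;> rw [h] <;> linarith
    have h8 : sp Tr h e ^ 2 = (σ e * sp Tr h e) ^ 2 := by rw [mul_pow, hσsq, one_mul]
    have h10 : 1 - (1 - σ e * sp Tr h e) / 2 ≤ 2 * (1 - sp Tr h e ^ 2) := by
      rw [h8]
      nlinarith
    refine h10.trans ?_
    exact mul_le_mul_of_nonneg_left h9 (by norm_num)

end Vale.Agent.P143
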