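import Vale.Agent.P143.Stab

/-! [S6] the infinite-volume marginals are limits -/

open MeasureTheory Filter Topology

namespace Vale.Agent.P143

variable {E : Type*}

open Classical in
theorem Mlim_spec {Tr : Finset E → Finset (Finset E)} (hne : ∀ A, (Tr A).Nonempty)
    {X : ℕ → Finset E} (hX : Monotone X) (hXu : ∀ e, ∃ n, e ∈ X n) {G : Set E} (hQL : QL Tr G)
    (r : ℕ) {e : E} (he : e ∈ G) {δ : ℝ} (hδ : 0 < δ) :
    ∃ A₀ : Finset E, (A₀ : Set E) ⊆ G ∧ ∀ A : Finset E, A₀ ⊆ A → (A : Set E) ⊆ G →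
      ∀ (lam : E → unitInterval), Set.InjOn lam G → ∀ (ω : Noise E),
        |marg Tr lam ω A r e - Mlim Tr X G lam ω r e| ≤ δ := by
  have key : ∀ A₀ : Finset E, (A₀ : Set E) ⊆ G → ∃ N, ∀ n ≥ N, A₀ ⊆ (X n).filter (· ∈ G) := by
    intro A₀ hA₀
    choose N hN using hXu
    refine ⟨A₀.sup N, fun n hn x hx => ?_⟩
    rw [Finset.mem_filter]
    exact ⟨hX ((Finset.le_sup hx).trans hn) (hN x), hA₀ hx⟩
  have hsub : ∀ n, (((X n).filter (· ∈ G) : Finset E) : Set E) ⊆ G := by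
    intro n x hx
    exact (Finset.mem_filter.mp hx).2
  have hconv : ∀ (lam : E → unitInterval), Set.InjOn lam G → ∀ (ω : Noise E),
      Tendsto (fun n => marg Tr lam ω ((X n).filter (· ∈ G)) r e) atTop
        (𝓝 (Mlim Tr X G lam ω r e)) := by
    intro lam hlam ω
    have hc : CauchySeq (fun n => marg Tr lam ω ((X n).filter (· ∈ G)) r e) := by
      rw [Metric.cauchySeq_iff]
      intro ε hε
      obtain ⟨A₀, h1, h2⟩ := stab_marg hne hQL r he (half_pos hε)
      obtain ⟨N, hN⟩ := key A₀ h1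
      refine ⟨N, fun m hm n hn => ?_⟩
      rw [Real.dist_eq]
      have := h2 _ _ (hN m hm) (hN n hn) (hsub m) (hsub n) lam hlam ω
      linarith
    obtain ⟨L, hL⟩ := cauchySeq_tendsto_of_complete hc
    have : Mlim Tr X G lam ω r e = L := hL.limsup_eq
    rw [this]
    exact hL
  obtain ⟨A₀, h1, h2⟩ := stab_marg hne hQL r he hδ
  refine ⟨A₀, h1, fun A hA hAG lam hlam ω => ?_⟩
  obtain ⟨N, hN⟩ := key A₀ h1
  have ht := ((tendsto_const_nhds (x := marg Tr lam ω A r e)).sub (hconv lam hlam ω)).abs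
  refine le_of_tendsto ht ?_
  filter_upwards [eventually_ge_atTop N] with n hn
  exact h2 A _ hA (hN n hn) hAG (hsub n) lam hlam ω

end Vale.Agent.P143
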