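import Vale.Agent.P143.UDefs
import Vale.Agent.P143.Final

/-! the universal edge rule -/

open MeasureTheory Filter Topology

namespace Vale.Agent.P143

theorem offd_eq {V : Type*} {g g' : Sym2 V → Bool} (h : codeGraph g = codeGraph g') :
    offd g = offd g' := by
  have h1 : Es g = Es g' := by
    have h2 := congrArg SimpleGraph.edgeSet h
    rwa [codeGraph_edgeSet, codeGraph_edgeSet] at h2
  have h3 : ∀ g : Sym2 V → Bool, ∀ e, offd g e = true ↔ e ∈ Es g := by
    intro g e
    have := Set.ext_iff.mp (offd_set g) e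
    exact this
  funext e
  rw [Bool.eq_iff_iff, h3, h3, h1]

theorem codeGraph_offd {V : Type*} (g : Sym2 V → Bool) : codeGraph (offd g) = codeGraph g := by
  apply SimpleGraph.edgeSet_injective
  rw [codeGraph_edgeSet, codeGraph_edgeSet]
  ext e
  simp only [Set.mem_ofPred_eq, offd]
  by_cases h : e.IsDiag
  · simp [h]
  · simp [h]

theorem offd_relabel (π : Equiv.Perm ℕ) (g : Sym2 ℕ → Bool) :
    offd (relabel π g) = relabel π (offd g) := by
  funext e
  have h : (Sym2.map π.symm e).IsDiag ↔ e.IsDiag := by
    induction e with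
    | _ x y => simp
  unfold offd relabel
  by_cases hd : e.IsDiag
  · rw [if_pos hd]
    exact (if_pos (h.mpr hd)).symm
  · rw [if_neg hd]
    exact (if_neg (mt h.mp hd)).symm

/-- one Borel edge rule for all connected locally finite graphs on `ℕ` -/
theorem exists_rule : ∃ Φ : (Sym2 ℕ → Bool) → (ℕ → unitInterval) → Sym2 ℕ → Bool, IsEdgeRule Φ ∧
    ∀ g : Sym2 ℕ → Bool, (codeGraph g).Connected →
      (∀ v, ((codeGraph g).neighborSet v).Finite) →
      IsFUSF (codeGraph g) ((iid ℕ).map (Φ g)) := by
  obtain ⟨Φ, hm, he, hl⟩ := universal ℕ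
  refine ⟨fun g U => Φ (offd g, U), ⟨fun e => ?_, ?_, ?_⟩, ?_⟩
  · have h1 : Measurable fun p : (Sym2 ℕ → Bool) × (ℕ → unitInterval) => (offd p.1, p.2) :=
      (measurable_offd.comp measurable_fst).prodMk measurable_snd
    exact (measurable_pi_apply e).comp (hm.comp h1)
  · intro g g' U e h
    rw [offd_eq h]
  · intro π g U e
    have h := congrFun (he π (offd g) U) (Sym2.map π e)
    simp only [Sym2.map_map] at h
    have h2 : Sym2.map (π.symm ∘ π) e = e := by
      rw [Equiv.symm_comp_self, Sym2.map_id]
      rfl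
    rw [h2] at h
    rw [offd_relabel]
    exact h
  · intro g hc hf
    have := hl (offd g) (by rw [codeGraph_offd]; exact hc) (by rw [codeGraph_offd]; exact hf)
    rw [codeGraph_offd] at this
    exact this

end Vale.Agent.P143
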