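import Vale.Agent.P143.Gibbs

/-! [S3] probability along runs -/

open MeasureTheory

namespace Vale.Agent.P143

variable {E : Type*}

open Classical in
theorem run_update (Tr : Finset (Finset E)) (ω : Noise E) {e : E × ℕ} {l : List (E × ℕ)}
    (he : e ∉ l) (u : unitInterval) :
    run Tr (Function.update ω e u) l = run Tr ω l := by
  induction l with
  | nil => rfl
  | cons a l ih =>
    simp only [List.mem_cons, not_or] at he
    simp only [run]
    rw [ih he.2, Function.update_of_ne (Ne.symm he.1)]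

theorem measurable_run (Tr : Finset (Finset E)) (l : List (E × ℕ)) :
    Measurable (fun ω : Noise E => run Tr ω l) := by
  induction l with
  | nil => exact measurable_const
  | cons a l ih =>
    simp only [run]
    have h1 : Measurable (fun ω : Noise E => ((ω a : ℝ), run Tr ω l)) :=
      ((measurable_subtype_coe).comp (measurable_pi_apply a)).prodMk ih
    exact (meas_stepA Tr a.1).comp h1

theorem mem_evs {q : List E} {r : ℕ} {e : E × ℕ} (h : e ∈ evs q r) : e.1 ∈ q ∧ e.2 < r := by
  induction r with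
  | zero => simp [evs] at h
  | succ r ih =>
    simp only [evs, List.mem_append, List.mem_map] at h
    rcases h with ⟨x, hx, rfl⟩ | h
    · exact ⟨hx, by simp⟩
    · have h2 := ih h
      exact ⟨h2.1, by omega⟩

theorem nodup_round {q : List E} (hq : q.Nodup) (r : ℕ) :
    (q.map (fun x => (x, r))).Nodup :=
  hq.map (fun a b h => (Prod.mk.inj h).1)

theorem nodup_round_append {q p : List E} (hp : p.Nodup) (r : ℕ) (hq : (evs q r).Nodup) :
    (p.map (fun x => (x, r)) ++ evs q r).Nodup := by
  rw [List.nodup_append]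
  refine ⟨nodup_round hp r, hq, ?_⟩
  intro x' ha y' hb hab
  subst hab
  simp only [List.mem_map] at ha
  obtain ⟨x, _, rfl⟩ := ha
  have := (mem_evs hb).2
  simp at this

theorem nodup_evs {q : List E} (hq : q.Nodup) (r : ℕ) : (evs q r).Nodup := by
  induction r with
  | zero => simp [evs]
  | succ r ih => exact nodup_round_append hq r ih

theorem evs_add (q : List E) (r k : ℕ) : ∃ l', evs q (r + k) = l' ++ evs q r := by
  induction k with
  | zero => exact ⟨[], rfl⟩
  | succ k ih =>
    obtain ⟨l', h⟩ := ih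
    refine ⟨q.map (fun x => (x, r + k)) ++ l', ?_⟩
    rw [← Nat.add_assoc, evs, h, List.append_assoc]

/-- measurability of a function of (state before, fresh uniform) -/
theorem meas_step_fun (Tr : Finset (Finset E)) (x : E) (l : List (E × ℕ))
    {F : (E → ℝ) → ℝ} (hF : Measurable F) :
    Measurable (Function.uncurry (fun (ω : Noise E) (u : unitInterval) =>
      F (stepA Tr x u (run Tr ω l)))) := by
  have h1 : Measurable (fun p : Noise E × unitInterval => ((p.2 : ℝ), run Tr p.1 l)) :=
    (measurable_subtype_coe.comp measurable_snd).prodMk ((measurable_run Tr l).comp measurable_fst)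
  exact hF.comp ((meas_stepA Tr x).comp h1)

open Classical in
/-- expectation of a bounded martingale function along a run -/
theorem run_martingale (Tr : Finset (Finset E)) {F : (E → ℝ) → ℝ} (hF : Measurable F) {C : ℝ}
    (hb : ∀ s, |F s| ≤ C)
    (hmart : ∀ x s, ∫ u : unitInterval, F (stepA Tr x u s) = F s)
    {l : List (E × ℕ)} (hl : l.Nodup) :
    ∫ ω, F (run Tr ω l) ∂(noiseMeasure E) = F (fun _ => 0) := by
  induction l with
  | nil => simp [run]
  | cons e l ih =>
    rw [List.nodup_cons] at hl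
    have h := resample e (fun ω u => F (stepA Tr e.1 u (run Tr ω l)))
      (meas_step_fun Tr e.1 l hF) C
      (fun ω u => hb _)
      (fun ω u u' => by rw [run_update Tr ω hl.1])
    simp only [run]
    rw [h]
    simp_rw [fun ω => hmart e.1 (run Tr ω l)]
    exact ih hl.2

open Classical in
/-- cylinder probability -/
noncomputable def cyl (Tr : Finset (Finset E)) (h : E → ℝ) (F : Finset E) (η : E → Bool) : ℝ :=
  ∑ B ∈ Tr.filter (fun B => ∀ e ∈ F, (e ∈ B ↔ η e = true)), prb Tr h B

theorem cyl_nonneg (Tr : Finset (Finset E)) (h : E → ℝ) (F : Finset E) (η : E → Bool) :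
    0 ≤ cyl Tr h F η :=
  Finset.sum_nonneg (fun B _ => prb_nonneg Tr h B)

open Classical in
theorem cyl_le_one {Tr : Finset (Finset E)} (hne : Tr.Nonempty) (h : E → ℝ) (F : Finset E)
    (η : E → Bool) : cyl Tr h F η ≤ 1 := by
  rw [← prb_sum hne h]
  unfold cyl
  apply Finset.sum_le_sum_of_subset_of_nonneg
  · intro B hB
    simp only [Finset.mem_filter] at hB
    exact hB.1
  · exact fun B _ _ => prb_nonneg Tr h B

theorem meas_cyl (Tr : Finset (Finset E)) (F : Finset E) (η : E → Bool) :
    Measurable (fun h : E → ℝ => cyl Tr h F η) := by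
  unfold cyl
  exact Finset.measurable_fun_sum _ (fun B _ => meas_prb Tr B)

/-- cylinder probabilities are martingales -/
theorem int_cyl {Tr : Finset (Finset E)} (hne : Tr.Nonempty) (e : E) (h : E → ℝ)
    (F : Finset E) (η : E → Bool) :
    ∫ u : unitInterval, cyl Tr (stepA Tr e u h) F η = cyl Tr h F η := by
  unfold cyl
  rw [integral_finsetSum]
  · apply Finset.sum_congr rfl
    intro B _
    rw [int_prb hne]
  · intro B _
    exact intble (cont_prb_step hne e h B)

/-- exactness along a run -/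
theorem exact_run {Tr : Finset (Finset E)} (hne : Tr.Nonempty) (F : Finset E) (η : E → Bool)
    {l : List (E × ℕ)} (hl : l.Nodup) :
    ∫ ω, cyl Tr (run Tr ω l) F η ∂(noiseMeasure E) = cyl Tr (fun _ => 0) F η := by
  refine run_martingale Tr (meas_cyl Tr F η) (C := 1) ?_ ?_ hl
  · intro s
    have := cyl_nonneg Tr s F η
    have := cyl_le_one hne s F η
    rw [abs_le]; constructor <;> linarith
  · intro x s
    exact int_cyl hne x s F η

theorem sq_le_one_of_abs {x : ℝ} (h : |x| ≤ 1) : x ^ 2 ≤ 1 := by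
  rw [← sq_abs]; nlinarith [abs_nonneg x]

theorem meas_sp_run (Tr : Finset (Finset E)) (v : E) (l : List (E × ℕ)) :
    Measurable (fun ω : Noise E => sp Tr (run Tr ω l) v) :=
  (meas_sp Tr v).comp (measurable_run Tr l)

theorem int_sp_step {Tr : Finset (Finset E)} (hne : Tr.Nonempty) (e : E) (h : E → ℝ) (v : E) :
    Integrable (fun u : unitInterval => sp Tr (stepA Tr e u h) v) :=
  intble (cont_sp_step hne e h v)

open Classical in
/-- martingale estimate along a run -/
theorem mart_aux {Tr : Finset (Finset E)} (hne : Tr.Nonempty) (v : E) {l : List (E × ℕ)}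
    (l' : List (E × ℕ)) (hl : (l' ++ l).Nodup) :
    ∫ ω, (1 + sp Tr (run Tr ω l) v ^ 2 - 2 * sp Tr (run Tr ω l) v * sp Tr (run Tr ω (l' ++ l)) v)
      ∂(noiseMeasure E) = ∫ ω, (1 - sp Tr (run Tr ω l) v ^ 2) ∂(noiseMeasure E) := by
  induction l' with
  | nil =>
    simp only [List.nil_append]
    congr 1
    ext ω
    ring
  | cons e l' ih =>
    rw [List.cons_append, List.nodup_cons] at hl
    have hel : e ∉ l := fun h => hl.1 (List.mem_append_right _ h)
    rw [← ih hl.2]
    have ma := meas_sp_run Tr v l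
    have h := resample e (fun ω u => 1 + sp Tr (run Tr ω l) v ^ 2 - 2 * sp Tr (run Tr ω l) v *
        sp Tr (stepA Tr e.1 u (run Tr ω (l' ++ l))) v)
      (by
        have m1 : Measurable (fun p : Noise E × unitInterval => sp Tr (run Tr p.1 l) v) :=
          ma.comp measurable_fst
        have m2 := meas_step_fun Tr e.1 (l' ++ l) (meas_sp Tr v)
        exact ((m1.pow_const 2).const_add 1).sub ((m1.const_mul 2).mul m2)) 4
      (fun ω u => by
        have a3 := abs_le.mp (sp_abs hne (run Tr ω l) v)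
        have a4 := abs_le.mp (sp_abs hne (stepA Tr e.1 u (run Tr ω (l' ++ l))) v)
        rw [abs_le]
        constructor <;> nlinarith)
      (fun ω u u' => by
        rw [run_update Tr ω hl.1, run_update Tr ω hel])
    simp only [List.cons_append, run] at h ⊢
    rw [h]
    congr 1
    ext ω
    have hi := int_sp_step hne e.1 (run Tr ω (l' ++ l)) v
    rw [integral_sub (integrable_const _) (hi.const_mul _), integral_const_mul,
      int_sp hne e.1 (run Tr ω (l' ++ l)) v]
    simp

/-- martingale estimate between rounds -/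
theorem mart {Tr : Finset (Finset E)} (hne : Tr.Nonempty) {q : List E} (hq : q.Nodup) (v : E)
    {r r' : ℕ} (hr : r ≤ r') :
    ∫ ω, (sp Tr (run Tr ω (evs q r')) v - sp Tr (run Tr ω (evs q r)) v) ^ 2 ∂(noiseMeasure E)
      ≤ ∫ ω, (1 - sp Tr (run Tr ω (evs q r)) v ^ 2) ∂(noiseMeasure E) := by
  obtain ⟨k, rfl⟩ := Nat.exists_eq_add_of_le hr
  obtain ⟨l', hl'⟩ := evs_add q r k
  have hn := nodup_evs hq (r + k)
  rw [hl'] at hn ⊢
  rw [← mart_aux hne v l' hn]
  have m1 := meas_sp_run Tr v (evs q r)
  have m2 := meas_sp_run Tr v (l' ++ evs q r)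
  apply integral_mono
  · refine integrable_bdd (C := 4) ((m2.sub m1).pow_const 2) (fun ω => ?_)
    have a1 := abs_le.mp (sp_abs hne (run Tr ω (evs q r)) v)
    have a2 := abs_le.mp (sp_abs hne (run Tr ω (l' ++ evs q r)) v)
    show |(sp Tr (run Tr ω (l' ++ evs q r)) v - sp Tr (run Tr ω (evs q r)) v) ^ 2| ≤ 4
    rw [abs_of_nonneg (sq_nonneg _)]
    nlinarith
  · refine integrable_bdd (C := 4) (((m1.pow_const 2).const_add 1).sub
      ((m1.const_mul 2).mul m2)) (fun ω => ?_)
    have a1 := abs_le.mp (sp_abs hne (run Tr ω (evs q r)) v)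
    have a2 := abs_le.mp (sp_abs hne (run Tr ω (l' ++ evs q r)) v)
    show |1 + sp Tr (run Tr ω (evs q r)) v ^ 2 - 2 * sp Tr (run Tr ω (evs q r)) v *
      sp Tr (run Tr ω (l' ++ evs q r)) v| ≤ 4
    rw [abs_le]
    constructor <;> nlinarith
  · intro ω
    have := sq_le_one_of_abs (sp_abs hne (run Tr ω (l' ++ evs q r)) v)
    show (sp Tr (run Tr ω (l' ++ evs q r)) v - sp Tr (run Tr ω (evs q r)) v) ^ 2
      ≤ 1 + sp Tr (run Tr ω (evs q r)) v ^ 2 - 2 * sp Tr (run Tr ω (evs q r)) v *
      sp Tr (run Tr ω (l' ++ evs q r)) v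
    nlinarith

/-- posterior variance -/
noncomputable def vr (Tr : Finset (Finset E)) (v : E) (l : List (E × ℕ)) : ℝ :=
  ∫ ω, (1 - sp Tr (run Tr ω l) v ^ 2) ∂(noiseMeasure E)

theorem meas_vr (Tr : Finset (Finset E)) (v : E) (l : List (E × ℕ)) :
    Measurable (fun ω : Noise E => 1 - sp Tr (run Tr ω l) v ^ 2) := by
  have m1 := meas_sp_run Tr v l
  exact (m1.pow_const 2).const_sub 1

theorem vr_abs' {Tr : Finset (Finset E)} (hne : Tr.Nonempty) (v : E) (s : E → ℝ) :
    |1 - sp Tr s v ^ 2| ≤ 1 := by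
  have := sq_le_one_of_abs (sp_abs hne s v)
  rw [abs_le]
  constructor <;> nlinarith [sq_nonneg (sp Tr s v)]

theorem vr_mem {Tr : Finset (Finset E)} (hne : Tr.Nonempty) (v : E) (l : List (E × ℕ)) :
    0 ≤ vr Tr v l ∧ vr Tr v l ≤ 1 := by
  constructor
  · apply integral_nonneg
    intro ω
    have := sq_le_one_of_abs (sp_abs hne (run Tr ω l) v)
    show 0 ≤ 1 - sp Tr (run Tr ω l) v ^ 2
    linarith
  · have := norm_integral_le_of_norm_le_const (μ := noiseMeasure E)
      (f := fun ω => 1 - sp Tr (run Tr ω l) v ^ 2) (C := 1)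
      (Filter.Eventually.of_forall (fun ω => by
        rw [Real.norm_eq_abs]; exact vr_abs' hne v _))
    unfold vr
    rw [Real.norm_eq_abs, probReal_univ, mul_one] at this
    exact (le_abs_self _).trans this

open Classical in
theorem vr_cons_le {Tr : Finset (Finset E)} (hne : Tr.Nonempty) (v : E) {l : List (E × ℕ)}
    {e : E × ℕ} (he : e ∉ l) :
    vr Tr v (e :: l) ≤ vr Tr v l := by
  unfold vr
  simp only [run]
  refine resample_le e (fun ω u => 1 - sp Tr (stepA Tr e.1 u (run Tr ω l)) v ^ 2) ?_ 1 ?_ ?_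
    (fun ω => 1 - sp Tr (run Tr ω l) v ^ 2) (meas_vr Tr v l) 1
    (fun ω => vr_abs' hne v _) ?_
  · exact meas_step_fun Tr e.1 l (F := fun s => 1 - sp Tr s v ^ 2)
      (((meas_sp Tr v).pow_const 2).const_sub 1)
  · intro ω u
    exact vr_abs' hne v _
  · intro ω u u'
    rw [run_update Tr ω he]
  · intro ω
    have hc2 : Continuous (fun u : unitInterval => sp Tr (stepA Tr e.1 u (run Tr ω l)) v ^ 2) :=
      (cont_sp_step hne e.1 _ v).pow 2
    rw [integral_sub (integrable_const _) (intble hc2)]
    have := int_sp_sq_ge hne e.1 (run Tr ω l) v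
    simp
    linarith

open Classical in
theorem vr_own_le {Tr : Finset (Finset E)} (hne : Tr.Nonempty) (v : E) {l : List (E × ℕ)} {j : ℕ}
    (he : (v, j) ∉ l) :
    vr Tr v ((v, j) :: l) ≤ vr Tr v l - 1 / 150 * (vr Tr v l) ^ 2 := by
  have hstep : vr Tr v ((v, j) :: l) ≤ ∫ ω, ((1 - sp Tr (run Tr ω l) v ^ 2)
      - 1 / 150 * (1 - sp Tr (run Tr ω l) v ^ 2) ^ 2) ∂(noiseMeasure E) := by
    unfold vr
    simp only [run]
    refine resample_le (v, j) (fun ω u => 1 - sp Tr (stepA Tr v u (run Tr ω l)) v ^ 2) ?_ 1 ?_ ?_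
      (fun ω => (1 - sp Tr (run Tr ω l) v ^ 2) - 1 / 150 * (1 - sp Tr (run Tr ω l) v ^ 2) ^ 2)
      ?_ 2 ?_ ?_
    · exact meas_step_fun Tr v l (F := fun s => 1 - sp Tr s v ^ 2)
        (((meas_sp Tr v).pow_const 2).const_sub 1)
    · intro ω u
      exact vr_abs' hne v _
    · intro ω u u'
      rw [run_update Tr ω he]
    · have := meas_vr Tr v l
      exact this.sub ((this.pow_const 2).const_mul _)
    · intro ω
      have := abs_le.mp (vr_abs' hne v (run Tr ω l))
      set w := 1 - sp Tr (run Tr ω l) v ^ 2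
      rw [abs_le]
      constructor <;> nlinarith
    · intro ω
      have hc2 : Continuous (fun u : unitInterval => sp Tr (stepA Tr v u (run Tr ω l)) v ^ 2) :=
        (cont_sp_step hne v _ v).pow 2
      rw [integral_sub (integrable_const _) (intble hc2)]
      have := int_own hne v (run Tr ω l)
      simp
      linarith
  refine hstep.trans ?_
  have i1 : Integrable (fun ω => 1 - sp Tr (run Tr ω l) v ^ 2) (noiseMeasure E) :=
    integrable_bdd (meas_vr Tr v l) (fun ω => vr_abs' hne v _)
  have i2 : Integrable (fun ω => (1 - sp Tr (run Tr ω l) v ^ 2) ^ 2) (noiseMeasure E) := by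
    refine integrable_bdd (C := 1) ((meas_vr Tr v l).pow_const 2) (fun ω => ?_)
    rw [abs_of_nonneg (sq_nonneg _)]
    exact sq_le_one_of_abs (vr_abs' hne v _)
  rw [integral_sub i1 (i2.const_mul _), integral_const_mul]
  have hJ : (vr Tr v l) ^ 2 ≤ ∫ ω, (1 - sp Tr (run Tr ω l) v ^ 2) ^ 2 ∂(noiseMeasure E) := by
    set a := vr Tr v l with ha
    have h2 : 0 ≤ ∫ ω, ((1 - sp Tr (run Tr ω l) v ^ 2) - a) ^ 2 ∂(noiseMeasure E) :=
      integral_nonneg (fun ω => sq_nonneg _)
    have h3 : ∫ ω, ((1 - sp Tr (run Tr ω l) v ^ 2) - a) ^ 2 ∂(noiseMeasure E)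
        = ∫ ω, ((1 - sp Tr (run Tr ω l) v ^ 2) ^ 2
          + (a ^ 2 - 2 * a * (1 - sp Tr (run Tr ω l) v ^ 2))) ∂(noiseMeasure E) := by
      congr 1
      ext ω
      ring
    have i3 : Integrable (fun ω : Noise E => 2 * a * (1 - sp Tr (run Tr ω l) v ^ 2))
      (noiseMeasure E) := i1.const_mul _
    have i4 : Integrable (fun ω : Noise E => a ^ 2 - 2 * a * (1 - sp Tr (run Tr ω l) v ^ 2))
      (noiseMeasure E) := (integrable_const _).sub i3
    rw [h3, integral_add i2 i4, integral_sub (integrable_const _) i3, integral_const_mul] at h2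
    have h4 : ∫ ω, (1 - sp Tr (run Tr ω l) v ^ 2) ∂(noiseMeasure E) = a := rfl
    rw [h4] at h2
    simp at h2
    nlinarith
  have : vr Tr v l = ∫ ω, (1 - sp Tr (run Tr ω l) v ^ 2) ∂(noiseMeasure E) := rfl
  rw [← this]
  linarith

theorem vr_append_le {Tr : Finset (Finset E)} (hne : Tr.Nonempty) (v : E) (l' : List (E × ℕ))
    {l : List (E × ℕ)} (h : (l' ++ l).Nodup) :
    vr Tr v (l' ++ l) ≤ vr Tr v l := by
  induction l' with
  | nil => exact le_rfl
  | cons e l' ih =>
    rw [List.cons_append, List.nodup_cons] at h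
    exact (vr_cons_le hne v h.1).trans (ih h.2)

/-- variance of the posterior after `r` rounds, uniformly in the volume -/
theorem var_bound {Tr : Finset (Finset E)} (hne : Tr.Nonempty) {q : List E} (hq : q.Nodup) {v : E}
    (hv : v ∈ q) (r : ℕ) :
    ∫ ω, (1 - sp Tr (run Tr ω (evs q r)) v ^ 2) ∂(noiseMeasure E)
      ≤ 1 / (1 + 1 / 150 * (r : ℝ)) := by
  show vr Tr v (evs q r) ≤ _
  induction r with
  | zero =>
    have := (vr_mem hne v (evs q 0)).2
    simpa using this
  | succ r ih =>
    obtain ⟨q1, q2, rfl⟩ := List.append_of_mem hv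
    set q := q1 ++ v :: q2 with hqd
    have hn := nodup_evs hq (r + 1)
    have e : evs q (r + 1) = q1.map (fun x => (x, r)) ++
        ((v, r) :: (q2.map (fun x => (x, r)) ++ evs q r)) := by
      rw [evs, hqd]
      simp
    rw [e] at hn ⊢
    have hn2 := (List.nodup_append.mp hn).2.1
    rw [List.nodup_cons] at hn2
    set c : ℝ := 1 / 150 with hc
    have hc0 : 0 ≤ c := by rw [hc]; norm_num
    have hc1 : c ≤ 1 / 2 := by rw [hc]; norm_num
    clear_value c
    have s1 := vr_append_le hne v _ hn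
    have s2 := vr_own_le hne v hn2.1
    rw [← hc] at s2
    have s3 := vr_append_le hne v _ hn2.2
    set w := vr Tr v (q2.map (fun x => (x, r)) ++ evs q r)
    have hw0 : 0 ≤ w := (vr_mem hne v _).1
    have hw1 : w ≤ 1 / (1 + c * r) := s3.trans ih
    have hr : (0 : ℝ) ≤ r := Nat.cast_nonneg r
    have hp : 0 < 1 + c * r := by positivity
    set y := 1 / (1 + c * r) with hy
    have hy0 : 0 < y := by positivity
    have hy1 : y ≤ 1 := by
      rw [hy, div_le_one hp]; nlinarith [mul_nonneg hc0 hr]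
    have hmono : w - c * w ^ 2 ≤ y - c * y ^ 2 := by
      have h1 : 0 ≤ (y - w) * (1 - c * (y + w)) := by
        apply mul_nonneg (by linarith)
        have h2 : y + w ≤ 2 := by linarith
        have h3 : c * (y + w) ≤ 1 / 2 * 2 :=
          mul_le_mul hc1 h2 (by linarith) (by norm_num)
        linarith
      nlinarith
    have hfin : y - c * y ^ 2 ≤ 1 / (1 + c * ((r : ℝ) + 1)) := by
      rw [le_div_iff₀ (by positivity)]
      have hyp : y * (1 + c * r) = 1 := by rw [hy]; field_simp
      have : (y - c * y ^ 2) * (1 + c * ((r : ℝ) + 1)) = 1 - c ^ 2 * y ^ 2 := by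
        have e1 : (y - c * y ^ 2) * (1 + c * ((r : ℝ) + 1))
          = (y * (1 + c * r)) * (1 - c * y) + c * y * (1 - c * y) := by ring
        rw [e1, hyp]; ring
      rw [this]
      nlinarith [sq_nonneg (c * y)]
    push_cast
    linarith

/-- probability that `e` disagrees with `b` -/
theorem law_one {Tr : Finset (Finset E)} (hne : Tr.Nonempty) (h : E → ℝ) (e : E) (b : Bool) :
    cyl Tr h {e} (fun _ => b) = if b then mg Tr h e else 1 - mg Tr h e := by
  classical
  unfold cyl mg
  cases b
  · rw [if_neg (by simp), ← prb_sum hne h,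
      ← Finset.sum_filter_add_sum_filter_not Tr (fun B => e ∈ B) (fun B => prb Tr h B)]
    rw [add_sub_cancel_left]
    apply Finset.sum_congr _ (fun _ _ => rfl)
    ext B
    simp
  · rw [if_pos rfl]
    apply Finset.sum_congr _ (fun _ _ => rfl)
    ext B
    simp

end Vale.Agent.P143
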