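import Vale.Agent.P143.Defs

/-!
# P143: the abstract sequential sampler — definitions
`lam e` = label of `e`, `ω (e, j)` = uniform variable used by `e` in round `j`.
-/

open MeasureTheory

namespace Vale.Agent.P143

noncomputable section

variable {E : Type*}

/-- inverse of the distribution function `τ ↦ (τ+1)/2 + e (τ²-1)/4` on `[-1,1]` -/
def T (e u : ℝ) : ℝ := (4 * u - 2 + e) / (1 + √((1 - e) ^ 2 + 4 * e * u))

/-- strength of an observation -/
def ep : ℝ := 1 / 5

/-- the tilt `z` when the current mean is `m` and the uniform variable is `u` -/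
def zz (m u : ℝ) : ℝ := ep * T (ep * (2 * m - 1)) u

/-- increment of the log-weight -/
def inc (m u : ℝ) : ℝ := Real.log ((1 + zz m u) / (1 - zz m u))

open Classical in
/-- one event at `e` -/
def stepA (Tr : Finset (Finset E)) (e : E) (u : ℝ) (h : E → ℝ) : E → ℝ :=
  Function.update h e (h e + inc (mg Tr h e) u)

abbrev Noise (E : Type*) := E × ℕ → unitInterval

def noiseMeasure (E : Type*) : Measure (Noise E) :=
  Measure.infinitePi (fun _ : E × ℕ => (volume : Measure unitInterval))

/-- run a list of events (the last element of the list first) -/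
def run (Tr : Finset (Finset E)) (ω : Noise E) : List (E × ℕ) → (E → ℝ)
  | [] => fun _ => 0
  | ev :: l => stepA Tr ev.1 (ω ev : ℝ) (run Tr ω l)

/-- `r` rounds, each processing the list `q` (last element first) -/
def evs (q : List E) : ℕ → List (E × ℕ)
  | 0 => []
  | r + 1 => q.map (fun x => (x, r)) ++ evs q r

open Classical in
/-- marginal at `e` after `r` rounds in the volume `A`, elements processed in increasing label
order (sum over the orderings of `A`, exactly one is sorted if the labels are distinct) -/
def marg (Tr : Finset E → Finset (Finset E)) (lam : E → unitInterval) (ω : Noise E)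
    (A : Finset E) (r : ℕ) (e : E) : ℝ :=
  ∑ q ∈ A.toList.permutations.toFinset,
    if q.Pairwise (fun x y => lam y < lam x) then mg (Tr A) (run (Tr A) ω (evs q r)) e else 0

open Classical in
/-- infinite-volume marginal (`X` is an exhaustion of `E` by finite sets) -/
def Mlim (Tr : Finset E → Finset (Finset E)) (X : ℕ → Finset E) (G : Set E)
    (lam : E → unitInterval) (ω : Noise E) (r : ℕ) (e : E) : ℝ :=
  Filter.limsup (fun n => marg Tr lam ω ((X n).filter (· ∈ G)) r e) Filter.atTop

open Classical in
/-- the factor map -/
def Phi (Tr : Finset E → Finset (Finset E)) (X : ℕ → Finset E) (G : Set E)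
    (lam : E → unitInterval) (ω : Noise E) (e : E) : Bool :=
  decide (e ∈ G ∧ Set.InjOn lam G ∧ ∀ᶠ k : ℕ in Filter.atTop,
    1 / 2 < Mlim Tr X G lam ω (2 ^ k) e)

end

end Vale.Agent.P143
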