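import Vale.Agent.P143.SDefs

/-! [S1] one-dimensional sampling map, resampling of one coordinate -/

open MeasureTheory

namespace Vale.Agent.P143

variable {E : Type*}

theorem rad_nonneg {e u : ℝ} (he : |e| ≤ 1 / 2) (hu : u ∈ Set.Icc (0 : ℝ) 1) :
    0 ≤ (1 - e) ^ 2 + 4 * e * u := by
  obtain ⟨h1, h2⟩ := abs_le.mp he
  obtain ⟨h3, h4⟩ := hu
  nlinarith [mul_nonneg h3 (sq_nonneg (1 + e)), mul_nonneg (sub_nonneg.2 h4) (sq_nonneg (1 - e))]

theorem T_eq {e u : ℝ} (he : |e| ≤ 1 / 2) (hu : u ∈ Set.Icc (0 : ℝ) 1) :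
    e * T e u ^ 2 + 2 * T e u + 2 - e - 4 * u = 0 := by
  have hr := rad_nonneg he hu
  have hR := Real.sq_sqrt hr
  have hR0 := Real.sqrt_nonneg ((1 - e) ^ 2 + 4 * e * u)
  unfold T
  set R := √((1 - e) ^ 2 + 4 * e * u)
  have hpos : (1 + R) ≠ 0 := by positivity
  field_simp
  linear_combination (-(4 * u - 2 + e)) * hR

theorem abs_T_le {e u : ℝ} (he : |e| ≤ 1 / 2) (hu : u ∈ Set.Icc (0 : ℝ) 1) : |T e u| ≤ 1 := by
  have hr := rad_nonneg he hu
  have hR := Real.sq_sqrt hr
  have hR0 := Real.sqrt_nonneg ((1 - e) ^ 2 + 4 * e * u)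
  obtain ⟨h1, h2⟩ := abs_le.mp he
  obtain ⟨h3, h4⟩ := hu
  unfold T
  set R := √((1 - e) ^ 2 + 4 * e * u)
  have hpos : 0 < (1 + R) := by positivity
  rw [abs_div, abs_of_pos hpos, div_le_one hpos, abs_le]
  constructor
  · by_contra hcon
    push Not at hcon
    have h5 : R < 1 - 4 * u - e := by linarith
    nlinarith [mul_nonneg h3 (show 0 ≤ 2 - e - 4 * u by linarith)]
  · by_contra hcon
    push Not at hcon
    have h5 : R < 4 * u - 3 + e := by linarith
    nlinarith [mul_nonneg (sub_nonneg.2 h4) (show 0 ≤ 4 * u - 2 + e by linarith)]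

theorem T_lip {e e' u : ℝ} (he : |e| ≤ 1 / 2) (he' : |e'| ≤ 1 / 2) (hu : u ∈ Set.Icc (0 : ℝ) 1) :
    |T e u - T e' u| ≤ |e - e'| := by
  have q1 := T_eq he hu
  have q2 := T_eq he' hu
  have a1 := abs_T_le he hu
  have a2 := abs_T_le he' hu
  set t := T e u
  set t' := T e' u
  have key : (t - t') * (2 + e * (t + t')) = (e' - e) * (t' ^ 2 - 1) := by linarith
  have hden : 1 ≤ 2 + e * (t + t') := by
    have : |e * (t + t')| ≤ 1 := by
      rw [abs_mul]
      have : |t + t'| ≤ 2 := (abs_add_le _ _).trans (by linarith)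
      nlinarith [abs_nonneg e, abs_nonneg (t + t')]
    have := (abs_le.mp this).1
    linarith
  have h3 : |t - t'| * (2 + e * (t + t')) ≤ |e - e'| := by
    have : |(t - t') * (2 + e * (t + t'))| = |(e' - e) * (t' ^ 2 - 1)| := by rw [key]
    rw [abs_mul, abs_mul, abs_of_pos (by linarith : 0 < 2 + e * (t + t')), abs_sub_comm e' e] at this
    rw [this]
    have h4 : |t' ^ 2 - 1| ≤ 1 := by
      have : t' ^ 2 ≤ 1 := by
        have := abs_le.mp a2
        nlinarith
      rw [abs_le]; constructor <;> nlinarith [sq_nonneg t']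
    nlinarith [abs_nonneg (e - e')]
  nlinarith [abs_nonneg (t - t')]

theorem measurable_T : Measurable (fun p : ℝ × ℝ => T p.1 p.2) := by
  unfold T
  fun_prop

theorem continuous_T_u (e : ℝ) : Continuous (fun u : ℝ => T e u) := by
  unfold T
  refine Continuous.div (by fun_prop) (by fun_prop) ?_
  intro u
  have := Real.sqrt_nonneg ((1 - e) ^ 2 + 4 * e * u)
  positivity

theorem int_T {e : ℝ} (he : |e| ≤ 1 / 2) {ψ : ℝ → ℝ} (hψ : ContinuousOn ψ (Set.Icc (-1) 1)) :
    ∫ u : unitInterval, ψ (T e u) = ∫ τ in (-1 : ℝ)..1, ψ τ * ((1 + e * τ) / 2) := by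
  obtain ⟨h1, h2⟩ := abs_le.mp he
  rw [integral_subtype measurableSet_Icc (fun u : ℝ => ψ (T e u))]
  rw [integral_Icc_eq_integral_Ioc, ← intervalIntegral.integral_of_le zero_le_one]
  let F : ℝ → ℝ := fun τ => (τ + 1) / 2 + e * (τ ^ 2 - 1) / 4
  have hF : ∀ τ, HasDerivAt F ((1 + e * τ) / 2) τ := by
    intro τ
    have h := (((hasDerivAt_id τ).add_const 1).div_const 2).add
      (((((hasDerivAt_id τ).pow 2).sub_const 1).const_mul e).div_const 4)
    refine (h.congr_deriv ?_)
    simp; ring
  have hFc : Continuous F := by fun_prop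
  have hFI : ∀ τ ∈ Set.Icc (-1 : ℝ) 1, F τ ∈ Set.Icc (0 : ℝ) 1 := by
    intro τ hτ
    obtain ⟨h3, h4⟩ := hτ
    constructor
    · show 0 ≤ (τ + 1) / 2 + e * (τ ^ 2 - 1) / 4
      nlinarith [mul_nonneg (show 0 ≤ 1 + τ by linarith) (show 0 ≤ 2 + e * (τ - 1) by nlinarith)]
    · show (τ + 1) / 2 + e * (τ ^ 2 - 1) / 4 ≤ 1
      nlinarith [mul_nonneg (show 0 ≤ 1 - τ by linarith) (show 0 ≤ 2 + e * (τ + 1) by nlinarith)]
  have hTF : ∀ τ ∈ Set.Icc (-1 : ℝ) 1, T e (F τ) = τ := by
    intro τ hτ
    obtain ⟨h3, h4⟩ := hτ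
    have hp : 0 < 1 + e * τ := by nlinarith
    have e1 : (1 - e) ^ 2 + 4 * e * (F τ) = (1 + e * τ) ^ 2 := by
      simp only [F]; ring
    unfold T
    rw [e1, Real.sqrt_sq hp.le]
    have : 1 + (1 + e * τ) ≠ 0 := by positivity
    rw [div_eq_iff this]
    simp only [F]; ring
  have hgc : ContinuousOn (fun u => ψ (T e u)) (Set.Icc 0 1) := by
    apply hψ.comp (continuous_T_u e).continuousOn
    intro u hu
    exact abs_le.mp (abs_T_le he hu)
  have hsub := intervalIntegral.integral_comp_mul_deriv'' (a := -1) (b := 1)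
    (f := F) (f' := fun τ => (1 + e * τ) / 2) (g := fun u => ψ (T e u)) hFc.continuousOn
    (fun x _ => (hF x).hasDerivWithinAt) (by fun_prop)
    (hgc.mono (by
      rintro _ ⟨τ, hτ, rfl⟩
      rw [Set.uIcc_of_le (by norm_num)] at hτ
      exact hFI τ hτ))
  have hF0 : F (-1) = 0 := by simp [F]
  have hF1 : F 1 = 1 := by simp [F]
  rw [hF0, hF1] at hsub
  rw [← hsub]
  apply intervalIntegral.integral_congr
  intro τ hτ
  rw [Set.uIcc_of_le (by norm_num)] at hτ
  show ψ (T e (F τ)) * ((1 + e * τ) / 2) = ψ τ * ((1 + e * τ) / 2)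
  rw [hTF τ hτ]


theorem intble {f : unitInterval → ℝ} (hf : Continuous f) : Integrable f :=
  hf.integrable_of_hasCompactSupport (HasCompactSupport.of_compactSpace f)

theorem cont_T_I (e : ℝ) : Continuous (fun u : unitInterval => T e u) :=
  (continuous_T_u e).comp continuous_subtype_val

theorem int_le_of_le {f : unitInterval → ℝ} (hf : Continuous f) {C : ℝ} (h : ∀ u, f u ≤ C) :
    ∫ u, f u ≤ C := by
  have h1 : ∫ u, f u ≤ ∫ _u : unitInterval, C :=
    integral_mono (intble hf) (integrable_const C) h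
  simpa using h1

theorem int_quad (a b c : ℝ) : ∫ τ in (-1 : ℝ)..1, (a + b * τ + c * τ ^ 2) = 2 * a + 2 * c / 3 := by
  rw [intervalIntegral.integral_add, intervalIntegral.integral_add]
  · rw [intervalIntegral.integral_const, intervalIntegral.integral_const_mul,
      intervalIntegral.integral_const_mul, integral_id, integral_pow]
    simp only [smul_eq_mul]
    push_cast
    ring
  all_goals apply Continuous.intervalIntegrable; fun_prop

theorem int_lin (b : ℝ) : ∫ τ in (-1 : ℝ)..1, (b * τ) = 0 := by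
  rw [intervalIntegral.integral_const_mul, integral_id]; ring
theorem id1 (m ε τ q : ℝ) (hq : q ≠ 0) : (m + ε * τ * (1 - m ^ 2) / q) ^ 2 * (q / 2)
        = m ^ 2 * q / 2 + m * ε * (1 - m ^ 2) * τ
          + (ε ^ 2 * (1 - m ^ 2) ^ 2 * τ ^ 2 / 2) / q := by
  field_simp
  ring


instance : IsProbabilityMeasure (noiseMeasure E) := by
  unfold noiseMeasure; infer_instance

open Classical in
theorem map_update (e : E × ℕ) :
    Measure.map (fun p : Noise E × unitInterval => Function.update p.1 e p.2)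
      ((noiseMeasure E).prod volume) = noiseMeasure E := by
  have hmeas : Measurable (fun p : Noise E × unitInterval => Function.update p.1 e p.2) :=
    measurable_update'
  unfold noiseMeasure
  apply Measure.eq_infinitePi
  intro s t ht
  have hpi : MeasurableSet (Set.pi (s : Set (E × ℕ)) t) :=
    MeasurableSet.pi s.countable_toSet (fun i _ => ht i)
  rw [Measure.map_apply hmeas hpi]
  have hpre : (fun p : Noise E × unitInterval => Function.update p.1 e p.2) ⁻¹'
      (Set.pi (s : Set (E × ℕ)) t)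
      = (Set.pi ((s.erase e : Finset (E × ℕ)) : Set (E × ℕ)) t) ×ˢ
        (if e ∈ s then t e else Set.univ) := by
    ext ⟨ω, u⟩
    simp only [Set.mem_preimage, Set.mem_pi, Finset.mem_coe, Set.mem_prod, Finset.mem_erase]
    constructor
    · intro h
      refine ⟨fun i hi => ?_, ?_⟩
      · have := h i hi.2
        rwa [Function.update_of_ne hi.1] at this
      · split_ifs with he
        · have := h e he
          rwa [Function.update_self] at this
        · trivial
    · rintro ⟨h1, h2⟩ i hi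
      by_cases hie : i = e
      · subst hie
        rw [Function.update_self]
        rwa [if_pos hi] at h2
      · rw [Function.update_of_ne hie]
        exact h1 i ⟨hie, hi⟩
  rw [hpre, Measure.prod_prod, Measure.infinitePi_pi _ (fun i _ => ht i)]
  by_cases he : e ∈ s
  · rw [if_pos he, mul_comm, Finset.mul_prod_erase s (fun i => volume (t i)) he]
  · rw [if_neg he, measure_univ, mul_one, Finset.erase_eq_of_notMem he]

theorem integrable_bdd {f : Noise E → ℝ} (hf : Measurable f) {C : ℝ} (hb : ∀ ω, |f ω| ≤ C) :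
    Integrable f (noiseMeasure E) :=
  Integrable.of_bound hf.aestronglyMeasurable C (Filter.Eventually.of_forall hb)

open Classical in
/-- resampling one coordinate -/
theorem resample (e : E × ℕ) (f : Noise E → unitInterval → ℝ)
    (hf : Measurable (Function.uncurry f)) (C : ℝ) (hb : ∀ ω u, |f ω u| ≤ C)
    (hinv : ∀ ω u u', f (Function.update ω e u') u = f ω u) :
    ∫ ω, f ω (ω e) ∂(noiseMeasure E) = ∫ ω, (∫ u, f ω u) ∂(noiseMeasure E) := by
  have hmeas : Measurable (fun p : Noise E × unitInterval => Function.update p.1 e p.2) :=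
    measurable_update'
  have hg : Measurable (fun ω : Noise E => f ω (ω e)) :=
    hf.comp (measurable_id.prodMk (measurable_pi_apply e))
  conv_lhs => rw [← map_update (E := E) e]
  rw [integral_map hmeas.aemeasurable hg.aestronglyMeasurable]
  have h1 : ∀ p : Noise E × unitInterval,
      f (Function.update p.1 e p.2) (Function.update p.1 e p.2 e) = f p.1 p.2 := by
    intro p
    rw [Function.update_self, hinv]
  simp_rw [h1]
  rw [integral_prod]
  exact Integrable.of_bound (f := fun p : Noise E × unitInterval => f p.1 p.2)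
    hf.aestronglyMeasurable C (Filter.Eventually.of_forall (fun p => hb p.1 p.2))

theorem meas_inner (f : Noise E → unitInterval → ℝ)
    (hf : Measurable (Function.uncurry f)) : Measurable (fun ω => ∫ u, f ω u) :=
  (hf.stronglyMeasurable.integral_prod_right).measurable

theorem inner_abs (f : Noise E → unitInterval → ℝ) {C : ℝ} (hb : ∀ ω u, |f ω u| ≤ C) (ω : Noise E) :
    |∫ u, f ω u| ≤ C := by
  have := norm_integral_le_of_norm_le_const (μ := (volume : Measure unitInterval)) (f := f ω)
    (C := C) (Filter.Eventually.of_forall (fun u => by rw [Real.norm_eq_abs]; exact hb ω u))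
  simpa using this

open Classical in
theorem resample_le (e : E × ℕ) (f : Noise E → unitInterval → ℝ)
    (hf : Measurable (Function.uncurry f)) (C : ℝ) (hb : ∀ ω u, |f ω u| ≤ C)
    (hinv : ∀ ω u u', f (Function.update ω e u') u = f ω u)
    (g : Noise E → ℝ) (hg : Measurable g) (C' : ℝ) (hgb : ∀ ω, |g ω| ≤ C')
    (h : ∀ ω, ∫ u, f ω u ≤ g ω) :
    ∫ ω, f ω (ω e) ∂(noiseMeasure E) ≤ ∫ ω, g ω ∂(noiseMeasure E) := by
  rw [resample e f hf C hb hinv]
  exact integral_mono (integrable_bdd (meas_inner f hf) (inner_abs f hb)) (integrable_bdd hg hgb) h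


end Vale.Agent.P143
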