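import Vale.Agent.P143.Law

/-! [S5] stability in the volume, uniformly in the noise -/

open MeasureTheory

namespace Vale.Agent.P143

variable {E : Type*}

/-- `q` lists the elements of `A` by decreasing label -/
def IsSort (lam : E → unitInterval) (A : Finset E) (q : List E) : Prop :=
  q.Pairwise (fun x y => lam y < lam x) ∧ ∀ x, x ∈ q ↔ x ∈ A

theorem IsSort.unique {lam : E → unitInterval} {A : Finset E} {q q' : List E}
    (h : IsSort lam A q) (h' : IsSort lam A q') : q = q' := by
  have : Std.Irrefl (fun x y : E => lam y < lam x) := ⟨fun x => lt_irrefl _⟩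
  have : Std.Antisymm (fun x y : E => lam y < lam x) := ⟨fun x y h1 h2 => absurd h1 (lt_asymm h2)⟩
  exact List.Pairwise.eq_of_mem_iff h.1 h'.1 (fun a => (h.2 a).trans (h'.2 a).symm)

theorem IsSort.nodup {lam : E → unitInterval} {A : Finset E} {q : List E}
    (h : IsSort lam A q) : q.Nodup :=
  h.1.imp (fun {a b} hab => by rintro rfl; exact lt_irrefl _ hab)

theorem exists_isSort {lam : E → unitInterval} {A : Finset E}
    (h : Set.InjOn lam (A : Set E)) : ∃ q, IsSort lam A q := by
  classical
  induction hn : A.card using Nat.strong_induction_on generalizing A with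
  | _ n ih =>
    rcases A.eq_empty_or_nonempty with rfl | hne
    · exact ⟨[], by simp [IsSort]⟩
    · obtain ⟨x, hx, hmax⟩ := A.exists_max_image lam hne
      have hlt : (A.erase x).card < n := by
        rw [← hn]; exact Finset.card_erase_lt_of_mem hx
      obtain ⟨q, hq1, hq2⟩ := ih _ hlt (A := A.erase x)
        (h.mono (by simp)) rfl
      refine ⟨x :: q, ?_, ?_⟩
      · rw [List.pairwise_cons]
        refine ⟨fun y hy => ?_, hq1⟩
        have hy' := Finset.mem_erase.mp ((hq2 y).mp hy)
        refine lt_of_le_of_ne (hmax y hy'.2) (fun heq => hy'.1 ?_)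
        exact h hy'.2 hx heq
      · intro y
        rw [List.mem_cons, hq2, Finset.mem_erase]
        constructor
        · rintro (rfl | h)
          · exact hx
          · exact h.2
        · intro hy
          by_cases hyx : y = x
          · left; exact hyx
          · right; exact ⟨hyx, hy⟩

theorem marg_eq (Tr : Finset E → Finset (Finset E)) {lam : E → unitInterval} (ω : Noise E)
    {A : Finset E} {q : List E} (hq : IsSort lam A q) (r : ℕ) (e : E) :
    marg Tr lam ω A r e = mg (Tr A) (run (Tr A) ω (evs q r)) e := by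
  classical
  unfold marg
  rw [Finset.sum_eq_single q]
  · rw [if_pos hq.1]
  · intro q' hq' hne
    rw [if_neg]
    intro hs
    apply hne
    apply IsSort.unique (lam := lam) (A := A) _ hq
    refine ⟨hs, fun x => ?_⟩
    rw [List.mem_toFinset, List.mem_permutations] at hq'
    rw [hq'.mem_iff, Finset.mem_toList]
  · intro hn
    exfalso
    apply hn
    rw [List.mem_toFinset, List.mem_permutations]
    apply (List.perm_ext_iff_of_nodup hq.nodup A.nodup_toList).mpr
    intro a
    rw [hq.2, Finset.mem_toList]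

theorem run_append_notin (Tr : Finset (Finset E)) (ω : Noise E) {l1 l2 : List (E × ℕ)} {f : E}
    (h : ∀ p ∈ l1, p.1 ≠ f) : run Tr ω (l1 ++ l2) f = run Tr ω l2 f := by
  classical
  induction l1 with
  | nil => rfl
  | cons a l ih =>
    simp only [List.mem_cons, forall_eq_or_imp] at h
    rw [List.cons_append]
    simp only [run, stepA]
    rw [Function.update_of_ne (Ne.symm h.1)]
    exact ih h.2

theorem run_out (Tr : Finset (Finset E)) (ω : Noise E) {l : List (E × ℕ)} {f : E}
    (h : ∀ p ∈ l, p.1 ≠ f) : run Tr ω l f = 0 := by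
  have := run_append_notin Tr ω (l1 := l) (l2 := []) (f := f) h
  rw [List.append_nil] at this
  rw [this]
  rfl

theorem run_rec (Tr : Finset (Finset E)) (ω : Noise E) {lam : E → unitInterval} {A : Finset E}
    {q : List E} (hq : IsSort lam A q) (j : ℕ) {f : E} (hf : f ∈ A) :
    run Tr ω (evs q (j + 1)) f = run Tr ω (evs q j) f
      + inc (mg Tr (fun g => if lam g < lam f then run Tr ω (evs q (j + 1)) g
          else run Tr ω (evs q j) g) f) (ω (f, j)) := by
  classical
  obtain ⟨q1, q2, hqq⟩ := List.append_of_mem ((hq.2 f).mpr hf)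
  have hp := hq.1
  rw [hqq, List.pairwise_append, List.pairwise_cons] at hp
  obtain ⟨hp1, ⟨hp2, hp3⟩, hp4⟩ := hp
  have e : evs q (j + 1) = q1.map (fun x => (x, j)) ++
      ((f, j) :: (q2.map (fun x => (x, j)) ++ evs q j)) := by
    rw [evs]
    conv_lhs => rw [hqq]
    simp only [List.map_append, List.map_cons, List.append_assoc, List.cons_append]
    rw [← hqq]
  have hf1 : ∀ p ∈ q1.map (fun x => (x, j)), p.1 ≠ f := by
    intro p hp
    obtain ⟨x, hx, rfl⟩ := List.mem_map.mp hp
    rintro rfl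
    exact lt_irrefl _ (hp4 x hx x (by simp))
  have hf2 : ∀ p ∈ q2.map (fun x => (x, j)), p.1 ≠ f := by
    intro p hp
    obtain ⟨x, hx, rfl⟩ := List.mem_map.mp hp
    rintro rfl
    exact lt_irrefl _ (hp2 x hx)
  have hS : (fun g => if lam g < lam f then run Tr ω (evs q (j + 1)) g
      else run Tr ω (evs q j) g) = run Tr ω (q2.map (fun x => (x, j)) ++ evs q j) := by
    funext g
    by_cases hg2 : g ∈ q2
    · rw [if_pos (hp2 g hg2), e, run_append_notin]
      · rw [show ((f, j) :: (q2.map (fun x => (x, j)) ++ evs q j))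
          = [(f, j)] ++ (q2.map (fun x => (x, j)) ++ evs q j) from rfl, run_append_notin]
        intro p hp
        rw [List.mem_singleton] at hp
        subst hp
        rintro rfl
        exact lt_irrefl _ (hp2 f hg2)
      · intro p hp
        obtain ⟨x, hx, rfl⟩ := List.mem_map.mp hp
        rintro rfl
        exact lt_irrefl _ (hp4 x hx x (by simp [hg2]))
    · have h1 : run Tr ω (q2.map (fun x => (x, j)) ++ evs q j) g = run Tr ω (evs q j) g := by
        apply run_append_notin
        intro p hp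
        obtain ⟨x, hx, rfl⟩ := List.mem_map.mp hp
        rintro rfl
        exact hg2 hx
      rw [h1]
      by_cases hlt : lam g < lam f
      · rw [if_pos hlt]
        have hgq : g ∉ q := by
          rw [hqq]
          intro hg
          rcases List.mem_append.mp hg with hg | hg
          · exact lt_asymm hlt (hp4 g hg f (by simp))
          · rcases List.mem_cons.mp hg with hg | hg
            · rw [hg] at hlt; exact lt_irrefl _ hlt
            · exact hg2 hg
        rw [run_out, run_out]
        · intro p hp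
          rintro rfl
          exact hgq (mem_evs hp).1
        · intro p hp
          rintro rfl
          exact hgq (mem_evs hp).1
      · rw [if_neg hlt]
  rw [hS]
  have h2 : run Tr ω (q2.map (fun x => (x, j)) ++ evs q j) f = run Tr ω (evs q j) f :=
    run_append_notin Tr ω hf2
  rw [e, run_append_notin Tr ω hf1]
  simp only [run, stepA]
  rw [Function.update_self, h2]

theorem run_abs {Tr : Finset (Finset E)} (hne : Tr.Nonempty) (ω : Noise E)
    {lam : E → unitInterval} {A : Finset E} {q : List E} (hq : IsSort lam A q) (j : ℕ) (f : E) :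
    |run Tr ω (evs q j) f| ≤ (j : ℝ) / 2 := by
  induction j with
  | zero => simp [evs, run]
  | succ j ih =>
    by_cases hf : f ∈ A
    · rw [run_rec Tr ω hq j hf]
      have h1 := inc_abs (mg_nonneg Tr (fun g => if lam g < lam f then run Tr ω (evs q (j + 1)) g
          else run Tr ω (evs q j) g) f) (mg_le_one hne _ f) (ω (f, j)).2
      refine (abs_add_le _ _).trans ?_
      push_cast
      linarith
    · rw [run_out]
      · simp; positivity
      · intro p hp
        rintro rfl
        exact hf ((hq.2 _).mp (mem_evs hp).1)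

/-- closeness of the fields after `j` rounds in all large volumes -/
def Close (Tr : Finset E → Finset (Finset E)) (G : Set E) (j : ℕ) (F : Finset E) (δ : ℝ) : Prop :=
  ∃ A₀ : Finset E, (A₀ : Set E) ⊆ G ∧ ∀ A B : Finset E, A₀ ⊆ A → A₀ ⊆ B → (A : Set E) ⊆ G →
    (B : Set E) ⊆ G → ∀ (lam : E → unitInterval) (qA qB : List E), IsSort lam A qA →
    IsSort lam B qB → ∀ (ω : Noise E), ∀ f ∈ F,
      |run (Tr A) ω (evs qA j) f - run (Tr B) ω (evs qB j) f| ≤ δ

theorem close_iter {Tr : Finset E → Finset (Finset E)} (hne : ∀ A, (Tr A).Nonempty) {G : Set E}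
    (hQL : QL Tr G) {j : ℕ}
    (ih : ∀ F : Finset E, (F : Set E) ⊆ G → ∀ δ > 0, Close Tr G j F δ) (k : ℕ) :
    ∀ F : Finset E, (F : Set E) ⊆ G → ∀ δ > 0,
      Close Tr G (j + 1) F ((2 / 5) ^ k * (j + 1 : ℝ) + δ) := by
  classical
  induction k with
  | zero =>
    intro F _ δ hδ
    refine ⟨∅, by simp, ?_⟩
    intro A B _ _ _ _ lam qA qB hA hB ω f _
    have h1 := run_abs (hne A) ω hA (j + 1) f
    have h2 := run_abs (hne B) ω hB (j + 1) f
    push_cast at h1 h2
    have h3 := abs_sub (run (Tr A) ω (evs qA (j + 1)) f) (run (Tr B) ω (evs qB (j + 1)) f)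
    rw [pow_zero, one_mul]
    linarith
  | succ k ihk =>
    intro F hF δ hδ
    -- neighbourhoods given by quasi-locality
    have hQ : ∀ f ∈ F, ∃ A₀ : Finset E, (A₀ : Set E) ⊆ G ∧
      ∀ A B : Finset E, A₀ ⊆ A → A₀ ⊆ B → (A : Set E) ⊆ G → (B : Set E) ⊆ G →
        ∀ h h' : E → ℝ, (∀ f, |h f| ≤ ((j + 1 : ℕ) : ℝ) / 2) →
          (∀ f, |h' f| ≤ ((j + 1 : ℕ) : ℝ) / 2) → ∀ D : ℝ,
          (∀ f ∈ A₀, |h f - h' f| ≤ D) → |mg (Tr A) h f - mg (Tr B) h' f| ≤ 2 * D + δ / 4 :=
      fun f hf => hQL f (hF hf) _ (δ / 4) (by linarith)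
    choose! N hN1 hN2 using hQ
    set F1 := F ∪ F.biUnion N with hF1
    have hF1G : (F1 : Set E) ⊆ G := by
      intro x hx
      rw [hF1, Finset.mem_coe, Finset.mem_union, Finset.mem_biUnion] at hx
      rcases hx with hx | ⟨f, hf, hx⟩
      · exact hF hx
      · exact hN1 f hf hx
    obtain ⟨A1, hA1G, hA1⟩ := ihk F1 hF1G (δ / 4) (by linarith)
    obtain ⟨A2, hA2G, hA2⟩ := ih F1 hF1G (δ / 4) (by linarith)
    refine ⟨A1 ∪ A2 ∪ F1, ?_, ?_⟩
    · intro x hx
      rw [Finset.mem_coe, Finset.mem_union, Finset.mem_union] at hx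
      rcases hx with (hx | hx) | hx
      · exact hA1G hx
      · exact hA2G hx
      · exact hF1G hx
    · intro A B hA0 hB0 hAG hBG lam qA qB hqA hqB ω f hf
      have hA1' : A1 ⊆ A1 ∪ A2 ∪ F1 := fun x hx =>
        Finset.mem_union_left _ (Finset.mem_union_left _ hx)
      have hA2' : A2 ⊆ A1 ∪ A2 ∪ F1 := fun x hx =>
        Finset.mem_union_left _ (Finset.mem_union_right _ hx)
      have hF1' : F1 ⊆ A1 ∪ A2 ∪ F1 := fun x hx => Finset.mem_union_right _ hx
      have hfF1 : f ∈ F1 := Finset.mem_union_left _ hf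
      have hNF1 : N f ⊆ F1 := fun x hx =>
        Finset.mem_union_right _ (Finset.mem_biUnion.mpr ⟨f, hf, hx⟩)
      have c1 := hA1 A B (hA1'.trans hA0) (hA1'.trans hB0) hAG hBG lam qA qB hqA hqB ω
      have c2 := hA2 A B (hA2'.trans hA0) (hA2'.trans hB0) hAG hBG lam qA qB hqA hqB ω
      have hfA : f ∈ A := hA0 (hF1' hfF1)
      have hfB : f ∈ B := hB0 (hF1' hfF1)
      rw [run_rec (Tr A) ω hqA j hfA, run_rec (Tr B) ω hqB j hfB]
      set sA : E → ℝ := fun g => if lam g < lam f then run (Tr A) ω (evs qA (j + 1)) g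
          else run (Tr A) ω (evs qA j) g with hsA
      set sB : E → ℝ := fun g => if lam g < lam f then run (Tr B) ω (evs qB (j + 1)) g
          else run (Tr B) ω (evs qB j) g with hsB
      have bA : ∀ g, |sA g| ≤ ((j + 1 : ℕ) : ℝ) / 2 := by
        intro g
        simp only [hsA]
        split_ifs
        · exact run_abs (hne A) ω hqA (j + 1) g
        · refine (run_abs (hne A) ω hqA j g).trans ?_
          push_cast; linarith
      have bB : ∀ g, |sB g| ≤ ((j + 1 : ℕ) : ℝ) / 2 := by
        intro g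
        simp only [hsB]
        split_ifs
        · exact run_abs (hne B) ω hqB (j + 1) g
        · refine (run_abs (hne B) ω hqB j g).trans ?_
          push_cast; linarith
      have hpos : 0 ≤ (2 / 5 : ℝ) ^ k * (j + 1 : ℝ) := by positivity
      have hD : ∀ g ∈ N f, |sA g - sB g| ≤ (2 / 5) ^ k * (j + 1 : ℝ) + δ / 4 := by
        intro g hg
        simp only [hsA, hsB]
        split_ifs
        · exact c1 g (hNF1 hg)
        · refine (c2 g (hNF1 hg)).trans ?_
          linarith
      have hm := hN2 f hf A B ((hNF1.trans hF1').trans hA0) ((hNF1.trans hF1').trans hB0) hAG hBG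
        sA sB bA bB _ hD
      have hi := inc_lip (mg_nonneg (Tr A) sA f) (mg_le_one (hne A) sA f)
        (mg_nonneg (Tr B) sB f) (mg_le_one (hne B) sB f) (ω (f, j)).2
      have h2 := c2 f hfF1
      have e1 : run (Tr A) ω (evs qA j) f + inc (mg (Tr A) sA f) (ω (f, j))
          - (run (Tr B) ω (evs qB j) f + inc (mg (Tr B) sB f) (ω (f, j)))
          = (run (Tr A) ω (evs qA j) f - run (Tr B) ω (evs qB j) f)
            + (inc (mg (Tr A) sA f) (ω (f, j)) - inc (mg (Tr B) sB f) (ω (f, j))) := by ring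
      rw [e1]
      refine (abs_add_le _ _).trans ?_
      rw [pow_succ]
      nlinarith

theorem close_all {Tr : Finset E → Finset (Finset E)} (hne : ∀ A, (Tr A).Nonempty) {G : Set E}
    (hQL : QL Tr G) (j : ℕ) :
    ∀ F : Finset E, (F : Set E) ⊆ G → ∀ δ > 0, Close Tr G j F δ := by
  induction j with
  | zero =>
    intro F _ δ hδ
    refine ⟨∅, by simp, ?_⟩
    intro A B _ _ _ _ lam qA qB hA hB ω f _
    simp [evs, run, hδ.le]
  | succ j ih =>
    intro F hF δ hδ
    obtain ⟨k, hk⟩ := exists_pow_lt_of_lt_one (show 0 < δ / 2 / (j + 1 : ℝ) by positivity)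
      (by norm_num : (2 / 5 : ℝ) < 1)
    obtain ⟨A₀, h1, h2⟩ := close_iter hne hQL ih k F hF (δ / 2) (by linarith)
    refine ⟨A₀, h1, ?_⟩
    intro A B hA0 hB0 hAG hBG lam qA qB hqA hqB ω f hf
    refine (h2 A B hA0 hB0 hAG hBG lam qA qB hqA hqB ω f hf).trans ?_
    have hj : (0 : ℝ) < j + 1 := by positivity
    rw [lt_div_iff₀ hj] at hk
    linarith

/-- stability of the marginals -/
theorem stab_marg {Tr : Finset E → Finset (Finset E)} (hne : ∀ A, (Tr A).Nonempty) {G : Set E}
    (hQL : QL Tr G) (r : ℕ) {e : E} (he : e ∈ G) {δ : ℝ} (hδ : 0 < δ) :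
    ∃ A₀ : Finset E, (A₀ : Set E) ⊆ G ∧ ∀ A B : Finset E, A₀ ⊆ A → A₀ ⊆ B → (A : Set E) ⊆ G →
      (B : Set E) ⊆ G → ∀ (lam : E → unitInterval), Set.InjOn lam G → ∀ (ω : Noise E),
        |marg Tr lam ω A r e - marg Tr lam ω B r e| ≤ δ := by
  classical
  obtain ⟨N, hN1, hN2⟩ := hQL e he ((r : ℝ) / 2) (δ / 2) (by linarith)
  obtain ⟨A1, hA1G, hA1⟩ := close_all hne hQL r N hN1 (δ / 4) (by linarith)
  refine ⟨N ∪ A1, ?_, ?_⟩
  · intro x hx
    rw [Finset.mem_coe, Finset.mem_union] at hx
    rcases hx with hx | hx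
    · exact hN1 hx
    · exact hA1G hx
  · intro A B hA0 hB0 hAG hBG lam hlam ω
    obtain ⟨qA, hqA⟩ := exists_isSort (lam := lam) (A := A) (hlam.mono hAG)
    obtain ⟨qB, hqB⟩ := exists_isSort (lam := lam) (A := B) (hlam.mono hBG)
    rw [marg_eq Tr ω hqA, marg_eq Tr ω hqB]
    have hl : N ⊆ N ∪ A1 := Finset.subset_union_left
    have hr : A1 ⊆ N ∪ A1 := Finset.subset_union_right
    have := hN2 A B (hl.trans hA0) (hl.trans hB0) hAG hBG _ _
      (run_abs (hne A) ω hqA r) (run_abs (hne B) ω hqB r) (δ / 4)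
      (hA1 A B (hr.trans hA0) (hr.trans hB0) hAG hBG lam qA qB hqA hqB ω)
    linarith

end Vale.Agent.P143
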