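import Vale.Agent.P143.FDefs

/-! unimodular random graphs and graph factors of IID -/

open MeasureTheory Filter Topology

namespace Vale.Agent.P143

/-- relabelling by `π` of an edge set of the complete graph on `ℕ` -/
def relabel (π : Equiv.Perm ℕ) (g : Sym2 ℕ → Bool) : Sym2 ℕ → Bool :=
  fun e => g (Sym2.map π.symm e)

/-- `μ` is the law of a unimodular random rooted graph `(G, o)`, represented on the vertex set
`ℕ` (`G` is `codeGraph p.1`, `o` is `p.2`): `G` is almost surely connected and locally finite
and the mass transport principle holds for every nonnegative Borel function of the isomorphism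
class of a graph with two distinguished vertices -/
structure IsUnimodular (μ : Measure ((Sym2 ℕ → Bool) × ℕ)) : Prop where
  prob : IsProbabilityMeasure μ
  graph : ∀ᵐ p ∂μ, (codeGraph p.1).Connected ∧ ∀ v, ((codeGraph p.1).neighborSet v).Finite
  mtp : ∀ f : (Sym2 ℕ → Bool) → ℕ → ℕ → ENNReal, (∀ x y, Measurable fun g => f g x y) →
    (∀ g g' x y, codeGraph g = codeGraph g' → f g x y = f g' x y) →
    (∀ (π : Equiv.Perm ℕ) g x y, f (relabel π g) (π x) (π y) = f g x y) →
      ∫⁻ p, ∑' v, f p.1 p.2 v ∂μ = ∫⁻ p, ∑' v, f p.1 v p.2 ∂μ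

/-- `Φ` is a Borel `{0,1}`-valued function of the isomorphism class of a graph on `ℕ` (coded by
`g`) with vertex labels `U` in `[0,1]` and a distinguished edge `e` -/
structure IsEdgeRule (Φ : (Sym2 ℕ → Bool) → (ℕ → unitInterval) → Sym2 ℕ → Bool) : Prop where
  borel : ∀ e, Measurable fun p : (Sym2 ℕ → Bool) × (ℕ → unitInterval) => Φ p.1 p.2 e
  graph : ∀ g g' U e, codeGraph g = codeGraph g' → Φ g U e = Φ g' U e
  invariant : ∀ (π : Equiv.Perm ℕ) g U e,
    Φ (relabel π g) (fun v => U (π.symm v)) (Sym2.map π e) = Φ g U e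

end Vale.Agent.P143
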